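import Vale.Agent.P233.H249.If6
import Vale.Agent.P233.H853.Static2
import Vale.Agent.P233.H415.ULimW
import Vale.Agent.P233.H748.Ex

/-! P233, block C6: the end point at level `n` (`Pc6_ss` of `H249/If6`). -/

set_option linter.all false

open MeasureTheory Filter Topology Set
open scoped ENNReal NNReal InnerProductSpace

universe u

namespace Vale.Agent.P233.H545

open Vale.Agent.P233.PA (en OutA)
open Vale.Agent.P233.PC

section abstract

variable {M : Type u} [MeasurableSpace M] {m : Measure M} {C : Calc m}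
variable (hC : IsGamma C) {κ : ℝ} (hB : C.BEi κ)
variable {F h w l r : M →ₘ[m] ℝ}

include hC in
theorem wHc_eq (hh : h ∈ C.W) (hr : r ∈ C.W) : C.wHc F h (1 + r) = H853.wH1 C F h r := by
  unfold Calc.wHc H853.wH1 H853.De1
  rw [add_sub_cancel_left, hC.symm _ hh _ hr, add_comm ((1 + r) * C.lap h)]

include hC hB in
/-- the weak form for a test function is the integral of the Hessian -/
theorem I_hess_eq_wHc (hF : F ∈ C.Test) (hh : h ∈ C.TestI) (hw : w - 1 ∈ C.A) :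
    I (w * C.hess F h h) = C.wHc F h w := by
  have e : (1 : M →ₘ[m] ℝ) + (w - 1) = w := by abel
  rw [← e, wHc_eq hC (hC.tW hh.1) hw.1, H853.wH1_test hC hB hF hh hw]

include hC hB in
/-- `wHc` is continuous for weak convergence in `W` -/
theorem wHc_tendsto {ι : Type*} {L : Filter ι} [L.NeBot] {f : ι → M →ₘ[m] ℝ}
    (hf : WConv L f F) (hE : BddE C L f) (hh : h ∈ C.TestI) (hw : w - 1 ∈ C.A) :
    Tendsto (fun i => C.wHc (f i) h w) L (𝓝 (C.wHc F h w)) := by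
  have hwt : MemLp w ∞ m := by
    have := mem_add hw.2 (mem_top_one (M := M) (m := m))
    rwa [sub_add_cancel] at this
  have hk : MemLp (w * C.lap h + C.Γ h (w - 1) : M →ₘ[m] ℝ) 2 m :=
    mem_add (mem_mul_top hwt (hC.lap2 hh.1)) (hC.Γ_mem2 (hC.tW hh.1) (hC.test_Γ_top hh.1) hw.1)
  have h1 := ((hC.toIsDir.wconv_Γ_lip hf hE (hC.tW hh.1) (hC.test_Γ_top hh.1)).lim _ hk).neg
  have h2 := (hC.toIsDir.wconv_Γ hf hE hwt (hC.Γ_mem hB hh.1 hh.1).1).const_mul (2 : ℝ)⁻¹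
  have h3 := h1.sub h2
  unfold Calc.wHc
  simpa only [mul_comm (w * C.lap h + C.Γ h (w - 1))] using h3

include hC hB in
/-- the value of `SS` at the end point of a level -/
theorem SS_one {P : ℝ → (M →ₘ[m] ℝ) → (M →ₘ[m] ℝ)} {ε : ℝ} {a : M →ₘ[m] ℝ}
    {φ u : ℝ → M →ₘ[m] ℝ} (hF : Fam C P ε a l φ u) (hl : l ∈ C.TestI) (hh : h ∈ C.TestI) :
    C.SS ε φ u h 1 = C.wHc (u 1) h (ex l) + ε * (2⁻¹ * C.wHc l h (ex l)) := by
  have hε : 0 < ε := hF.pair.hε
  have h1 : (1 : ℝ) ∈ Icc (0 : ℝ) 1 := ⟨zero_le_one, le_rfl⟩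
  have hu := hF.pair.u_mem 1 h1
  have hw : ex l - 1 ∈ C.A := hC.toIsDir.ex_A (hC.test_A hl.1)
  have e1 : rh ε φ u 1 = ex l := by
    unfold rh
    rw [hF.fin, add_sub_cancel_left, smul_smul, inv_mul_cancel₀ hε.ne', one_smul]
  have e2 : th φ u 1 = u 1 + (ε / 2) • l := by
    unfold th
    rw [hF.fin]
    module
  have hθ : u 1 + (ε / 2) • l ∈ C.Test := hC.test_add hB hu.1 (hC.test_smul hB _ hl.1)
  have hwt : MemLp (ex l) ∞ m := ex_top (hC.test_A hl.1).2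
  unfold Calc.SS
  rw [e1, e2, I_hess_eq_wHc hC hB hθ hh hw]
  have hFW := hC.tW hu.1
  have hlW := hC.tW hl.1
  have e : (1 : M →ₘ[m] ℝ) + (ex l - 1) = ex l := by abel
  have key : ∀ G ∈ C.W, C.wHc G h (ex l) = H853.wH1 C G h (ex l - 1) := by
    intro G hG
    have := wHc_eq (F := G) hC (hC.tW hh.1) hw.1
    rwa [e] at this
  rw [key _ (hC.add_mem _ hFW _ (hC.smul_mem _ _ hlW)), key _ hFW, key _ hlW,
    H853.wH1_add hC hB hFW (hC.smul_mem _ _ hlW) hh.1 hw, H853.wH1_smul hC hB _ hlW hh.1]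
  ring

end abstract

theorem pc6_ss : Pc6_ss.{u} := by
  intro M _ _ _ _ _ m K N κ P p s₀ C₀ hyp E _ _ _ Gr V D HO e hE u φ hA hL l hl h hh
  have hC : IsGamma (sob m) := isGamma_sob hyp.std.hfin hyp.std.rcd.quadratic
    hyp.std.rcd.sobolev_to_lipschitz
  have hB : (sob m).BEi K := hC.bei hyp.std.hN hyp.std.rcd.bochner
  have h1 : (1 : ℝ) ∈ Icc (0 : ℝ) 1 := ⟨zero_le_one, le_rfl⟩
  obtain ⟨Dc, D', hU⟩ := hA.levU
  have hz := hA.ulim.mem 1 h1
  have hw : ex l - 1 ∈ (sob m).A := hC.toIsDir.ex_A (hC.test_A hl.1)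
  have hBE : BddE (sob m) atTop (fun n => u n 1) := by
    refine ⟨D' 1, ?_⟩
    filter_upwards [hU, hA.fam] with n a1 a2
    exact ⟨hC.tW ((a2 l hl).pair.u_mem 1 h1).1, a1.en 1 ⟨zero_lt_one, le_rfl⟩ 1 ⟨le_rfl, le_rfl⟩⟩
  have hS : SConv atTop (fun n => u n 1) (zc m p s₀ C₀ 1) := by
    refine ⟨?_, hA.ulim.conv 1 h1⟩
    filter_upwards [hBE.mem] with n hn
    exact mem_sub (hC.memLp _ hn) (hC.memLp _ hz.1.1)
  have hW := hS.wconv (hC.memLp _ hz.1.1)
  have t1 := wHc_tendsto hC hB hW hBE hh hw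
  have t2 : Tendsto (fun n => en n * (2⁻¹ * (sob m).wHc l h (ex l))) atTop (𝓝 0) := by
    have h0 := tendsto_one_div_add_atTop_nhds_zero_nat (𝕜 := ℝ)
    simp only [one_div] at h0
    have := h0.mul_const (2⁻¹ * (sob m).wHc l h (ex l))
    rw [zero_mul] at this
    exact this
  have t3 := t1.add t2
  rw [add_zero] at t3
  refine t3.congr' ?_
  filter_upwards [hA.fam] with n hn
  exact (SS_one hC hB (hn l hl) hl hh).symm

end Vale.Agent.P233.H545
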