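import Mathlib

/-!
# Optimal transport toolbox, part 1

Existence of optimal couplings on Polish spaces (Prokhorov), cyclical monotonicity
of the support of an optimal coupling.
-/

open MeasureTheory Set Filter Topology
open scoped ENNReal NNReal BoundedContinuousFunction

namespace Vale.Agent.P233.H545.OT

set_option linter.unusedSectionVars false

variable {X Y : Type*} [MeasurableSpace X] [MeasurableSpace Y]

/-- `π` is a coupling of `μ` and `ν`: its marginals are `μ` and `ν`. -/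
def IsCoupling (π : Measure (X × Y)) (μ : Measure X) (ν : Measure Y) : Prop :=
  π.map Prod.fst = μ ∧ π.map Prod.snd = ν

/-- `π` is an optimal coupling (of its own marginals) for the cost `c`. -/
def IsOptimal (c : X × Y → ℝ≥0∞) (π : Measure (X × Y)) : Prop :=
  ∀ π' : Measure (X × Y), IsCoupling π' (π.map Prod.fst) (π.map Prod.snd) →
    ∫⁻ p, c p ∂π ≤ ∫⁻ p, c p ∂π'

theorem IsCoupling.prob {π : Measure (X × Y)} {μ : Measure X} {ν : Measure Y}
    [IsProbabilityMeasure μ] (h : IsCoupling π μ ν) : IsProbabilityMeasure π := by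
  constructor
  have := h.1
  have h2 : (π.map Prod.fst) univ = μ univ := by rw [this]
  rw [Measure.map_apply measurable_fst MeasurableSet.univ] at h2
  simpa using h2

theorem isCoupling_prod (μ : Measure X) (ν : Measure Y) [IsProbabilityMeasure μ]
    [IsProbabilityMeasure ν] : IsCoupling (μ.prod ν) μ ν := by
  constructor
  · rw [Measure.map_fst_prod]; simp
  · rw [Measure.map_snd_prod]; simp

section lsc

variable {Ω : Type*} [TopologicalSpace Ω] [MeasurableSpace Ω] [OpensMeasurableSpace Ω]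

/-- The truncation of a continuous cost as a bounded continuous function. -/
noncomputable def trunc (c : Ω → ℝ≥0∞) (hc : Continuous c) (N : ℕ) : Ω →ᵇ ℝ≥0 :=
  BoundedContinuousFunction.mkOfBound
    ⟨fun p ↦ (min (c p) (N : ℝ≥0∞)).toNNReal, by
      refine ENNReal.continuousOn_toNNReal.comp_continuous (hc.min continuous_const) ?_
      intro p
      exact ne_top_of_le_ne_top (ENNReal.natCast_ne_top N) (min_le_right _ _)⟩ (N : ℝ) (by
      intro x y
      rw [NNReal.dist_eq]
      have h : ∀ p, ((min (c p) (N : ℝ≥0∞)).toNNReal : ℝ) ≤ N := by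
        intro p
        have : (min (c p) (N : ℝ≥0∞)).toNNReal ≤ (N : ℝ≥0) := by
          rw [← ENNReal.toNNReal_natCast N]
          exact ENNReal.toNNReal_mono (ENNReal.natCast_ne_top N) (min_le_right _ _)
        exact_mod_cast this
      have h0 : ∀ p, (0 : ℝ) ≤ ((min (c p) (N : ℝ≥0∞)).toNNReal : ℝ) := fun p ↦ NNReal.coe_nonneg _
      simp only [ContinuousMap.coe_mk]
      rw [abs_le]
      constructor <;> linarith [h x, h y, h0 x, h0 y])

theorem coe_trunc (c : Ω → ℝ≥0∞) (hc : Continuous c) (N : ℕ) (p : Ω) :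
    ((trunc c hc N p : ℝ≥0) : ℝ≥0∞) = min (c p) N := by
  simp only [trunc, BoundedContinuousFunction.mkOfBound_coe, ContinuousMap.coe_mk]
  exact ENNReal.coe_toNNReal
    (ne_top_of_le_ne_top (ENNReal.natCast_ne_top N) (min_le_right _ _))

theorem iSup_trunc (c : Ω → ℝ≥0∞) (p : Ω) : ⨆ N : ℕ, min (c p) (N : ℝ≥0∞) = c p := by
  apply le_antisymm (iSup_le fun N ↦ min_le_left _ _)
  rw [← inf_iSup_eq, ENNReal.iSup_natCast]
  simp

theorem lintegral_eq_iSup (c : Ω → ℝ≥0∞) (hc : Continuous c) (μ : Measure Ω) :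
    ∫⁻ p, c p ∂μ = ⨆ N : ℕ, ∫⁻ p, ((trunc c hc N p : ℝ≥0) : ℝ≥0∞) ∂μ := by
  rw [← lintegral_iSup]
  · refine lintegral_congr fun p ↦ ?_
    simp_rw [coe_trunc]
    exact (iSup_trunc c p).symm
  · intro N
    exact ((trunc c hc N).continuous.measurable).coe_nnreal_ennreal
  · intro a b hab p
    simp only [coe_trunc]
    exact min_le_min_left _ (by exact_mod_cast hab)

theorem lsc_cost (c : Ω → ℝ≥0∞) (hc : Continuous c) :
    LowerSemicontinuous fun μ : ProbabilityMeasure Ω ↦ ∫⁻ p, c p ∂(μ : Measure Ω) := by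
  have : (fun μ : ProbabilityMeasure Ω ↦ ∫⁻ p, c p ∂(μ : Measure Ω)) =
      fun μ : ProbabilityMeasure Ω ↦ ⨆ N : ℕ, ∫⁻ p, ((trunc c hc N p : ℝ≥0) : ℝ≥0∞) ∂(μ : Measure Ω) := by
    funext μ
    exact lintegral_eq_iSup c hc μ
  rw [this]
  exact lowerSemicontinuous_iSup fun N ↦
    (ProbabilityMeasure.continuous_lintegral_boundedContinuousFunction _).lowerSemicontinuous

end lsc

section exist

variable [TopologicalSpace X] [TopologicalSpace Y] [PolishSpace X] [PolishSpace Y]
  [BorelSpace X] [BorelSpace Y]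

/-- The set of couplings of two probability measures on Polish spaces is compact. -/
theorem isCompact_couplings (μ : Measure X) (ν : Measure Y) [IsProbabilityMeasure μ]
    [IsProbabilityMeasure ν] :
    IsCompact {π : ProbabilityMeasure (X × Y) | IsCoupling (π : Measure (X × Y)) μ ν} := by
  set S := {π : ProbabilityMeasure (X × Y) | IsCoupling (π : Measure (X × Y)) μ ν} with hS
  have hclosed : IsClosed S := by
    have h1 : IsClosed {π : ProbabilityMeasure (X × Y) |
        π.map (measurable_fst.aemeasurable) = (⟨μ, inferInstance⟩ : ProbabilityMeasure X)} :=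
      isClosed_singleton.preimage (ProbabilityMeasure.continuous_map continuous_fst)
    have h2 : IsClosed {π : ProbabilityMeasure (X × Y) |
        π.map (measurable_snd.aemeasurable) = (⟨ν, inferInstance⟩ : ProbabilityMeasure Y)} :=
      isClosed_singleton.preimage (ProbabilityMeasure.continuous_map continuous_snd)
    have h3 : S = {π : ProbabilityMeasure (X × Y) |
        π.map (measurable_fst.aemeasurable) = (⟨μ, inferInstance⟩ : ProbabilityMeasure X)} ∩
        {π : ProbabilityMeasure (X × Y) |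
        π.map (measurable_snd.aemeasurable) = (⟨ν, inferInstance⟩ : ProbabilityMeasure Y)} := by
      ext π
      constructor
      · rintro ⟨h1, h2⟩
        exact ⟨Subtype.ext h1, Subtype.ext h2⟩
      · rintro ⟨h1, h2⟩
        exact ⟨congrArg Subtype.val h1, congrArg Subtype.val h2⟩
    rw [h3]
    exact h1.inter h2
  have htight : IsTightMeasureSet {((π : ProbabilityMeasure (X × Y)) : Measure (X × Y)) | π ∈ S} := by
    apply IsTightMeasureSet.prodMk
    · refine (isTightMeasureSet_singleton (μ := μ)).subset ?_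
      rintro _ ⟨_, ⟨π, hπ, rfl⟩, rfl⟩
      exact hπ.1
    · refine (isTightMeasureSet_singleton (μ := ν)).subset ?_
      rintro _ ⟨_, ⟨π, hπ, rfl⟩, rfl⟩
      exact hπ.2
  have h := isCompact_closure_of_isTightMeasureSet htight
  rwa [hclosed.closure_eq] at h

/-- Existence of optimal couplings for continuous costs on Polish spaces. -/
theorem exists_isOptimal (c : X × Y → ℝ≥0∞) (hc : Continuous c) (μ : Measure X) (ν : Measure Y)
    [IsProbabilityMeasure μ] [IsProbabilityMeasure ν] :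
    ∃ π : Measure (X × Y), IsCoupling π μ ν ∧
      ∀ π' : Measure (X × Y), IsCoupling π' μ ν → ∫⁻ p, c p ∂π ≤ ∫⁻ p, c p ∂π' := by
  have hcomp := isCompact_couplings μ ν
  have hne : {π : ProbabilityMeasure (X × Y) | IsCoupling (π : Measure (X × Y)) μ ν}.Nonempty :=
    ⟨⟨μ.prod ν, inferInstance⟩, isCoupling_prod μ ν⟩
  obtain ⟨π, hπ, hmin⟩ := ((lsc_cost c hc).lowerSemicontinuousOn _).exists_isMinOn hne hcomp
  refine ⟨(π : Measure (X × Y)), hπ, fun π' hπ' ↦ ?_⟩
  have : IsProbabilityMeasure π' := hπ'.prob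
  exact hmin (show (⟨π', this⟩ : ProbabilityMeasure (X × Y)) ∈ _ from hπ')

end exist

section cyclic

variable [TopologicalSpace X] [TopologicalSpace Y] [OpensMeasurableSpace X]
  [OpensMeasurableSpace Y]

/-- Cyclical monotonicity of a set of pairs, permutation form. -/
def CyclMono (c : X × Y → ℝ≥0) (Γ : Set (X × Y)) : Prop :=
  ∀ (n : ℕ) (p : Fin n → X × Y) (σ : Equiv.Perm (Fin n)), (∀ i, p i ∈ Γ) →
    ∑ i, c (p i) ≤ ∑ i, c ((p i).1, (p (σ i)).2)

theorem cyclMono_support [SecondCountableTopology X] [SecondCountableTopology Y]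
    (c : X × Y → ℝ≥0) (hc : Continuous c) (π : Measure (X × Y)) [IsFiniteMeasure π]
    (hfin : ∫⁻ p, c p ∂π ≠ ∞) (hopt : IsOptimal (fun p ↦ (c p : ℝ≥0∞)) π) :
    CyclMono c π.support := by
  intro n p σ hp
  by_contra hlt
  push Not at hlt
  rcases Nat.eq_zero_or_pos n with rfl | hn
  · simp at hlt
  have hn0 : (n : ℝ) ≠ 0 := by positivity
  -- the margin
  set D : ℝ := ((∑ i, c (p i) : ℝ≥0) : ℝ) - ((∑ i, c ((p i).1, (p (σ i)).2) : ℝ≥0) : ℝ) with hD
  have hDpos : 0 < D := sub_pos.2 (by exact_mod_cast hlt)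
  set δ : ℝ := D / (4 * n) with hδ
  have hδpos : 0 < δ := by positivity
  -- neighbourhoods
  have h1 : ∀ i, ∃ U : Set X, ∃ V : Set Y, IsOpen U ∧ (p i).1 ∈ U ∧ IsOpen V ∧ (p i).2 ∈ V ∧
      ∀ x ∈ U, ∀ y ∈ V, (c (p i) : ℝ) - δ < c (x, y) := by
    intro i
    have hcont : Continuous fun q : X × Y ↦ (c q : ℝ) := NNReal.continuous_coe.comp hc
    have hmem : {q : X × Y | (c (p i) : ℝ) - δ < c q} ∈ 𝓝 ((p i).1, (p i).2) := by
      apply (isOpen_lt continuous_const hcont).mem_nhds
      simpa using hδpos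
    obtain ⟨U, V, hU, hxU, hV, hyV, hsub⟩ := mem_nhds_prod_iff'.1 hmem
    exact ⟨U, V, hU, hxU, hV, hyV, fun x hx y hy ↦ hsub ⟨hx, hy⟩⟩
  have h2 : ∀ i, ∃ U : Set X, ∃ V : Set Y, IsOpen U ∧ (p i).1 ∈ U ∧ IsOpen V ∧ (p (σ i)).2 ∈ V ∧
      ∀ x ∈ U, ∀ y ∈ V, (c (x, y) : ℝ) < c ((p i).1, (p (σ i)).2) + δ := by
    intro i
    have hcont : Continuous fun q : X × Y ↦ (c q : ℝ) := NNReal.continuous_coe.comp hc
    have hmem : {q : X × Y | (c q : ℝ) < c ((p i).1, (p (σ i)).2) + δ} ∈
        𝓝 ((p i).1, (p (σ i)).2) := by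
      apply (isOpen_lt hcont continuous_const).mem_nhds
      simpa using hδpos
    obtain ⟨U, V, hU, hxU, hV, hyV, hsub⟩ := mem_nhds_prod_iff'.1 hmem
    exact ⟨U, V, hU, hxU, hV, hyV, fun x hx y hy ↦ hsub ⟨hx, hy⟩⟩
  choose U1 V1 hU1 hxU1 hV1 hyV1 hlow using h1
  choose U2 V2 hU2 hxU2 hV2 hyV2 hupp using h2
  set U : Fin n → Set X := fun i ↦ U1 i ∩ U2 i with hU
  set V : Fin n → Set Y := fun j ↦ V1 j ∩ V2 (σ.symm j) with hV
  have hUo : ∀ i, IsOpen (U i) := fun i ↦ (hU1 i).inter (hU2 i)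
  have hVo : ∀ i, IsOpen (V i) := fun i ↦ (hV1 i).inter (hV2 _)
  have hyV : ∀ i, (p i).2 ∈ V i := fun i ↦ ⟨hyV1 i, by simpa using hyV2 (σ.symm i)⟩
  set A : Fin n → Set (X × Y) := fun i ↦ U i ×ˢ V i with hA
  have hAo : ∀ i, IsOpen (A i) := fun i ↦ (hUo i).prod (hVo i)
  have hAm : ∀ i, MeasurableSet (A i) := fun i ↦ (hAo i).measurableSet
  have hApos : ∀ i, 0 < π (A i) := fun i ↦
    (Measure.mem_support_iff_forall (p i)).1 (hp i) _
      ((hAo i).mem_nhds ⟨⟨hxU1 i, hxU2 i⟩, hyV i⟩)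
  -- normalised restrictions
  set P : Fin n → Measure (X × Y) := fun i ↦ (π (A i))⁻¹ • π.restrict (A i) with hP
  have hPprob : ∀ i, IsProbabilityMeasure (P i) := by
    intro i
    constructor
    simp only [hP, Measure.smul_apply, Measure.restrict_apply_univ, smul_eq_mul]
    exact ENNReal.inv_mul_cancel (hApos i).ne' (measure_ne_top _ _)
  have hPae : ∀ i, ∀ᵐ q ∂(P i), q ∈ A i := by
    intro i
    exact Measure.smul_absolutelyContinuous.ae_le (ae_restrict_mem (hAm i))
  set η : Measure (Fin n → X × Y) := Measure.pi P with hη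
  have hηprob : IsProbabilityMeasure η := by rw [hη]; infer_instance
  have hηmap : ∀ i, η.map (fun ω ↦ ω i) = P i := by
    intro i
    rw [hη]
    exact (measurePreserving_eval P i).map_eq
  have hηae : ∀ i, ∀ᵐ ω ∂η, ω i ∈ A i := by
    intro i
    have := hPae i
    rw [← hηmap i] at this
    exact ae_of_ae_map (measurable_pi_apply i).aemeasurable this
  -- the weight
  obtain ⟨m, hm0, hmtop, hmle⟩ : ∃ m : ℝ≥0∞, m ≠ 0 ∧ m ≠ ∞ ∧ ∀ i, m ≤ π (A i) := by
    have : Nonempty (Fin n) := ⟨⟨0, hn⟩⟩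
    obtain ⟨i0, hi0⟩ := Finite.exists_min (fun i ↦ π (A i))
    exact ⟨π (A i0), (hApos i0).ne', measure_ne_top _ _, hi0⟩
  set w : ℝ≥0∞ := m / n with hw
  have hw0 : w ≠ 0 := by
    rw [hw]
    exact (ENNReal.div_pos hm0 (ENNReal.natCast_ne_top n)).ne'
  have hwtop : w ≠ ∞ := ENNReal.div_ne_top hmtop (by exact_mod_cast hn.ne')
  set f : X × Y → ℝ≥0∞ := fun q ↦ ∑ i, w * ((π (A i))⁻¹ * (A i).indicator 1 q) with hf
  have hfm : Measurable f := by
    refine Finset.measurable_sum _ fun i _ ↦ ?_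
    exact ((measurable_one.indicator (hAm i)).const_mul _).const_mul _
  have hfle : ∀ q, f q ≤ 1 := by
    intro q
    calc f q ≤ ∑ _i : Fin n, (1 / n : ℝ≥0∞) := by
          refine Finset.sum_le_sum fun i _ ↦ ?_
          calc w * ((π (A i))⁻¹ * (A i).indicator 1 q) ≤ w * ((π (A i))⁻¹ * 1) := by
                gcongr
                exact indicator_le_self' (fun _ _ ↦ zero_le) q
            _ ≤ w * m⁻¹ := by
                rw [mul_one]
                gcongr
                exact hmle i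
            _ = 1 / n := by
                rw [hw, div_eq_mul_inv, mul_comm m, mul_assoc, ENNReal.mul_inv_cancel hm0 hmtop,
                  mul_one, one_div]
      _ = 1 := by
          rw [Finset.sum_const, Finset.card_univ, Fintype.card_fin, nsmul_eq_mul, one_div]
          exact ENNReal.mul_inv_cancel (by exact_mod_cast hn.ne') (ENNReal.natCast_ne_top n)
  have hdec : π = π.withDensity (fun q ↦ 1 - f q) + π.withDensity f := by
    rw [← withDensity_add_right _ hfm]
    have : (fun q ↦ 1 - f q) + f = fun _ ↦ (1 : ℝ≥0∞) := by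
      funext q
      exact tsub_add_cancel_of_le (hfle q)
    rw [this]
    exact (withDensity_one).symm
  have hfP : π.withDensity f = ∑ i, w • P i := by
    ext s hs
    rw [withDensity_apply _ hs, Measure.finsetSum_apply]
    simp only [hf]
    rw [lintegral_finsetSum _ fun i _ ↦
      ((measurable_one.indicator (hAm i)).const_mul _).const_mul _]
    refine Finset.sum_congr rfl fun i _ ↦ ?_
    rw [lintegral_const_mul _ ((measurable_one.indicator (hAm i)).const_mul _),
      lintegral_const_mul _ (measurable_one.indicator (hAm i)),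
      lintegral_indicator_one (hAm i)]
    simp only [hP, Measure.smul_apply, smul_eq_mul]
    rw [Measure.restrict_apply (hAm i), Measure.restrict_apply hs, inter_comm]
  set ρ : Measure (X × Y) := π.withDensity (fun q ↦ 1 - f q) with hρ
  set T : Fin n → (Fin n → X × Y) → X × Y := fun i ω ↦ ((ω i).1, (ω (σ i)).2) with hT
  have hTm : ∀ i, Measurable (T i) := fun i ↦
    (measurable_fst.comp (measurable_pi_apply i)).prodMk
      (measurable_snd.comp (measurable_pi_apply (σ i)))
  have hdec2 : π = ρ + ∑ i, w • P i := by rw [← hfP]; exact hdec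
  set π' : Measure (X × Y) := ρ + ∑ i, w • η.map (T i) with hπ'
  have hcoup : IsCoupling π' (π.map Prod.fst) (π.map Prod.snd) := by
    constructor
    · ext s hs
      have hs' : MeasurableSet (Prod.fst ⁻¹' s : Set (X × Y)) := measurable_fst hs
      rw [Measure.map_apply measurable_fst hs, Measure.map_apply measurable_fst hs, hπ']
      conv_rhs => rw [hdec2]
      rw [Measure.add_apply, Measure.add_apply, Measure.finsetSum_apply, Measure.finsetSum_apply]
      congr 1
      refine Finset.sum_congr rfl fun i _ ↦ ?_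
      rw [Measure.smul_apply, Measure.smul_apply, Measure.map_apply (hTm i) hs', ← hηmap i,
        Measure.map_apply (measurable_pi_apply i) hs']
      rfl
    · ext s hs
      have hs' : MeasurableSet (Prod.snd ⁻¹' s : Set (X × Y)) := measurable_snd hs
      rw [Measure.map_apply measurable_snd hs, Measure.map_apply measurable_snd hs, hπ']
      conv_rhs => rw [hdec2]
      rw [Measure.add_apply, Measure.add_apply, Measure.finsetSum_apply, Measure.finsetSum_apply]
      congr 1
      rw [← Equiv.sum_comp σ (fun i ↦ (w • P i) (Prod.snd ⁻¹' s))]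
      refine Finset.sum_congr rfl fun i _ ↦ ?_
      rw [Measure.smul_apply, Measure.smul_apply, Measure.map_apply (hTm i) hs', ← hηmap (σ i),
        Measure.map_apply (measurable_pi_apply (σ i)) hs']
      rfl
  have hcm : Measurable fun q : X × Y ↦ (c q : ℝ≥0∞) := hc.measurable.coe_nnreal_ennreal
  have hle := hopt π' hcoup
  have hL : ∫⁻ q, c q ∂π = ∫⁻ q, c q ∂ρ + ∑ i, w * ∫⁻ q, c q ∂(P i) := by
    conv_lhs => rw [hdec2]
    rw [lintegral_add_measure, lintegral_finsetSum_measure]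
    simp only [lintegral_smul_measure, smul_eq_mul]
  have hR : ∫⁻ q, c q ∂π' = ∫⁻ q, c q ∂ρ + ∑ i, w * ∫⁻ ω, c (T i ω) ∂η := by
    rw [hπ', lintegral_add_measure, lintegral_finsetSum_measure]
    simp only [lintegral_smul_measure, smul_eq_mul]
    congr 1
    refine Finset.sum_congr rfl fun i _ ↦ ?_
    rw [lintegral_map hcm (hTm i)]
  have hρfin : ∫⁻ q, c q ∂ρ ≠ ∞ := by
    rw [hL] at hfin
    exact (ENNReal.add_ne_top.1 hfin).1
  rw [hL, hR, ← Finset.mul_sum, ← Finset.mul_sum] at hle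
  have hle2 := (ENNReal.add_le_add_iff_left hρfin).1 hle
  have hle3 : ∑ i, ∫⁻ q, c q ∂(P i) ≤ ∑ i, ∫⁻ ω, c (T i ω) ∂η :=
    (ENNReal.mul_le_mul_iff_right hw0 hwtop).1 hle2
  have hlow2 : ∀ i, ENNReal.ofReal ((c (p i) : ℝ) - δ) ≤ ∫⁻ q, c q ∂(P i) := by
    intro i
    have : ∫⁻ _q, ENNReal.ofReal ((c (p i) : ℝ) - δ) ∂(P i) = ENNReal.ofReal ((c (p i) : ℝ) - δ) := by
      rw [lintegral_const, measure_univ, mul_one]
    rw [← this]
    refine lintegral_mono_ae ?_
    filter_upwards [hPae i] with q hq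
    rw [← ENNReal.ofReal_coe_nnreal]
    exact ENNReal.ofReal_le_ofReal (hlow i q.1 hq.1.1 q.2 hq.2.1).le
  have hupp2 : ∀ i, ∫⁻ ω, c (T i ω) ∂η ≤
      ENNReal.ofReal ((c ((p i).1, (p (σ i)).2) : ℝ) + δ) := by
    intro i
    have : ∫⁻ _ω, ENNReal.ofReal ((c ((p i).1, (p (σ i)).2) : ℝ) + δ) ∂η =
        ENNReal.ofReal ((c ((p i).1, (p (σ i)).2) : ℝ) + δ) := by
      rw [lintegral_const, measure_univ, mul_one]
    rw [← this]
    refine lintegral_mono_ae ?_
    filter_upwards [hηae i, hηae (σ i)] with ω h1 h2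
    rw [← ENNReal.ofReal_coe_nnreal]
    refine ENNReal.ofReal_le_ofReal (hupp i (ω i).1 h1.1.2 (ω (σ i)).2 ?_).le
    have := h2.2.2
    simpa using this
  have hsum1 : ENNReal.ofReal (∑ i, ((c (p i) : ℝ) - δ)) ≤ ∑ i, ∫⁻ q, c q ∂(P i) := by
    calc ENNReal.ofReal (∑ i, ((c (p i) : ℝ) - δ))
        ≤ ENNReal.ofReal (∑ i, max ((c (p i) : ℝ) - δ) 0) :=
          ENNReal.ofReal_le_ofReal (Finset.sum_le_sum fun i _ ↦ le_max_left _ _)
      _ = ∑ i, ENNReal.ofReal (max ((c (p i) : ℝ) - δ) 0) :=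
          ENNReal.ofReal_sum_of_nonneg fun i _ ↦ le_max_right _ _
      _ = ∑ i, ENNReal.ofReal ((c (p i) : ℝ) - δ) := by
          refine Finset.sum_congr rfl fun i _ ↦ ?_
          rw [ENNReal.ofReal_max, ENNReal.ofReal_zero, max_eq_left (zero_le)]
      _ ≤ _ := Finset.sum_le_sum fun i _ ↦ hlow2 i
  have hsum2 : ∑ i, ∫⁻ ω, c (T i ω) ∂η ≤
      ENNReal.ofReal (∑ i, ((c ((p i).1, (p (σ i)).2) : ℝ) + δ)) := by
    rw [ENNReal.ofReal_sum_of_nonneg fun i _ ↦ by positivity]
    exact Finset.sum_le_sum fun i _ ↦ hupp2 i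
  have hfinal := (hsum1.trans hle3).trans hsum2
  have hpos : 0 ≤ ∑ i, ((c ((p i).1, (p (σ i)).2) : ℝ) + δ) :=
    Finset.sum_nonneg fun i _ ↦ by positivity
  rw [ENNReal.ofReal_le_ofReal_iff hpos, Finset.sum_sub_distrib, Finset.sum_add_distrib,
    Finset.sum_const, Finset.card_univ, Fintype.card_fin, nsmul_eq_mul] at hfinal
  have hD2 : D = ∑ i, (c (p i) : ℝ) - ∑ i, (c ((p i).1, (p (σ i)).2) : ℝ) := by
    rw [hD]; push_cast; rfl
  have hδn : (n : ℝ) * δ = D / 4 := by
    rw [hδ]; field_simp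
  linarith

end cyclic

end Vale.Agent.P233.H545.OT
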