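import Mathlib

/-!
# Optimal transport toolbox, part 2

Kantorovich potentials of a cyclically monotone set (Rockafellar - Rüschendorf), no topology.
-/

open Set

namespace Vale.Agent.P233.H545.OT

variable {X Y : Type*}

/-- Cyclical monotonicity of a set of pairs for a real cost, permutation form. -/
def CyclMonoR (c : X → Y → ℝ) (Γ : Set (X × Y)) : Prop :=
  ∀ (n : ℕ) (p : Fin n → X × Y) (σ : Equiv.Perm (Fin n)), (∀ i, p i ∈ Γ) →
    ∑ i, c (p i).1 (p i).2 ≤ ∑ i, c (p i).1 (p (σ i)).2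

/-- cost of a chain. -/
noncomputable def chainCost (c : X → Y → ℝ) (p : ℕ → X × Y) (n : ℕ) : ℝ :=
  ∑ i ∈ Finset.range n, (c (p (i + 1)).1 (p i).2 - c (p i).1 (p i).2)

theorem closed_chain_nonneg {c : X → Y → ℝ} {Γ : Set (X × Y)} (h : CyclMonoR c Γ)
    (p : ℕ → X × Y) (hp : ∀ i, p i ∈ Γ) (n : ℕ) :
    0 ≤ chainCost c p n + c (p 0).1 (p n).2 - c (p n).1 (p n).2 := by
  have h1 := h (n + 1) (fun i ↦ p i) (finRotate (n + 1)).symm (fun i ↦ hp i)
  have h2 : ∑ i : Fin (n + 1), c (p i).1 (p ((finRotate (n + 1)).symm i)).2 =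
      ∑ i : Fin (n + 1), c (p (finRotate (n + 1) i)).1 (p i).2 := by
    rw [← Equiv.sum_comp (finRotate (n + 1))]
    simp
  rw [h2, Fin.sum_univ_castSucc, Fin.sum_univ_castSucc] at h1
  have h3 : ∀ i : Fin n, ((finRotate (n + 1) i.castSucc : Fin (n + 1)) : ℕ) = i + 1 := by
    intro i
    rw [finRotate_succ_apply, Fin.val_add_one_of_lt (Fin.castSucc_lt_last i)]
    simp
  have h4 : ((finRotate (n + 1) (Fin.last n) : Fin (n + 1)) : ℕ) = 0 := by
    rw [finRotate_last]; rfl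
  simp only [h3, h4, Fin.val_castSucc, Fin.val_last] at h1
  rw [Fin.sum_univ_eq_sum_range (fun i ↦ c (p i).1 (p i).2) n,
    Fin.sum_univ_eq_sum_range (fun i ↦ c (p (i + 1)).1 (p i).2) n] at h1
  unfold chainCost
  rw [Finset.sum_sub_distrib]
  linarith

/-- chain values at `x`. -/
def chainVals (c : X → Y → ℝ) (Γ : Set (X × Y)) (p0 : X × Y) (x : X) : Set ℝ :=
  {r | ∃ (p : ℕ → X × Y) (n : ℕ), p 0 = p0 ∧ (∀ i, p i ∈ Γ) ∧
    r = chainCost c p n + c x (p n).2 - c (p n).1 (p n).2}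

theorem chainVals_step {c : X → Y → ℝ} {Γ : Set (X × Y)} {p0 : X × Y} {q : X × Y} (hq : q ∈ Γ)
    (hp0 : p0 ∈ Γ) {r : ℝ} (hr : r ∈ chainVals c Γ p0 q.1) (x : X) :
    r + c x q.2 - c q.1 q.2 ∈ chainVals c Γ p0 x := by
  obtain ⟨p, n, h0, hp, rfl⟩ := hr
  refine ⟨fun i ↦ if i ≤ n then p i else q, n + 1, by simp [h0], ?_, ?_⟩
  · intro i
    by_cases hi : i ≤ n
    · simpa [hi] using hp i
    · simpa [hi] using hq
  · have h1 : chainCost c (fun i ↦ if i ≤ n then p i else q) (n + 1) =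
        chainCost c p n + c q.1 (p n).2 - c (p n).1 (p n).2 := by
      unfold chainCost
      rw [Finset.sum_range_succ]
      have : ∀ i ∈ Finset.range n,
          (c ((fun i ↦ if i ≤ n then p i else q) (i + 1)).1
              ((fun i ↦ if i ≤ n then p i else q) i).2 -
            c ((fun i ↦ if i ≤ n then p i else q) i).1
              ((fun i ↦ if i ≤ n then p i else q) i).2) =
          (c (p (i + 1)).1 (p i).2 - c (p i).1 (p i).2) := by
        intro i hi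
        have h2 : i < n := Finset.mem_range.1 hi
        have h3 : i + 1 ≤ n := h2
        simp [h2.le, h3]
      rw [Finset.sum_congr rfl this]
      simp
      ring
    rw [h1]
    simp

theorem chainVals_bdd {c : X → Y → ℝ} {Γ : Set (X × Y)} (h : CyclMonoR c Γ) {p0 : X × Y}
    (hp0 : p0 ∈ Γ) {q : X × Y} (hq : q ∈ Γ) :
    ∀ r ∈ chainVals c Γ p0 q.1, c q.1 q.2 - c p0.1 q.2 ≤ r := by
  intro r hr
  obtain ⟨p, n, h0, hp, hr2⟩ := chainVals_step hq hp0 hr p0.1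
  have := closed_chain_nonneg h p hp n
  rw [h0] at this
  linarith

theorem chainVals_nonempty {c : X → Y → ℝ} {Γ : Set (X × Y)} {p0 : X × Y} (hp0 : p0 ∈ Γ)
    (x : X) : (chainVals c Γ p0 x).Nonempty :=
  ⟨_, fun _ ↦ p0, 0, rfl, fun _ ↦ hp0, rfl⟩

/-- Existence of Kantorovich potentials on the projections of a cyclically monotone set:
`φ(x) + ψ(y) ≤ c(x,y)` for `x`, `y` in the projections, equality on the set. -/
theorem exists_potentials {c : X → Y → ℝ} {Γ : Set (X × Y)} (h : CyclMonoR c Γ) :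
    ∃ (φ : X → ℝ) (ψ : Y → ℝ), (∀ p ∈ Γ, ∀ q ∈ Γ, φ p.1 + ψ q.2 ≤ c p.1 q.2) ∧
      ∀ p ∈ Γ, φ p.1 + ψ p.2 = c p.1 p.2 := by
  classical
  rcases Γ.eq_empty_or_nonempty with rfl | ⟨p0, hp0⟩
  · exact ⟨fun _ ↦ 0, fun _ ↦ 0, by simp, by simp⟩
  set φ : X → ℝ := fun x ↦ sInf (chainVals c Γ p0 x) with hφ
  have hbdd : ∀ q ∈ Γ, BddBelow (chainVals c Γ p0 q.1) := fun q hq ↦
    ⟨_, fun r hr ↦ chainVals_bdd h hp0 hq r hr⟩
  have key : ∀ q ∈ Γ, ∀ q' ∈ Γ, φ q'.1 ≤ φ q.1 + c q'.1 q.2 - c q.1 q.2 := by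
    intro q hq q' hq'
    have : φ q'.1 - c q'.1 q.2 + c q.1 q.2 ≤ φ q.1 := by
      refine le_csInf (chainVals_nonempty hp0 _) fun r hr ↦ ?_
      have := csInf_le (hbdd q' hq') (chainVals_step hq hp0 hr q'.1)
      simp only [hφ]
      linarith
    linarith
  set ψ : Y → ℝ := fun y ↦ if hy : ∃ x, (x, y) ∈ Γ then c hy.choose y - φ hy.choose else 0
    with hψ
  have hψeq : ∀ p ∈ Γ, ψ p.2 = c p.1 p.2 - φ p.1 := by
    rintro ⟨x, y⟩ hxy
    have hy : ∃ x, (x, y) ∈ Γ := ⟨x, hxy⟩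
    simp only [hψ, dif_pos hy]
    have h1 := key (x, y) hxy (hy.choose, y) hy.choose_spec
    have h2 := key (hy.choose, y) hy.choose_spec (x, y) hxy
    simp only at h1 h2
    linarith
  refine ⟨φ, ψ, fun p hp q hq ↦ ?_, fun p hp ↦ ?_⟩
  · rw [hψeq q hq]
    have := key q hq p hp
    linarith
  · rw [hψeq p hp]; ring

end Vale.Agent.P233.H545.OT
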