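import Mathlib

/-!
# Optimal transport toolbox, part 3

Measurable selection for compact-valued multifunctions; a jointly chosen measurable family of
constant speed geodesics in a proper geodesic space.
-/

open Set Filter Topology MeasureTheory Metric

namespace Vale.Agent.P233.H545.OT

set_option linter.unusedSectionVars false

section selection

variable {P Y : Type*} [MeasurableSpace P] [MetricSpace Y]

/-- successive minimisation -/
def stage (K : P → Set Y) (u : ℕ → Y) : ℕ → P → Set Y
  | 0, p => K p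
  | k + 1, p => {y | y ∈ stage K u k p ∧ ∀ y' ∈ stage K u k p, dist y (u k) ≤ dist y' (u k)}

theorem stage_succ (K : P → Set Y) (u : ℕ → Y) (k : ℕ) (p : P) :
    stage K u (k + 1) p =
      {y | y ∈ stage K u k p ∧ ∀ y' ∈ stage K u k p, dist y (u k) ≤ dist y' (u k)} := rfl

theorem stage_compact (K : P → Set Y) (u : ℕ → Y) (hc : ∀ p, IsCompact (K p)) (k : ℕ) (p : P) :
    IsCompact (stage K u k p) := by
  induction k with
  | zero => exact hc p
  | succ k ih =>
    rw [stage_succ]
    have : {y | y ∈ stage K u k p ∧ ∀ y' ∈ stage K u k p, dist y (u k) ≤ dist y' (u k)} =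
        stage K u k p ∩ ⋂ y' ∈ stage K u k p, {y | dist y (u k) ≤ dist y' (u k)} := by
      ext y; simp
    rw [this]
    refine ih.inter_right (isClosed_biInter fun y' _ ↦ ?_)
    exact isClosed_le (continuous_id.dist continuous_const) continuous_const

theorem stage_nonempty (K : P → Set Y) (u : ℕ → Y) (hc : ∀ p, IsCompact (K p))
    (hne : ∀ p, (K p).Nonempty) (k : ℕ) (p : P) : (stage K u k p).Nonempty := by
  induction k with
  | zero => exact hne p
  | succ k ih =>
    obtain ⟨y, hy, hmin⟩ := (stage_compact K u hc k p).exists_isMinOn ih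
      (f := fun y ↦ dist y (u k)) (continuous_id.dist continuous_const).continuousOn
    exact ⟨y, hy, fun y' hy' ↦ hmin hy'⟩

theorem stage_sub (K : P → Set Y) (u : ℕ → Y) (k : ℕ) (p : P) :
    stage K u (k + 1) p ⊆ stage K u k p := fun _ hy ↦ hy.1

theorem stage_measurable (K : P → Set Y) (u : ℕ → Y) (hc : ∀ p, IsCompact (K p))
    (hm : ∀ C : Set Y, IsClosed C → MeasurableSet {p | (K p ∩ C).Nonempty}) (k : ℕ) :
    ∀ C : Set Y, IsClosed C → MeasurableSet {p | (stage K u k p ∩ C).Nonempty} := by
  induction k with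
  | zero => exact hm
  | succ k ih =>
    intro C hC
    have : {p | (stage K u (k + 1) p ∩ C).Nonempty} =
        {p | (stage K u k p ∩ C).Nonempty} ∩ ⋂ r : ℚ,
          ({p | (stage K u k p ∩ closedBall (u k) r).Nonempty}ᶜ ∪
            {p | (stage K u k p ∩ (C ∩ closedBall (u k) r)).Nonempty}) := by
      ext p
      simp only [mem_ofPred_eq, mem_inter_iff, mem_iInter, mem_union, mem_compl_iff]
      constructor
      · rintro ⟨y, ⟨hy, hmin⟩, hyC⟩
        refine ⟨⟨y, hy, hyC⟩, fun r ↦ ?_⟩
        by_cases h : (stage K u k p ∩ closedBall (u k) r).Nonempty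
        · right
          obtain ⟨y', hy', hr⟩ := h
          exact ⟨y, hy, hyC, mem_closedBall.2 ((hmin y' hy').trans (mem_closedBall.1 hr))⟩
        · left; exact h
      · rintro ⟨hne, hall⟩
        obtain ⟨y, hy, hmin⟩ := ((stage_compact K u hc k p).inter_right hC).exists_isMinOn hne
          (f := fun y ↦ dist y (u k)) (continuous_id.dist continuous_const).continuousOn
        refine ⟨y, ⟨hy.1, fun y' hy' ↦ ?_⟩, hy.2⟩
        by_contra hlt
        push Not at hlt
        obtain ⟨r, hr1, hr2⟩ := exists_rat_btwn hlt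
        rcases hall r with h | h
        · exact h ⟨y', hy', mem_closedBall.2 hr1.le⟩
        · obtain ⟨y'', hy'', hC'', hr''⟩ := h
          have h1 : dist y (u k) ≤ dist y'' (u k) := hmin ⟨hy'', hC''⟩
          exact absurd (h1.trans (mem_closedBall.1 hr'')) (not_le.2 hr2)
    rw [this]
    refine (ih C hC).inter (MeasurableSet.iInter fun r ↦ ?_)
    exact (ih _ isClosed_closedBall).compl.union (ih _ (hC.inter isClosed_closedBall))

/-- Measurable selection for compact-valued multifunctions. -/
theorem exists_measurable_selection [SecondCountableTopology Y] [MeasurableSpace Y]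
    [BorelSpace Y] (K : P → Set Y) (hc : ∀ p, IsCompact (K p)) (hne : ∀ p, (K p).Nonempty)
    (hm : ∀ C : Set Y, IsClosed C → MeasurableSet {p | (K p ∩ C).Nonempty}) :
    ∃ f : P → Y, Measurable f ∧ ∀ p, f p ∈ K p := by
  rcases isEmpty_or_nonempty P with hP | ⟨⟨p0⟩⟩
  · exact ⟨fun p ↦ (hP.false p).elim, measurable_of_empty _, fun p ↦ (hP.false p).elim⟩
  have : Nonempty Y := (hne p0).nonempty
  set u : ℕ → Y := TopologicalSpace.denseSeq Y with hu
  have hdense : DenseRange u := TopologicalSpace.denseRange_denseSeq Y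
  have hcomp := stage_compact K u hc
  have hanti : ∀ p, Antitone fun k ↦ stage K u k p := fun p ↦
    antitone_nat_of_succ_le fun k ↦ stage_sub K u k p
  have hex : ∀ p, (⋂ k, stage K u k p).Nonempty := fun p ↦
    IsCompact.nonempty_iInter_of_sequence_nonempty_isCompact_isClosed _
      (fun k ↦ stage_sub K u k p) (fun k ↦ stage_nonempty K u hc hne k p) (hcomp 0 p)
      (fun k ↦ (hcomp k p).isClosed)
  choose f hf using hex
  have huniq : ∀ p y, y ∈ ⋂ k, stage K u k p → y = f p := by
    intro p y hy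
    rw [mem_iInter] at hy
    have hfp := fun k ↦ mem_iInter.1 (hf p) k
    have heq : ∀ k, dist y (u k) = dist (f p) (u k) := fun k ↦
      le_antisymm ((hy (k + 1)).2 _ (hfp k)) ((hfp (k + 1)).2 _ (hy k))
    have hall : ∀ x : Y, dist y x = dist (f p) x := by
      intro x
      have : (fun x ↦ dist y x) = fun x ↦ dist (f p) x :=
        hdense.equalizer (continuous_const.dist continuous_id)
          (continuous_const.dist continuous_id) (by funext k; exact heq k)
      exact congrFun this x
    have := hall (f p)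
    rw [dist_self] at this
    exact dist_eq_zero.1 this
  refine ⟨f, ?_, fun p ↦ mem_iInter.1 (hf p) 0⟩
  refine measurable_of_isClosed fun C hC ↦ ?_
  have : f ⁻¹' C = ⋂ k, {p | (stage K u k p ∩ C).Nonempty} := by
    ext p
    simp only [mem_preimage, mem_iInter, mem_ofPred_eq]
    constructor
    · intro h k
      exact ⟨f p, mem_iInter.1 (hf p) k, h⟩
    · intro h
      have hne2 : (⋂ k, (stage K u k p ∩ C)).Nonempty :=
        IsCompact.nonempty_iInter_of_sequence_nonempty_isCompact_isClosed _
          (fun k ↦ inter_subset_inter_left _ (stage_sub K u k p)) h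
          ((hcomp 0 p).inter_right hC) (fun k ↦ (hcomp k p).isClosed.inter hC)
      obtain ⟨y, hy⟩ := hne2
      rw [mem_iInter] at hy
      have : y = f p := huniq p y (mem_iInter.2 fun k ↦ (hy k).1)
      rw [← this]
      exact (hy 0).2
  rw [this]
  exact MeasurableSet.iInter fun k ↦ stage_measurable K u hc hm k C hC

end selection

section geodesics

variable {M : Type*} [MetricSpace M]

/-- the dyadic parameter -/
noncomputable def dyS : ℕ → ℝ → ℝ
  | 0, s => if s < 1 / 2 then 0 else 1
  | n + 1, s => if s < 1 / 2 then dyS n (2 * s) / 2 else (1 + dyS n (2 * s - 1)) / 2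

/-- the dyadic points -/
noncomputable def dyZ (mid : M × M → M) : ℕ → ℝ → M × M → M
  | 0, s, p => if s < 1 / 2 then p.1 else p.2
  | n + 1, s, p => if s < 1 / 2 then dyZ mid n (2 * s) (p.1, mid p)
      else dyZ mid n (2 * s - 1) (mid p, p.2)

theorem dyS_mem (n : ℕ) : ∀ s : ℝ, dyS n s ∈ Icc (0 : ℝ) 1 := by
  induction n with
  | zero => intro s; unfold dyS; split_ifs <;> simp
  | succ n ih =>
    intro s
    unfold dyS
    split_ifs
    · have := ih (2 * s)
      constructor <;> linarith [this.1, this.2]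
    · have := ih (2 * s - 1)
      constructor <;> linarith [this.1, this.2]

theorem dyS_near (n : ℕ) : ∀ s ∈ Icc (0 : ℝ) 1, |dyS n s - s| ≤ (1 / 2) ^ (n + 1) := by
  induction n with
  | zero =>
    intro s hs
    unfold dyS
    split_ifs with h
    · rw [zero_sub, abs_neg, abs_of_nonneg hs.1]; linarith
    · rw [abs_of_nonneg (by linarith [hs.2])]; linarith [not_lt.1 h]
  | succ n ih =>
    intro s hs
    unfold dyS
    rw [pow_succ]
    split_ifs with h
    · have := ih (2 * s) ⟨by linarith [hs.1], by linarith⟩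
      rw [show dyS n (2 * s) / 2 - s = (dyS n (2 * s) - 2 * s) * (1 / 2) by ring, abs_mul,
        abs_of_pos (by norm_num : (0 : ℝ) < 1 / 2)]
      gcongr
    · have := ih (2 * s - 1) ⟨by linarith [not_lt.1 h], by linarith [hs.2]⟩
      rw [show (1 + dyS n (2 * s - 1)) / 2 - s = (dyS n (2 * s - 1) - (2 * s - 1)) * (1 / 2) by
        ring, abs_mul, abs_of_pos (by norm_num : (0 : ℝ) < 1 / 2)]
      gcongr

theorem dyS_tendsto {s : ℝ} (hs : s ∈ Icc (0 : ℝ) 1) :
    Tendsto (fun n ↦ dyS n s) atTop (𝓝 s) := by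
  rw [tendsto_iff_dist_tendsto_zero]
  refine squeeze_zero (fun _ ↦ dist_nonneg) (fun n ↦ ?_)
    ((tendsto_pow_atTop_nhds_zero_of_lt_one (by norm_num) (by norm_num : (1 / 2 : ℝ) < 1)).comp
      (tendsto_add_atTop_nat 1))
  rw [Real.dist_eq]
  exact dyS_near n s hs

variable {mid : M × M → M}
  (hm1 : ∀ p, dist p.1 (mid p) = dist p.1 p.2 / 2) (hm2 : ∀ p, dist (mid p) p.2 = dist p.1 p.2 / 2)

include hm1 hm2

theorem dyZ_ends (n : ℕ) : ∀ (s : ℝ) (p : M × M),
    dist p.1 (dyZ mid n s p) = dyS n s * dist p.1 p.2 ∧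
      dist (dyZ mid n s p) p.2 = (1 - dyS n s) * dist p.1 p.2 := by
  induction n with
  | zero =>
    intro s p
    unfold dyZ dyS
    split_ifs <;> simp
  | succ n ih =>
    intro s p
    unfold dyZ dyS
    split_ifs with h
    · obtain ⟨h1, h2⟩ := ih (2 * s) (p.1, mid p)
      simp only at h1 h2
      rw [hm1] at h1 h2
      have h3 := dist_triangle (dyZ mid n (2 * s) (p.1, mid p)) (mid p) p.2
      have h4 := dist_triangle p.1 (dyZ mid n (2 * s) (p.1, mid p)) p.2
      rw [hm2] at h3
      constructor <;> nlinarith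
    · obtain ⟨h1, h2⟩ := ih (2 * s - 1) (mid p, p.2)
      simp only at h1 h2
      rw [hm2] at h1 h2
      have h3 := dist_triangle p.1 (mid p) (dyZ mid n (2 * s - 1) (mid p, p.2))
      have h4 := dist_triangle p.1 (dyZ mid n (2 * s - 1) (mid p, p.2)) p.2
      rw [hm1] at h3
      constructor <;> nlinarith

theorem dyZ_dist (n : ℕ) : ∀ (s t : ℝ) (p : M × M),
    dist (dyZ mid n s p) (dyZ mid n t p) ≤ |dyS n s - dyS n t| * dist p.1 p.2 := by
  induction n with
  | zero =>
    intro s t p
    unfold dyZ dyS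
    split_ifs <;> simp [dist_comm]
  | succ n ih =>
    have key : ∀ (s t : ℝ) (p : M × M), s < 1 / 2 → ¬ t < 1 / 2 →
        dist (dyZ mid n (2 * s) (p.1, mid p)) (dyZ mid n (2 * t - 1) (mid p, p.2)) ≤
          |dyS n (2 * s) / 2 - (1 + dyS n (2 * t - 1)) / 2| * dist p.1 p.2 := by
      intro s t p _ _
      have h1 := (dyZ_ends hm1 hm2 n (2 * s) (p.1, mid p)).2
      have h2 := (dyZ_ends hm1 hm2 n (2 * t - 1) (mid p, p.2)).1
      simp only at h1 h2
      rw [hm1] at h1
      rw [hm2] at h2
      have h3 := dist_triangle (dyZ mid n (2 * s) (p.1, mid p)) (mid p)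
        (dyZ mid n (2 * t - 1) (mid p, p.2))
      have h4 := (dyS_mem n (2 * s)).2
      have h5 := (dyS_mem n (2 * t - 1)).1
      rw [abs_of_nonpos (by linarith)]
      nlinarith [dist_nonneg (x := p.1) (y := p.2)]
    intro s t p
    unfold dyZ dyS
    by_cases hs : s < 1 / 2 <;> by_cases ht : t < 1 / 2
    · simp only [if_pos hs, if_pos ht]
      have := ih (2 * s) (2 * t) (p.1, mid p)
      simp only at this
      rw [hm1] at this
      rw [show dyS n (2 * s) / 2 - dyS n (2 * t) / 2 = (dyS n (2 * s) - dyS n (2 * t)) * (1 / 2) by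
        ring, abs_mul, abs_of_pos (by norm_num : (0 : ℝ) < 1 / 2)]
      linarith
    · simp only [if_pos hs, if_neg ht]
      exact key s t p hs ht
    · simp only [if_neg hs, if_pos ht]
      rw [dist_comm, abs_sub_comm]
      exact key t s p ht hs
    · simp only [if_neg hs, if_neg ht]
      have := ih (2 * s - 1) (2 * t - 1) (mid p, p.2)
      simp only at this
      rw [hm2] at this
      rw [show (1 + dyS n (2 * s - 1)) / 2 - (1 + dyS n (2 * t - 1)) / 2 =
        (dyS n (2 * s - 1) - dyS n (2 * t - 1)) * (1 / 2) by ring, abs_mul,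
        abs_of_pos (by norm_num : (0 : ℝ) < 1 / 2)]
      linarith

theorem dyZ_succ (n : ℕ) : ∀ (s : ℝ) (p : M × M),
    dist (dyZ mid n s p) (dyZ mid (n + 1) s p) ≤ dist p.1 p.2 / 2 / 2 ^ n := by
  induction n with
  | zero =>
    intro s p
    have e1 := hm1 p
    have e2 := hm2 p
    have hd : 0 ≤ dist p.1 p.2 / 2 := by positivity
    rw [pow_zero, div_one]
    by_cases h : s < 1 / 2
    · rw [show dyZ mid 0 s p = p.1 by simp only [dyZ, if_pos h]]
      by_cases h2 : 2 * s < 1 / 2
      · rw [show dyZ mid (0 + 1) s p = p.1 by simp only [dyZ, if_pos h, if_pos h2], dist_self]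
        exact hd
      · rw [show dyZ mid (0 + 1) s p = mid p by simp only [dyZ, if_pos h, if_neg h2], e1]
    · rw [show dyZ mid 0 s p = p.2 by simp only [dyZ, if_neg h]]
      by_cases h2 : 2 * s - 1 < 1 / 2
      · rw [show dyZ mid (0 + 1) s p = mid p by simp only [dyZ, if_neg h, if_pos h2], dist_comm,
          e2]
      · rw [show dyZ mid (0 + 1) s p = p.2 by simp only [dyZ, if_neg h, if_neg h2], dist_self]
        exact hd
  | succ n ih =>
    intro s p
    rw [show dyZ mid (n + 1) s p = if s < 1 / 2 then dyZ mid n (2 * s) (p.1, mid p)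
      else dyZ mid n (2 * s - 1) (mid p, p.2) from rfl,
      show dyZ mid (n + 1 + 1) s p = if s < 1 / 2 then dyZ mid (n + 1) (2 * s) (p.1, mid p)
      else dyZ mid (n + 1) (2 * s - 1) (mid p, p.2) from rfl]
    rw [pow_succ', ← div_div]
    split_ifs with h
    · have := ih (2 * s) (p.1, mid p)
      simp only at this
      rw [hm1] at this
      exact this
    · have := ih (2 * s - 1) (mid p, p.2)
      simp only at this
      rw [hm2] at this
      exact this

omit hm1 hm2 in
theorem dyZ_measurable [MeasurableSpace M] (hmid : Measurable mid) (n : ℕ) :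
    ∀ s : ℝ, Measurable (dyZ mid n s) := by
  induction n with
  | zero =>
    intro s
    by_cases h : s < 1 / 2
    · have : dyZ mid 0 s = fun p ↦ p.1 := by funext p; simp only [dyZ, if_pos h]
      rw [this]; exact measurable_fst
    · have : dyZ mid 0 s = fun p ↦ p.2 := by funext p; simp only [dyZ, if_neg h]
      rw [this]; exact measurable_snd
  | succ n ih =>
    intro s
    by_cases h : s < 1 / 2
    · have : dyZ mid (n + 1) s = fun p ↦ dyZ mid n (2 * s) (p.1, mid p) := by
        funext p; simp only [dyZ, if_pos h]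
      rw [this]; exact (ih _).comp (measurable_fst.prodMk hmid)
    · have : dyZ mid (n + 1) s = fun p ↦ dyZ mid n (2 * s - 1) (mid p, p.2) := by
        funext p; simp only [dyZ, if_neg h]
      rw [this]; exact (ih _).comp (hmid.prodMk measurable_snd)

end geodesics

/-- A jointly chosen Borel family of constant speed geodesics. -/
theorem exists_geodesics {M : Type*} [MetricSpace M] [ProperSpace M] [MeasurableSpace M]
    [BorelSpace M]
    (hgeod : ∀ x y : M, ∀ s t : ℝ, 0 ≤ s → 0 ≤ t → s + t = dist x y →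
      ∃ w, dist x w = s ∧ dist w y = t) :
    ∃ z : ℝ → M × M → M, (∀ s, Measurable (z s)) ∧ (∀ p, z 0 p = p.1) ∧ (∀ p, z 1 p = p.2) ∧
      ∀ s ∈ Icc (0 : ℝ) 1, ∀ t ∈ Icc (0 : ℝ) 1, ∀ p : M × M,
        dist (z s p) (z t p) = |s - t| * dist p.1 p.2 := by
  set K : M × M → Set M := fun p ↦
    {w | dist p.1 w = dist p.1 p.2 / 2 ∧ dist w p.2 = dist p.1 p.2 / 2} with hK
  have hKc : ∀ p, IsCompact (K p) := by
    intro p
    refine (isCompact_closedBall p.1 (dist p.1 p.2 / 2)).of_isClosed_subset ?_ ?_
    · exact (isClosed_eq (continuous_const.dist continuous_id) continuous_const).inter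
        (isClosed_eq (continuous_id.dist continuous_const) continuous_const)
    · intro w hw
      rw [mem_closedBall, dist_comm]
      exact hw.1.le
  have hKne : ∀ p, (K p).Nonempty := by
    intro p
    have hd : 0 ≤ dist p.1 p.2 / 2 := by positivity
    exact hgeod p.1 p.2 _ _ hd hd (by ring)
  have hKm : ∀ C : Set M, IsClosed C → MeasurableSet {p | (K p ∩ C).Nonempty} := by
    intro C hC
    apply IsClosed.measurableSet
    apply IsSeqClosed.isClosed
    intro q p hq hqp
    choose y hy using hq
    obtain ⟨R, hR⟩ := (Metric.isBounded_range_of_tendsto q hqp).subset_closedBall p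
    have hR2 : ∀ n, dist (q n) p ≤ R := fun n ↦ mem_closedBall.1 (hR (mem_range_self n))
    have hyb : ∀ n, y n ∈ closedBall p.1 ((dist p.1 p.2 + 2 * R) / 2 + R) := by
      intro n
      have h1 : dist (q n).1 p.1 ≤ R := (le_max_left _ _).trans (hR2 n)
      have h2 : dist (q n).2 p.2 ≤ R := (le_max_right _ _).trans (hR2 n)
      have h3 : dist (q n).1 (y n) = dist (q n).1 (q n).2 / 2 := (hy n).1.1
      have h4 : dist (q n).1 (q n).2 ≤ R + dist p.1 p.2 + R := by
        calc dist (q n).1 (q n).2 ≤ dist (q n).1 p.1 + dist p.1 p.2 + dist p.2 (q n).2 :=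
              dist_triangle4 _ _ _ _
          _ ≤ R + dist p.1 p.2 + R := by rw [dist_comm p.2]; gcongr
      rw [mem_closedBall]
      calc dist (y n) p.1 ≤ dist (y n) (q n).1 + dist (q n).1 p.1 := dist_triangle _ _ _
        _ ≤ (dist p.1 p.2 + 2 * R) / 2 + R := by rw [dist_comm (y n), h3]; linarith
    obtain ⟨w, -, φ, hφ, hlim⟩ := tendsto_subseq_of_bounded isBounded_closedBall hyb
    have hq' : Tendsto (q ∘ φ) atTop (𝓝 p) := hqp.comp hφ.tendsto_atTop
    have hq1 : Tendsto (fun n ↦ (q (φ n)).1) atTop (𝓝 p.1) :=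
      (continuous_fst.tendsto p).comp hq'
    have hq2 : Tendsto (fun n ↦ (q (φ n)).2) atTop (𝓝 p.2) :=
      (continuous_snd.tendsto p).comp hq'
    have hyl : Tendsto (fun n ↦ y (φ n)) atTop (𝓝 w) := hlim
    refine ⟨w, ⟨?_, ?_⟩, hC.mem_of_tendsto hyl (Eventually.of_forall fun n ↦ (hy (φ n)).2)⟩
    · exact tendsto_nhds_unique (hq1.dist hyl)
        (((hq1.dist hq2).div_const 2).congr fun n ↦ ((hy (φ n)).1.1).symm)
    · exact tendsto_nhds_unique (hyl.dist hq2)
        (((hq1.dist hq2).div_const 2).congr fun n ↦ ((hy (φ n)).1.2).symm)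
  obtain ⟨mid, hmid, hmK⟩ := exists_measurable_selection K hKc hKne hKm
  have hm1 : ∀ p, dist p.1 (mid p) = dist p.1 p.2 / 2 := fun p ↦ (hmK p).1
  have hm2 : ∀ p, dist (mid p) p.2 = dist p.1 p.2 / 2 := fun p ↦ (hmK p).2
  have hcau : ∀ (s : ℝ) (p : M × M), ∃ w, Tendsto (fun n ↦ dyZ mid n s p) atTop (𝓝 w) :=
    fun s p ↦ cauchySeq_tendsto_of_complete
      (cauchySeq_of_le_geometric_two (C := dist p.1 p.2) fun n ↦ dyZ_succ hm1 hm2 n s p)
  choose z hz using hcau
  have hz0 : ∀ p, z 0 p = p.1 := by
    intro p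
    refine tendsto_nhds_unique (hz 0 p) ?_
    have : ∀ n, dyZ mid n 0 p = p.1 := by
      intro n
      have h0 : dyS n 0 = 0 := by
        induction n with
        | zero => simp [dyS]
        | succ n ih => simp [dyS, ih]
      have := (dyZ_ends hm1 hm2 n 0 p).1
      rw [h0, zero_mul] at this
      exact (dist_eq_zero.1 this).symm
    simp only [this]
    exact tendsto_const_nhds
  have hz1 : ∀ p, z 1 p = p.2 := by
    intro p
    refine tendsto_nhds_unique (hz 1 p) ?_
    have : ∀ n, dyZ mid n 1 p = p.2 := by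
      intro n
      have h0 : dyS n 1 = 1 := by
        induction n with
        | zero => norm_num [dyS]
        | succ n ih => norm_num [dyS, ih]
      have := (dyZ_ends hm1 hm2 n 1 p).2
      rw [h0, sub_self, zero_mul] at this
      exact dist_eq_zero.1 this
    simp only [this]
    exact tendsto_const_nhds
  have hends : ∀ s ∈ Icc (0 : ℝ) 1, ∀ p : M × M, dist p.1 (z s p) = s * dist p.1 p.2 ∧
      dist (z s p) p.2 = (1 - s) * dist p.1 p.2 := by
    intro s hs p
    constructor
    · exact tendsto_nhds_unique (tendsto_const_nhds.dist (hz s p))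
        (((dyS_tendsto hs).mul_const _).congr fun n ↦ ((dyZ_ends hm1 hm2 n s p).1).symm)
    · exact tendsto_nhds_unique ((hz s p).dist tendsto_const_nhds)
        (((tendsto_const_nhds.sub (dyS_tendsto hs)).mul_const _).congr
          fun n ↦ ((dyZ_ends hm1 hm2 n s p).2).symm)
  have hle : ∀ s ∈ Icc (0 : ℝ) 1, ∀ t ∈ Icc (0 : ℝ) 1, ∀ p : M × M,
      dist (z s p) (z t p) ≤ |s - t| * dist p.1 p.2 := by
    intro s hs t ht p
    refine le_of_tendsto_of_tendsto' ((hz s p).dist (hz t p))
      (((dyS_tendsto hs).sub (dyS_tendsto ht)).abs.mul_const _)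
      fun n ↦ dyZ_dist hm1 hm2 n s t p
  refine ⟨z, fun s ↦ ?_, hz0, hz1, ?_⟩
  · exact measurable_of_tendsto_metrizable (fun n ↦ dyZ_measurable hmid n s)
      (tendsto_pi_nhds.2 fun p ↦ hz s p)
  · have key : ∀ s ∈ Icc (0 : ℝ) 1, ∀ t ∈ Icc (0 : ℝ) 1, s ≤ t → ∀ p : M × M,
        dist (z s p) (z t p) = |s - t| * dist p.1 p.2 := by
      intro s hs t ht hst p
      refine le_antisymm (hle s hs t ht p) ?_
      have h1 := (hends s hs p).1
      have h2 := (hends t ht p).2
      have h3 := dist_triangle4 p.1 (z s p) (z t p) p.2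
      rw [abs_of_nonpos (by linarith)]
      nlinarith
    intro s hs t ht p
    rcases le_total s t with h | h
    · exact key s hs t ht h p
    · rw [dist_comm, abs_sub_comm]
      exact key t ht s hs h p

end Vale.Agent.P233.H545.OT
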