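import Mathlib
import Vale.Agent.P242.CDDefs
import Vale.Agent.P233.H545.OT1
import Vale.Agent.P233.H545.OT2
import Vale.Agent.P233.H545.OT3

/-!
# Optimal transport toolbox, part 4 (definitions of P242/CDDefs)

Gluing, the triangle inequality of `W2sq ^ (1/2)`, geodesics of `P₂` from an optimal coupling and a
measurable family of geodesics; the summary theorem `exists_plan`.
-/

open MeasureTheory Set Filter Topology ProbabilityTheory
open scoped ENNReal NNReal

universe u

namespace Vale.Agent.P233.H545.OT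

open Vale.Agent

set_option linter.unusedSectionVars false

variable {M : Type u} [MetricSpace M] [MeasurableSpace M] [BorelSpace M] [CompleteSpace M]
  [SecondCountableTopology M]

/-- Gluing of two couplings. -/
theorem exists_glue (q₁ q₂ : Measure (M × M)) [IsFiniteMeasure q₁] [IsFiniteMeasure q₂]
    (h : q₁.map Prod.snd = q₂.map Prod.fst) :
    ∃ γ : Measure ((M × M) × M), γ.map Prod.fst = q₁ ∧
      γ.map (fun x ↦ (x.1.2, x.2)) = q₂ := by
  rcases isEmpty_or_nonempty M with hM | hM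
  · refine ⟨0, ?_, ?_⟩
    · have : IsEmpty (M × M) := inferInstance
      exact (Measure.eq_zero_of_isEmpty _).trans (Measure.eq_zero_of_isEmpty _).symm
    · have : IsEmpty (M × M) := inferInstance
      exact (Measure.eq_zero_of_isEmpty _).trans (Measure.eq_zero_of_isEmpty _).symm
  have : PolishSpace M := inferInstance
  have : StandardBorelSpace M := inferInstance
  set κ : Kernel M M := q₂.condKernel with hκ
  set γ : Measure ((M × M) × M) := q₁ ⊗ₘ (κ.comap Prod.snd measurable_snd) with hγ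
  refine ⟨γ, ?_, ?_⟩
  · exact Measure.fst_compProd q₁ _
  · have hm : Measurable (fun x : (M × M) × M ↦ (x.1.2, x.2)) :=
      (measurable_snd.comp measurable_fst).prodMk measurable_snd
    have hq₂ : q₂.fst ⊗ₘ κ = q₂ := Measure.disintegrate q₂ κ
    rw [← hq₂]
    ext s hs
    rw [Measure.map_apply hm hs, hγ, Measure.compProd_apply (hm hs), Measure.compProd_apply hs]
    have hfst : q₂.fst = q₁.map Prod.snd := h.symm
    rw [hfst, lintegral_map (Kernel.measurable_kernel_prodMk_left hs) measurable_snd]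
    rfl

theorem ofReal_sq (a b : M) : ENNReal.ofReal (dist a b ^ 2) = edist a b ^ 2 := by
  rw [edist_dist, ENNReal.ofReal_pow dist_nonneg]

theorem cost_eq (q : Measure (M × M)) :
    P242.transportCost q = ∫⁻ z, edist z.1 z.2 ^ 2 ∂q := by
  unfold P242.transportCost
  simp only [ofReal_sq]

theorem measurable_edist_sq : Measurable fun z : M × M ↦ edist z.1 z.2 ^ 2 :=
  (measurable_fst.edist measurable_snd).pow_const 2

theorem cost_map {Ω : Type*} [MeasurableSpace Ω] (P : Measure Ω) {f g : Ω → M}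
    (hf : Measurable f) (hg : Measurable g) :
    P242.transportCost (P.map fun ω ↦ (f ω, g ω)) = ∫⁻ ω, edist (f ω) (g ω) ^ 2 ∂P := by
  rw [cost_eq, lintegral_map measurable_edist_sq (hf.prodMk hg)]

theorem isCoupling_map {Ω : Type*} [MeasurableSpace Ω] (P : Measure Ω) {f g : Ω → M}
    (hf : Measurable f) (hg : Measurable g) :
    P242.IsCoupling (P.map f) (P.map g) (P.map fun ω ↦ (f ω, g ω)) := by
  constructor
  · rw [Measure.map_map measurable_fst (hf.prodMk hg)]; rfl
  · rw [Measure.map_map measurable_snd (hf.prodMk hg)]; rfl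

theorem W2sq_le_of_coupling {q : Measure (M × M)} {μ ν : Measure M}
    (h : P242.IsCoupling μ ν q) : P242.W2sq μ ν ≤ P242.transportCost q :=
  iInf₂_le (f := fun (q : Measure (M × M)) (_ : P242.IsCoupling μ ν q) ↦ P242.transportCost q) q h

/-- Existence of optimal couplings. -/
theorem exists_isOptimalCoupling (μ ν : Measure M) [IsProbabilityMeasure μ]
    [IsProbabilityMeasure ν] : ∃ q : Measure (M × M), P242.IsOptimalCoupling μ ν q := by
  have : PolishSpace M := inferInstance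
  obtain ⟨q, h1, h2⟩ := exists_isOptimal (fun z : M × M ↦ edist z.1 z.2 ^ 2)
    ((ENNReal.continuous_pow 2).comp (continuous_fst.edist continuous_snd)) μ ν
  refine ⟨q, h1, le_antisymm ?_ (W2sq_le_of_coupling h1)⟩
  refine le_iInf₂ fun q' hq' ↦ ?_
  rw [cost_eq, cost_eq]
  exact h2 q' hq'

theorem W2sq_comm (μ ν : Measure M) : P242.W2sq μ ν = P242.W2sq ν μ := by
  have key : ∀ μ ν : Measure M, P242.W2sq μ ν ≤ P242.W2sq ν μ := by
    intro μ ν
    refine le_iInf₂ fun q hq ↦ ?_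
    have hsw : Measurable (Prod.swap : M × M → M × M) := measurable_swap
    have hc : P242.IsCoupling μ ν (q.map Prod.swap) := by
      constructor
      · rw [Measure.map_map measurable_fst hsw]; exact hq.2
      · rw [Measure.map_map measurable_snd hsw]; exact hq.1
    have hcost : P242.transportCost (q.map Prod.swap) = P242.transportCost q := by
      rw [cost_eq, cost_eq, lintegral_map measurable_edist_sq hsw]
      simp [edist_comm]
    rw [← hcost]
    exact W2sq_le_of_coupling hc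
  exact le_antisymm (key μ ν) (key ν μ)

/-- The triangle inequality of the `L²`-Wasserstein distance. -/
theorem W2_triangle (μ ν ρ : Measure M) [IsProbabilityMeasure μ] [IsProbabilityMeasure ν]
    [IsProbabilityMeasure ρ] :
    P242.W2sq μ ρ ^ (1 / 2 : ℝ) ≤ P242.W2sq μ ν ^ (1 / 2 : ℝ) + P242.W2sq ν ρ ^ (1 / 2 : ℝ) := by
  obtain ⟨q₁, h₁⟩ := exists_isOptimalCoupling μ ν
  obtain ⟨q₂, h₂⟩ := exists_isOptimalCoupling ν ρ
  have hp₁ : IsProbabilityMeasure q₁ := IsCoupling.prob h₁.1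
  have hp₂ : IsProbabilityMeasure q₂ := IsCoupling.prob h₂.1
  obtain ⟨γ, hγ1, hγ2⟩ := exists_glue q₁ q₂ (h₁.1.2.trans h₂.1.1.symm)
  have m1 : Measurable fun x : (M × M) × M ↦ x.1.1 := measurable_fst.comp measurable_fst
  have m2 : Measurable fun x : (M × M) × M ↦ x.1.2 := measurable_snd.comp measurable_fst
  have m3 : Measurable fun x : (M × M) × M ↦ x.2 := measurable_snd
  have e1 : γ.map (fun x ↦ x.1.1) = μ := by
    have := congrArg (Measure.map Prod.fst) hγ1
    rw [Measure.map_map measurable_fst measurable_fst] at this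
    exact this.trans h₁.1.1
  have e3 : γ.map (fun x ↦ x.2) = ρ := by
    have := congrArg (Measure.map Prod.snd) hγ2
    rw [Measure.map_map measurable_snd (m2.prodMk m3)] at this
    exact this.trans h₂.1.2
  have hc : P242.IsCoupling μ ρ (γ.map fun x ↦ (x.1.1, x.2)) := by
    have := isCoupling_map γ m1 m3
    rw [e1, e3] at this
    exact this
  have c1 : P242.transportCost q₁ = ∫⁻ x, edist x.1.1 x.1.2 ^ 2 ∂γ := by
    rw [← hγ1, cost_eq, lintegral_map measurable_edist_sq measurable_fst]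
  have c2 : P242.transportCost q₂ = ∫⁻ x, edist x.1.2 x.2 ^ 2 ∂γ := by
    rw [← hγ2, cost_eq, lintegral_map measurable_edist_sq (m2.prodMk m3)]
  have hM := ENNReal.lintegral_Lp_add_le (μ := γ) (p := 2) (m1.edist m2).aemeasurable
    (m2.edist m3).aemeasurable (by norm_num)
  simp only [ENNReal.rpow_two, Pi.add_apply] at hM
  rw [← h₁.2, ← h₂.2, c1, c2]
  refine le_trans ?_ hM
  refine ENNReal.rpow_le_rpow ?_ (by norm_num)
  refine (W2sq_le_of_coupling hc).trans ?_
  rw [cost_map γ m1 m3]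
  gcongr with x
  exact edist_triangle _ _ _

theorem edist_sq_le (a b : ℝ≥0∞) : (a + b) ^ 2 ≤ 2 * a ^ 2 + 2 * b ^ 2 := by
  have := ENNReal.rpow_add_le_mul_rpow_add_rpow a b (p := 2) (by norm_num)
  simp only [ENNReal.rpow_two] at this
  norm_num at this
  rw [← mul_add]
  exact this

theorem moment_base {μ : Measure M} [IsFiniteMeasure μ] {x₀ : M}
    (h : ∫⁻ x, edist x₀ x ^ 2 ∂μ < ∞) (x₁ : M) : ∫⁻ x, edist x₁ x ^ 2 ∂μ < ∞ := by
  have h1 : ∫⁻ x, edist x₁ x ^ 2 ∂μ ≤ ∫⁻ x, (2 * edist x₁ x₀ ^ 2 + 2 * edist x₀ x ^ 2) ∂μ := by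
    refine lintegral_mono fun x ↦ ?_
    exact (pow_le_pow_left' (edist_triangle x₁ x₀ x) 2).trans (edist_sq_le _ _)
  refine h1.trans_lt ?_
  have hm2 : Measurable fun x : M ↦ edist x₀ x ^ 2 :=
    (measurable_const.edist measurable_id).pow_const 2
  rw [lintegral_add_left measurable_const, lintegral_const, lintegral_const_mul _ hm2]
  refine ENNReal.add_lt_top.2 ⟨?_, ENNReal.mul_lt_top (by norm_num) h⟩
  exact ENNReal.mul_lt_top (ENNReal.mul_lt_top (by norm_num)
    (ENNReal.pow_lt_top (edist_lt_top _ _))) (measure_lt_top _ _)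

/-- The cost of a coupling of measures with finite second moments is finite. -/
theorem cost_lt_top {μ ν : Measure M} {q : Measure (M × M)} (h : P242.IsCoupling μ ν q)
    [IsProbabilityMeasure μ] {o : M} (hμ : ∫⁻ x, edist o x ^ 2 ∂μ < ∞)
    (hν : ∫⁻ x, edist o x ^ 2 ∂ν < ∞) : P242.transportCost q < ∞ := by
  have hm2 : Measurable fun x : M ↦ edist o x ^ 2 :=
    (measurable_const.edist measurable_id).pow_const 2
  have e1 : ∫⁻ z, edist o z.1 ^ 2 ∂q = ∫⁻ x, edist o x ^ 2 ∂μ := by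
    rw [← h.1, lintegral_map hm2 measurable_fst]
  have e2 : ∫⁻ z, edist o z.2 ^ 2 ∂q = ∫⁻ x, edist o x ^ 2 ∂ν := by
    rw [← h.2, lintegral_map hm2 measurable_snd]
  rw [cost_eq]
  calc ∫⁻ z, edist z.1 z.2 ^ 2 ∂q ≤ ∫⁻ z, (2 * edist o z.1 ^ 2 + 2 * edist o z.2 ^ 2) ∂q := by
        refine lintegral_mono fun z ↦ ?_
        refine (pow_le_pow_left' (edist_triangle z.1 o z.2) 2).trans ?_
        rw [edist_comm z.1 o]
        exact edist_sq_le _ _
    _ = 2 * ∫⁻ z, edist o z.1 ^ 2 ∂q + 2 * ∫⁻ z, edist o z.2 ^ 2 ∂q := by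
        have m1 : Measurable fun z : M × M ↦ edist o z.1 ^ 2 := hm2.comp measurable_fst
        have m2 : Measurable fun z : M × M ↦ edist o z.2 ^ 2 := hm2.comp measurable_snd
        rw [lintegral_add_left (m1.const_mul 2), lintegral_const_mul _ m1,
          lintegral_const_mul _ m2]
    _ < ∞ := by
        rw [e1, e2]
        exact ENNReal.add_lt_top.2 ⟨ENNReal.mul_lt_top (by norm_num) hμ,
          ENNReal.mul_lt_top (by norm_num) hν⟩

theorem aux_sub {W X : ℝ≥0∞} (hW : W ≠ ∞) {s t : ℝ} (hs : 0 ≤ s) (hst : s ≤ t) (ht : t ≤ 1)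
    (h3 : W ≤ ENNReal.ofReal s * W + (X + ENNReal.ofReal (1 - t) * W)) :
    ENNReal.ofReal (t - s) * W ≤ X := by
  by_cases hXt : X = ∞
  · rw [hXt]; exact le_top
  obtain ⟨w, hw, rfl⟩ : ∃ w : ℝ, 0 ≤ w ∧ W = ENNReal.ofReal w :=
    ⟨W.toReal, ENNReal.toReal_nonneg, (ENNReal.ofReal_toReal hW).symm⟩
  obtain ⟨x, hx, rfl⟩ : ∃ x : ℝ, 0 ≤ x ∧ X = ENNReal.ofReal x :=
    ⟨X.toReal, ENNReal.toReal_nonneg, (ENNReal.ofReal_toReal hXt).symm⟩
  have h1 : 0 ≤ 1 - t := by linarith
  have h2 : 0 ≤ t - s := by linarith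
  rw [← ENNReal.ofReal_mul hs, ← ENNReal.ofReal_mul h1, ← ENNReal.ofReal_add hx (by positivity),
    ← ENNReal.ofReal_add (by positivity) (by positivity),
    ENNReal.ofReal_le_ofReal_iff (by positivity)] at h3
  rw [← ENNReal.ofReal_mul h2]
  exact ENNReal.ofReal_le_ofReal (by linarith)

section geod

variable {q : Measure (M × M)} {z : ℝ → M × M → M} (hzm : ∀ s, Measurable (z s))
  (hz0 : ∀ p, z 0 p = p.1) (hz1 : ∀ p, z 1 p = p.2)
  (hz : ∀ s ∈ Icc (0 : ℝ) 1, ∀ t ∈ Icc (0 : ℝ) 1, ∀ p : M × M,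
    dist (z s p) (z t p) = |s - t| * dist p.1 p.2)

include hzm in
theorem map_prob [IsProbabilityMeasure q] (s : ℝ) : IsProbabilityMeasure (q.map (z s)) :=
  Measure.isProbabilityMeasure_map (hzm s).aemeasurable

include hz in
theorem edist_z {s t : ℝ} (hs : s ∈ Icc (0 : ℝ) 1) (ht : t ∈ Icc (0 : ℝ) 1) (p : M × M) :
    edist (z s p) (z t p) = ENNReal.ofReal |s - t| * edist p.1 p.2 := by
  rw [edist_dist, hz s hs t ht p, ENNReal.ofReal_mul (abs_nonneg _), ← edist_dist]

include hzm hz in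
theorem W2_map_le {s t : ℝ} (hs : s ∈ Icc (0 : ℝ) 1) (ht : t ∈ Icc (0 : ℝ) 1) :
    P242.W2sq (q.map (z s)) (q.map (z t)) ^ (1 / 2 : ℝ) ≤
      ENNReal.ofReal |s - t| * P242.transportCost q ^ (1 / 2 : ℝ) := by
  have h1 := W2sq_le_of_coupling (isCoupling_map q (hzm s) (hzm t))
  rw [cost_map q (hzm s) (hzm t)] at h1
  have h2 : ∫⁻ ω, edist (z s ω) (z t ω) ^ 2 ∂q =
      ENNReal.ofReal |s - t| ^ 2 * P242.transportCost q := by
    rw [cost_eq, ← lintegral_const_mul _ measurable_edist_sq]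
    refine lintegral_congr fun p ↦ ?_
    rw [edist_z hz hs ht p, mul_pow]
  rw [h2] at h1
  refine (ENNReal.rpow_le_rpow h1 (by norm_num)).trans_eq ?_
  rw [ENNReal.mul_rpow_of_nonneg _ _ (by norm_num), ← ENNReal.rpow_natCast,
    ← ENNReal.rpow_mul]
  norm_num

include hzm hz0 hz1 hz in
/-- The push-forwards of an optimal coupling form a `W2`-geodesic. -/
theorem isW2Geodesic_map [IsProbabilityMeasure q]
    (hopt : P242.transportCost q = P242.W2sq (q.map (z 0)) (q.map (z 1)))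
    (hfin : P242.transportCost q < ∞) :
    P242.IsW2Geodesic fun s ↦ q.map (z s) := by
  have hp := fun s ↦ map_prob (q := q) hzm s
  set W : ℝ≥0∞ := P242.transportCost q ^ (1 / 2 : ℝ) with hW
  have hWfin : W ≠ ∞ := ENNReal.rpow_ne_top_of_nonneg (by norm_num) hfin.ne
  have key : ∀ s ∈ Icc (0 : ℝ) 1, ∀ t ∈ Icc (0 : ℝ) 1, s ≤ t →
      P242.W2sq (q.map (z s)) (q.map (z t)) ^ (1 / 2 : ℝ) = ENNReal.ofReal |s - t| * W := by
    intro s hs t ht hst
    refine le_antisymm (W2_map_le hzm hz hs ht) ?_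
    have h0 : (0 : ℝ) ∈ Icc (0 : ℝ) 1 := ⟨le_refl _, zero_le_one⟩
    have h1 : (1 : ℝ) ∈ Icc (0 : ℝ) 1 := ⟨zero_le_one, le_refl _⟩
    have t1 := @W2_triangle M _ _ _ _ _ (q.map (z 0)) (q.map (z s)) (q.map (z 1))
      (hp 0) (hp s) (hp 1)
    have t2 := @W2_triangle M _ _ _ _ _ (q.map (z s)) (q.map (z t)) (q.map (z 1))
      (hp s) (hp t) (hp 1)
    rw [← hopt, ← hW] at t1
    have u1 := W2_map_le (q := q) hzm hz h0 hs
    have u2 := W2_map_le (q := q) hzm hz ht h1
    rw [← hW] at u1 u2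
    rw [zero_sub, abs_neg, abs_of_nonneg hs.1] at u1
    rw [abs_of_nonpos (by linarith [ht.2]), neg_sub] at u2
    rw [abs_of_nonpos (by linarith), neg_sub]
    set X := P242.W2sq (q.map (z s)) (q.map (z t)) ^ (1 / 2 : ℝ) with hX
    have h3 : W ≤ ENNReal.ofReal s * W + (X + ENNReal.ofReal (1 - t) * W) :=
      t1.trans (add_le_add u1 (t2.trans (by gcongr)))
    exact aux_sub hWfin hs.1 hst ht.2 h3
  have key2 : ∀ s ∈ Icc (0 : ℝ) 1, ∀ t ∈ Icc (0 : ℝ) 1,
      P242.W2sq (q.map (z s)) (q.map (z t)) ^ (1 / 2 : ℝ) = ENNReal.ofReal |s - t| * W := by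
    intro s hs t ht
    rcases le_total s t with h | h
    · exact key s hs t ht h
    · rw [W2sq_comm, abs_sub_comm]; exact key t ht s hs h
  intro s hs t ht
  have h := key2 s hs t ht
  have h2 : (P242.W2sq (q.map (z s)) (q.map (z t)) ^ (1 / 2 : ℝ)) ^ (2 : ℝ) =
      (ENNReal.ofReal |s - t| * W) ^ (2 : ℝ) := by rw [h]
  rw [← ENNReal.rpow_mul, ENNReal.mul_rpow_of_nonneg _ _ (by norm_num : (0 : ℝ) ≤ 2), hW,
    ← ENNReal.rpow_mul] at h2
  norm_num at h2
  show P242.W2sq (q.map (z s)) (q.map (z t)) =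
    ENNReal.ofReal ((s - t) ^ 2) * P242.W2sq (q.map (z 0)) (q.map (z 1))
  rw [h2, ← hopt, ← ENNReal.ofReal_pow (abs_nonneg _) 2, sq_abs]

end geod

/-- The support of an optimal coupling with finite cost is cyclically monotone for `d² / 2`. -/
theorem cyclMonoR_support {μ ν : Measure M} {q : Measure (M × M)} [IsFiniteMeasure q]
    (h : P242.IsOptimalCoupling μ ν q) (hfin : P242.transportCost q < ∞) :
    CyclMonoR (fun x y : M ↦ dist x y ^ 2 / 2) q.support := by
  have hc : Continuous fun p : M × M ↦ nndist p.1 p.2 ^ 2 :=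
    (continuous_fst.nndist continuous_snd).pow 2
  have e : ∀ p : M × M, ((nndist p.1 p.2 ^ 2 : ℝ≥0) : ℝ≥0∞) = edist p.1 p.2 ^ 2 := by
    intro p
    rw [ENNReal.coe_pow, ← edist_nndist]
  have hcm : CyclMono (fun p : M × M ↦ nndist p.1 p.2 ^ 2) q.support := by
    refine cyclMono_support _ hc q ?_ ?_
    · simp only [e]
      rw [← cost_eq]
      exact hfin.ne
    · intro q' hq'
      simp only [e]
      rw [← cost_eq, ← cost_eq, h.2]
      refine W2sq_le_of_coupling ?_
      have h1 := h.1.1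
      have h2 := h.1.2
      rw [← h1, ← h2]
      exact hq'
  intro n p σ hp
  have := hcm n p σ hp
  rw [← NNReal.coe_le_coe] at this
  push_cast at this
  simp only [← Finset.sum_div]
  linarith

/-- Everything that part 3a needs from optimal transport. -/
structure Plan (μ₀ μ₁ : Measure M) (q : Measure (M × M)) (z : ℝ → M × M → M) (φ ψ : M → ℝ) :
    Prop where
  opt : P242.IsOptimalCoupling μ₀ μ₁ q
  prob : IsProbabilityMeasure q
  cost : P242.transportCost q < ∞
  meas : ∀ s, Measurable (z s)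
  zero : ∀ p, z 0 p = p.1
  one : ∀ p, z 1 p = p.2
  dist_z : ∀ s ∈ Icc (0 : ℝ) 1, ∀ t ∈ Icc (0 : ℝ) 1, ∀ p : M × M,
    dist (z s p) (z t p) = |s - t| * dist p.1 p.2
  map_zero : q.map (z 0) = μ₀
  map_one : q.map (z 1) = μ₁
  map_prob : ∀ s, IsProbabilityMeasure (q.map (z s))
  geod : P242.IsW2Geodesic fun s ↦ q.map (z s)
  mom : ∀ s ∈ Icc (0 : ℝ) 1, ∀ o : M, ∫⁻ x, ENNReal.ofReal (dist o x ^ 2) ∂(q.map (z s)) < ∞
  supp : q q.supportᶜ = 0
  closed : IsClosed q.support
  cycl : CyclMonoR (fun x y : M ↦ dist x y ^ 2 / 2) q.support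
  pot_le : ∀ p ∈ q.support, ∀ p' ∈ q.support, φ p.1 + ψ p'.2 ≤ dist p.1 p'.2 ^ 2 / 2
  pot_eq : ∀ p ∈ q.support, φ p.1 + ψ p.2 = dist p.1 p.2 ^ 2 / 2

/-- Two-point monotonicity. -/
theorem CyclMonoR.two {Γ : Set (M × M)} (h : CyclMonoR (fun x y : M ↦ dist x y ^ 2 / 2) Γ)
    {p p' : M × M} (hp : p ∈ Γ) (hp' : p' ∈ Γ) :
    dist p.1 p.2 ^ 2 + dist p'.1 p'.2 ^ 2 ≤ dist p.1 p'.2 ^ 2 + dist p'.1 p.2 ^ 2 := by
  have := h 2 ![p, p'] (Equiv.swap 0 1) (by intro i; fin_cases i <;> simpa)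
  simp only [Fin.sum_univ_two, Matrix.cons_val_zero, Matrix.cons_val_one, Equiv.swap_apply_left,
    Equiv.swap_apply_right] at this
  linarith

/-- SUMMARY: existence of a plan with geodesics and potentials, for probability measures with
finite second moments on a proper geodesic space. -/
theorem exists_plan [ProperSpace M]
    (hgeod : ∀ x y : M, ∀ s t : ℝ, 0 ≤ s → 0 ≤ t → s + t = dist x y →
      ∃ w, dist x w = s ∧ dist w y = t)
    {μ₀ μ₁ : Measure M} [IsProbabilityMeasure μ₀] [IsProbabilityMeasure μ₁]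
    (h0 : ∀ o : M, ∫⁻ x, ENNReal.ofReal (dist o x ^ 2) ∂μ₀ < ∞)
    (h1 : ∀ o : M, ∫⁻ x, ENNReal.ofReal (dist o x ^ 2) ∂μ₁ < ∞) :
    ∃ (q : Measure (M × M)) (z : ℝ → M × M → M) (φ ψ : M → ℝ), Plan μ₀ μ₁ q z φ ψ := by
  have hne : Nonempty M := by
    by_contra hcon
    rw [not_nonempty_iff] at hcon
    have := measure_univ (μ := μ₀)
    rw [univ_eq_empty_iff.2 hcon, measure_empty] at this
    exact zero_ne_one this
  obtain ⟨o⟩ := hne
  simp only [ofReal_sq] at h0 h1
  obtain ⟨q, hq⟩ := exists_isOptimalCoupling μ₀ μ₁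
  have hprob : IsProbabilityMeasure q := IsCoupling.prob hq.1
  have hcost := cost_lt_top hq.1 (h0 o) (h1 o)
  obtain ⟨z, hzm, hz0, hz1, hz⟩ := exists_geodesics hgeod
  have hcyc := cyclMonoR_support hq hcost
  obtain ⟨φ, ψ, hle, heq⟩ := exists_potentials hcyc
  have e0 : q.map (z 0) = μ₀ := by
    rw [show z 0 = Prod.fst from funext hz0]; exact hq.1.1
  have e1 : q.map (z 1) = μ₁ := by
    rw [show z 1 = Prod.snd from funext hz1]; exact hq.1.2
  refine ⟨q, z, φ, ψ, ⟨hq, hprob, hcost, hzm, hz0, hz1, hz, e0, e1, fun s ↦ map_prob hzm s, ?_, ?_,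
    Measure.measure_compl_support, Measure.isClosed_support, hcyc, hle, heq⟩⟩
  · refine isW2Geodesic_map hzm hz0 hz1 hz ?_ hcost
    rw [e0, e1]; exact hq.2
  · intro s hs x
    simp only [ofReal_sq]
    have hpr := map_prob (q := q) hzm s
    refine moment_base (x₀ := o) ?_ x
    have hm2 : Measurable fun x : M ↦ edist o x ^ 2 :=
      (measurable_const.edist measurable_id).pow_const 2
    rw [lintegral_map hm2 (hzm s)]
    have m1 : Measurable fun p : M × M ↦ edist o p.1 ^ 2 := hm2.comp measurable_fst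
    calc ∫⁻ p, edist o (z s p) ^ 2 ∂q
        ≤ ∫⁻ p, (2 * edist o p.1 ^ 2 + 2 * edist p.1 p.2 ^ 2) ∂q := by
          refine lintegral_mono fun p ↦ ?_
          have h2 : edist p.1 (z s p) ≤ edist p.1 p.2 := by
            have := edist_z hz (⟨le_refl _, zero_le_one⟩ : (0 : ℝ) ∈ Icc (0 : ℝ) 1) hs p
            rw [hz0] at this
            rw [this, zero_sub, abs_neg, abs_of_nonneg hs.1]
            calc ENNReal.ofReal s * edist p.1 p.2 ≤ 1 * edist p.1 p.2 := by
                  gcongr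
                  exact ENNReal.ofReal_le_one.2 hs.2
              _ = edist p.1 p.2 := one_mul _
          calc edist o (z s p) ^ 2 ≤ (edist o p.1 + edist p.1 (z s p)) ^ 2 := by
                gcongr; exact edist_triangle _ _ _
            _ ≤ 2 * edist o p.1 ^ 2 + 2 * edist p.1 (z s p) ^ 2 := edist_sq_le _ _
            _ ≤ 2 * edist o p.1 ^ 2 + 2 * edist p.1 p.2 ^ 2 := by gcongr
      _ = 2 * ∫⁻ p, edist o p.1 ^ 2 ∂q + 2 * ∫⁻ p, edist p.1 p.2 ^ 2 ∂q := by
          rw [lintegral_add_left (m1.const_mul 2), lintegral_const_mul _ m1,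
            lintegral_const_mul _ measurable_edist_sq]
      _ < ∞ := by
          refine ENNReal.add_lt_top.2 ⟨ENNReal.mul_lt_top (by norm_num) ?_,
            ENNReal.mul_lt_top (by norm_num) (by rw [← cost_eq]; exact hcost)⟩
          rw [← lintegral_map hm2 measurable_fst, hq.1.1]
          exact h0 o

end Vale.Agent.P233.H545.OT
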