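import Vale.Agent.P233.H545.Lim

set_option linter.all false

/-! P233, time calculus, part 0: convergence in the Sobolev space along a filter. -/

open MeasureTheory Filter Topology
open scoped ENNReal NNReal

namespace Vale.Agent.P233

variable {M : Type*} [MeasurableSpace M] {m : Measure M} {C : Calc m}

namespace IsDir

variable (hC : IsDir C)
include hC
variable {ι κ : Type*} {l : Filter ι} {u v : ι → M →ₘ[m] ℝ} {a b : M →ₘ[m] ℝ}

theorem WTo_L2 (h : C.WTo l u a) : L2To l u a := by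
  refine ⟨?_, hC.memLp _ h.mem', ?_⟩
  · filter_upwards [h.mem] with i p using hC.memLp _ p
  · refine squeeze_zero' (Eventually.of_forall fun i => I_sq_nonneg _) ?_ h.lim
    filter_upwards [h.mem] with i p using hC.I_sq_le_nrm2 (hC.sub_mem p h.mem')

theorem WTo_E (h : C.WTo l u a) : Tendsto (fun i => I (C.Γ (u i - a) (u i - a))) l (𝓝 0) := by
  refine squeeze_zero' ?_ ?_ h.lim
  · filter_upwards [h.mem] with i p using hC.E_nonneg (hC.sub_mem p h.mem')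
  · filter_upwards [h.mem] with i p using hC.E_le_nrm2 _

theorem WTo_iff : C.WTo l u a ↔ (∀ᶠ i in l, u i ∈ C.W) ∧ a ∈ C.W ∧
    Tendsto (fun i => I ((u i - a) ^ 2)) l (𝓝 0) ∧
    Tendsto (fun i => I (C.Γ (u i - a) (u i - a))) l (𝓝 0) := by
  refine ⟨fun h => ⟨h.mem, h.mem', (hC.WTo_L2 h).lim, hC.WTo_E h⟩, fun h => ⟨h.1, h.2.1, ?_⟩⟩
  have := h.2.2.1.add h.2.2.2
  rw [add_zero] at this
  exact this

theorem nrm2_zero : C.nrm2 (0 : M →ₘ[m] ℝ) = 0 := by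
  unfold Calc.nrm2
  rw [hC.Γ_zero_left hC.zero_mem]
  have : (0 : M →ₘ[m] ℝ) ^ 2 = 0 := by ring
  rw [this, I_zero, add_zero]

theorem WTo_const (ha : a ∈ C.W) : C.WTo l (fun _ => a) a := by
  refine ⟨Eventually.of_forall fun _ => ha, ha, ?_⟩
  have : a - a = 0 := by ring
  simp only [this, hC.nrm2_zero]
  exact tendsto_const_nhds

theorem WTo_add (h1 : C.WTo l u a) (h2 : C.WTo l v b) : C.WTo l (fun i => u i + v i) (a + b) := by
  refine ⟨?_, hC.add_mem _ h1.mem' _ h2.mem', ?_⟩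
  · filter_upwards [h1.mem, h2.mem] with i p q using hC.add_mem _ p _ q
  refine squeeze_zero' ?_ ?_ (by simpa using (h1.lim.const_mul 2).add (h2.lim.const_mul 2))
  · filter_upwards [h1.mem, h2.mem] with i p q using hC.nrm2_nonneg
      (hC.sub_mem (hC.add_mem _ p _ q) (hC.add_mem _ h1.mem' _ h2.mem'))
  filter_upwards [h1.mem, h2.mem] with i p q
  have := hC.nrm2_add_le (hC.sub_mem p h1.mem') (hC.sub_mem q h2.mem')
  have e : u i - a + (v i - b) = u i + v i - (a + b) := by ring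
  rwa [e] at this

theorem nrm2_smul (c : ℝ) (ha : a ∈ C.W) : C.nrm2 (c • a) = c ^ 2 * C.nrm2 a := by
  unfold Calc.nrm2
  rw [hC.E_smul c ha, mul_add]
  congr 1
  rw [← I_smul]; congr 1; algebra

theorem WTo_smul (c : ℝ) (h1 : C.WTo l u a) : C.WTo l (fun i => c • u i) (c • a) := by
  refine ⟨?_, hC.smul_mem _ _ h1.mem', ?_⟩
  · filter_upwards [h1.mem] with i p using hC.smul_mem _ _ p
  have h := h1.lim.const_mul (c ^ 2)
  rw [mul_zero] at h
  refine h.congr' ?_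
  filter_upwards [h1.mem] with i p
  rw [← hC.nrm2_smul c (hC.sub_mem p h1.mem')]
  congr 1; algebra

theorem WTo_neg (h1 : C.WTo l u a) : C.WTo l (fun i => -u i) (-a) := by
  have := hC.WTo_smul (-1) h1
  simpa using this

theorem WTo_sub (h1 : C.WTo l u a) (h2 : C.WTo l v b) : C.WTo l (fun i => u i - v i) (a - b) := by
  simpa [sub_eq_add_neg] using hC.WTo_add h1 (hC.WTo_neg h2)

theorem WTo_bdd (h1 : C.WTo l u a) : ∀ᶠ i in l, C.nrm2 (u i) ≤ 2 * C.nrm2 a + 2 := by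
  filter_upwards [h1.mem, h1.lim.eventually (gt_mem_nhds (show (0 : ℝ) < 1 by norm_num))]
    with i p q
  have := hC.nrm2_add_le (hC.sub_mem p h1.mem') h1.mem'
  have e : u i - a + a = u i := by ring
  rw [e] at this
  linarith

/-- real multipliers that converge -/
theorem WTo_smul_tendsto (h1 : C.WTo l u a) {c : ι → ℝ} {c0 : ℝ} (hc : Tendsto c l (𝓝 c0)) :
    C.WTo l (fun i => c i • u i) (c0 • a) := by
  refine ⟨?_, hC.smul_mem _ _ h1.mem', ?_⟩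
  · filter_upwards [h1.mem] with i p using hC.smul_mem _ _ p
  have hlim : Tendsto (fun i => 2 * ((c i - c0) ^ 2 * (2 * C.nrm2 a + 2))
      + 2 * (c0 ^ 2 * C.nrm2 (u i - a))) l (𝓝 0) := by
    have h2 : Tendsto (fun i => (c i - c0) ^ 2) l (𝓝 0) := by
      have := ((hc.sub_const c0).pow 2)
      simpa using this
    have := ((h2.mul_const (2 * C.nrm2 a + 2)).const_mul 2).add
      ((h1.lim.const_mul (c0 ^ 2)).const_mul 2)
    simpa using this
  refine squeeze_zero' ?_ ?_ hlim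
  · filter_upwards [h1.mem] with i p using hC.nrm2_nonneg
      (hC.sub_mem (hC.smul_mem _ _ p) (hC.smul_mem _ _ h1.mem'))
  filter_upwards [h1.mem, hC.WTo_bdd h1] with i p q
  have h3 := hC.nrm2_add_le (hC.smul_mem (c i - c0) _ p) (hC.smul_mem c0 _ (hC.sub_mem p h1.mem'))
  have e : (c i - c0) • u i + c0 • (u i - a) = c i • u i - c0 • a := by algebra
  rw [e, hC.nrm2_smul _ p, hC.nrm2_smul _ (hC.sub_mem p h1.mem')] at h3
  have := mul_le_mul_of_nonneg_left q (sq_nonneg (c i - c0))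
  linarith

theorem WTo_unique [l.NeBot] (h1 : C.WTo l u a) (h2 : C.WTo l u b) : a = b :=
  (hC.WTo_L2 h1).unique (hC.WTo_L2 h2)

/-- `Γ(u i, v i) → Γ(a,b)` in `L¹` -/
theorem WTo_Γ_L1 (h1 : C.WTo l u a) (h2 : C.WTo l v b) :
    L1To l (fun i => C.Γ (u i) (v i)) (C.Γ a b) := by
  refine ⟨?_, hC.Γ_mem1 h1.mem' h2.mem', ?_⟩
  · filter_upwards [h1.mem, h2.mem] with i p q using hC.Γ_mem1 p q
  have l1 := (Real.continuous_sqrt.tendsto 0).comp (hC.WTo_E h1)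
  have l2 := (Real.continuous_sqrt.tendsto 0).comp (hC.WTo_E h2)
  simp only [Real.sqrt_zero, Function.comp_def] at l1 l2
  have hlim : Tendsto (fun n => √(I (C.Γ (u n - a) (u n - a))) * √(I (C.Γ (v n - b) (v n - b)))
      + √(I (C.Γ (u n - a) (u n - a))) * √(I (C.Γ b b))
      + √(I (C.Γ a a)) * √(I (C.Γ (v n - b) (v n - b)))) l (𝓝 0) := by
    have := ((l1.mul l2).add (l1.mul_const (√(I (C.Γ b b))))).add
      (l2.const_mul (√(I (C.Γ a a))))
    simpa using this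
  refine squeeze_zero' (Eventually.of_forall fun n => integral_nonneg fun x => abs_nonneg _) ?_ hlim
  filter_upwards [h1.mem, h2.mem] with n p q
  have p1 := hC.sub_mem p h1.mem'
  have p2 := hC.sub_mem q h2.mem'
  have e : C.Γ (u n) (v n) - C.Γ a b
      = C.Γ (u n - a) (v n - b) + C.Γ (u n - a) b + C.Γ a (v n - b) := by
    rw [hC.Γ_sub_left p h1.mem' p2, hC.Γ_sub_left p h1.mem' h2.mem',
      hC.Γ_sub_right p q h2.mem', hC.Γ_sub_right h1.mem' q h2.mem']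
    ring
  rw [e]
  have i1 := (int_of_mem (hC.Γ_mem1 p1 p2)).abs
  have i2 := (int_of_mem (hC.Γ_mem1 p1 h2.mem')).abs
  have i3 := (int_of_mem (hC.Γ_mem1 h1.mem' p2)).abs
  calc ∫ x, |(C.Γ (u n - a) (v n - b) + C.Γ (u n - a) b + C.Γ a (v n - b) : M →ₘ[m] ℝ) x| ∂m
      ≤ ∫ x, ((|C.Γ (u n - a) (v n - b) x| + |C.Γ (u n - a) b x|) + |C.Γ a (v n - b) x|) ∂m := by
        refine integral_mono_ae (int_of_mem (mem_add (mem_add (hC.Γ_mem1 p1 p2)
          (hC.Γ_mem1 p1 h2.mem')) (hC.Γ_mem1 h1.mem' p2))).abs ((i1.add i2).add i3) ?_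
        filter_upwards [add_ae (C.Γ (u n - a) (v n - b) + C.Γ (u n - a) b) (C.Γ a (v n - b)),
          add_ae (C.Γ (u n - a) (v n - b)) (C.Γ (u n - a) b)] with x e1 e2
        rw [e1, e2]
        exact (abs_add_le _ _).trans (add_le_add (abs_add_le _ _) le_rfl)
    _ = (∫ x, |C.Γ (u n - a) (v n - b) x| ∂m + ∫ x, |C.Γ (u n - a) b x| ∂m)
        + ∫ x, |C.Γ a (v n - b) x| ∂m := by
        rw [← integral_add i1 i2]
        exact integral_add (i1.add i2) i3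
    _ ≤ _ := add_le_add (add_le_add (hC.int_abs_Γ_le p1 p2) (hC.int_abs_Γ_le p1 h2.mem'))
        (hC.int_abs_Γ_le h1.mem' p2)

/-- a.e. bound of `Γ f g` by bounds of `Γ f f` and `Γ g g` -/
theorem Γ_sq_le {f g : M →ₘ[m] ℝ} (hf : f ∈ C.W) (hg : g ∈ C.W) {L : ℝ}
    (hL : ∀ᵐ x ∂m, C.Γ g g x ≤ L) : ∀ᵐ x ∂m, C.Γ f g x ^ 2 ≤ L * C.Γ f f x := by
  filter_upwards [hC.Γ_cs_ae hf hg, hL, hC.Γ_nonneg_ae hf] with x h1 h2 h3
  refine h1.trans ?_
  rw [mul_comm]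
  exact mul_le_mul_of_nonneg_right h2 h3

/-- `L²` bound of `Γ f g` -/
theorem I_Γ_sq_le {f g : M →ₘ[m] ℝ} (hf : f ∈ C.W) (hg : g ∈ C.W) {L : ℝ}
    (hL : ∀ᵐ x ∂m, C.Γ g g x ≤ L) :
    MemLp (C.Γ f g) 2 m ∧ I (C.Γ f g ^ 2) ≤ L * I (C.Γ f f) := by
  have hm : MemLp (C.Γ f g ^ 2 : M →ₘ[m] ℝ) 1 m := by
    refine mem_of_le (mem_smul L (hC.mem1 f hf)) ?_
    filter_upwards [sq_ae (C.Γ f g), smul_ae (C.Γ f f) L, hC.Γ_sq_le hf hg hL] with x e1 e2 e3
    rw [e1, e2, abs_of_nonneg (sq_nonneg _)]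
    exact e3.trans (le_abs_self _)
  refine ⟨memLp_two_of_sq hm, ?_⟩
  rw [← I_smul]
  refine I_mono hm (mem_smul _ (hC.mem1 f hf)) ?_
  rw [le_iff_ae]
  filter_upwards [sq_ae (C.Γ f g), smul_ae (C.Γ f f) L, hC.Γ_sq_le hf hg hL] with x e1 e2 e3
  rw [e1, e2]
  exact e3

/-- difference of two Lipschitz functions -/
theorem Γ_sub_bd {f g : M →ₘ[m] ℝ} (hf : f ∈ C.W) (hg : g ∈ C.W) {L : ℝ}
    (h1 : ∀ᵐ x ∂m, C.Γ f f x ≤ L) (h2 : ∀ᵐ x ∂m, C.Γ g g x ≤ L) :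
    ∀ᵐ x ∂m, C.Γ (f - g) (f - g) x ≤ 4 * L := by
  have e : C.Γ (f - g) (f - g) + C.Γ (f + g) (f + g) = (2 : ℝ) • C.Γ f f + (2 : ℝ) • C.Γ g g := by
    rw [hC.Γ_sub_left hf hg (hC.sub_mem hf hg), hC.Γ_sub_right hf hf hg, hC.Γ_sub_right hg hf hg,
      hC.add_left _ hf _ hg _ (hC.add_mem _ hf _ hg), hC.Γ_add_right hf hf hg,
      hC.Γ_add_right hg hf hg]
    algebra
  filter_upwards [h1, h2, hC.Γ_nonneg_ae (hC.add_mem _ hf _ hg), eq_iff_ae.1 e,
    add_ae (C.Γ (f - g) (f - g)) (C.Γ (f + g) (f + g)),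
    add_ae ((2 : ℝ) • C.Γ f f) ((2 : ℝ) • C.Γ g g), smul_ae (C.Γ f f) 2, smul_ae (C.Γ g g) 2]
    with x a1 a2 a3 a4 a5 a6 a7 a8
  rw [a5, a6, a7, a8] at a4
  linarith

/-- a subsequence along which everything converges a.e. -/
theorem WTo_subseq (h : C.WTo l u a) {ns : ℕ → ι} (hns : Tendsto ns atTop l) :
    ∃ (N : ℕ) (ks : ℕ → ℕ), StrictMono ks ∧ (∀ n, u (ns (ks n + N)) ∈ C.W) ∧
      (∀ᵐ x ∂m, Tendsto (fun n => u (ns (ks n + N)) x) atTop (𝓝 (a x))) ∧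
      (∀ᵐ x ∂m, Tendsto (fun n => C.Γ (u (ns (ks n + N)) - a) (u (ns (ks n + N)) - a) x) atTop
        (𝓝 0)) := by
  obtain ⟨N, hN⟩ := eventually_atTop.1 (hns.eventually h.mem)
  have hns1 : Tendsto (fun n => ns (n + N)) atTop l := hns.comp (tendsto_add_atTop_nat N)
  have hm : ∀ n, u (ns (n + N)) ∈ C.W := fun n => hN _ (Nat.le_add_left _ _)
  obtain ⟨k1, hk1, hk1'⟩ := exists_subseq_of_I_sq (u := fun n => u (ns (n + N))) (f := a)
    (fun n => hC.memLp _ (hm n)) (hC.memLp _ h.mem') ((hC.WTo_L2 h).lim.comp hns1)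
  have hE := (hC.WTo_E h).comp (hns1.comp hk1.tendsto_atTop)
  obtain ⟨k2, hk2, hk2'⟩ := exists_subseq_of_I
    (g := fun n => C.Γ (u (ns (k1 n + N)) - a) (u (ns (k1 n + N)) - a))
    (fun n => hC.mem1 _ (hC.sub_mem (hm _) h.mem')) (fun n => hC.nonneg _ (hC.sub_mem (hm _) h.mem'))
    hE
  refine ⟨N, fun n => k1 (k2 n), hk1.comp hk2, fun n => hm _, ?_, hk2'⟩
  filter_upwards [hk1'] with x hx using hx.comp hk2.tendsto_atTop

/-- `Γ(u i, v i) → Γ(a,b)` in `L²` if `v i` is uniformly Lipschitz -/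
theorem WTo_Γ_L2 [l.IsCountablyGenerated] (h1 : C.WTo l u a) (h2 : C.WTo l v b) {L : ℝ}
    (hL : ∀ᶠ i in l, ∀ᵐ x ∂m, C.Γ (v i) (v i) x ≤ L) (hLb : ∀ᵐ x ∂m, C.Γ b b x ≤ L) :
    L2To l (fun i => C.Γ (u i) (v i)) (C.Γ a b) := by
  refine L2To.of_seq ?_ (hC.I_Γ_sq_le h1.mem' h2.mem' hLb).1 ?_
  · filter_upwards [h1.mem, h2.mem, hL] with i p q r using (hC.I_Γ_sq_le p q r).1
  intro ns hns
  obtain ⟨N0, hN0⟩ := eventually_atTop.1 (hns.eventually (h1.mem.and hL))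
  have hns0 : Tendsto (fun n => ns (n + N0)) atTop l := hns.comp (tendsto_add_atTop_nat N0)
  obtain ⟨N, ks, hk, hm, hk1, hk2⟩ := hC.WTo_subseq h2 hns0
  refine ⟨fun n => ks n + N + N0, ?_⟩
  have hkt : Tendsto (fun n => ns (ks n + N + N0)) atTop l := hns0.comp
    ((tendsto_add_atTop_nat N).comp hk.tendsto_atTop)
  have hu : ∀ n, u (ns (ks n + N + N0)) ∈ C.W := fun n => (hN0 _ (Nat.le_add_left _ _)).1
  have hLn : ∀ n, ∀ᵐ x ∂m, C.Γ (v (ns (ks n + N + N0))) (v (ns (ks n + N + N0))) x ≤ L :=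
    fun n => (hN0 _ (Nat.le_add_left _ _)).2
  set U := fun n => u (ns (ks n + N + N0)) with hU
  set V := fun n => v (ns (ks n + N + N0)) with hV
  have hUE : Tendsto (fun n => I (C.Γ (U n - a) (U n - a))) atTop (𝓝 0) := (hC.WTo_E h1).comp hkt
  -- the second part by dominated convergence
  have t2 : Tendsto (fun n => I (C.Γ a (V n - b) ^ 2)) atTop (𝓝 0) := by
    have := I_tendsto_of_dominated (m := m) (u := fun n => C.Γ a (V n - b) ^ 2)
      (f := 0) (G := fun x => 4 * L * C.Γ a a x) ((int_of_mem (hC.mem1 a h1.mem')).const_mul _)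
      (fun n => ?_) ?_
    · rwa [I_zero] at this
    · filter_upwards [sq_ae (C.Γ a (V n - b)), hC.Γ_sq_le h1.mem' (hC.sub_mem (hm n) h2.mem')
        (hC.Γ_sub_bd (hm n) h2.mem' (hLn n) hLb)] with x e1 e2
      rw [e1, abs_of_nonneg (sq_nonneg _)]
      exact e2
    · filter_upwards [hk2, ae_all_iff.2 fun n => sq_ae (C.Γ a (V n - b)),
        ae_all_iff.2 fun n => hC.Γ_cs_ae h1.mem' (hC.sub_mem (hm n) h2.mem'),
        zero_ae (M := M) (m := m)] with x e1 e2 e3 e4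
      rw [e4]
      simp only [e2]
      refine squeeze_zero (fun n => sq_nonneg _) (fun n => e3 n) ?_
      have := e1.const_mul (C.Γ a a x)
      simpa using this
  have hb : Tendsto (fun n => 2 * (L * I (C.Γ (U n - a) (U n - a)))
      + 2 * I (C.Γ a (V n - b) ^ 2)) atTop (𝓝 0) := by
    have := ((hUE.const_mul L).const_mul 2).add (t2.const_mul 2)
    simpa using this
  refine squeeze_zero (fun n => I_sq_nonneg _) (fun n => ?_) hb
  have p1 := hC.sub_mem (hu n) h1.mem'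
  have p2 := hC.sub_mem (hm n) h2.mem'
  have q1 := hC.I_Γ_sq_le p1 (hm n) (hLn n)
  have q2 := hC.I_Γ_sq_le h1.mem' p2 (hC.Γ_sub_bd (hm n) h2.mem' (hLn n) hLb)
  have e : C.Γ (U n) (V n) - C.Γ a b = C.Γ (U n - a) (V n) + C.Γ a (V n - b) := by
    rw [hC.Γ_sub_left (hu n) h1.mem' (hm n), hC.Γ_sub_right h1.mem' (hm n) h2.mem']
    ring
  have := I_sq_add_le q1.1 q2.1
  rw [← e] at this
  refine this.trans ?_
  have := q1.2
  linarith

/-- the energy of a product with a bounded Lipschitz function -/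
theorem Γ_mul_self_lip {f g : M →ₘ[m] ℝ} (hf : f ∈ C.A) (hf' : MemLp (C.Γ f f) ∞ m)
    (hg : g ∈ C.W) : f * g ∈ C.W ∧ ∀ᵐ x ∂m, C.Γ (f * g) (f * g) x
      ≤ 2 * (f x ^ 2 * C.Γ g g x) + 2 * (g x ^ 2 * C.Γ f f x) := by
  have hfg := hC.mul_mem_lip hf hf' hg
  refine ⟨hfg, ?_⟩
  have e : C.Γ (f * g) (f * g) = f * (f * C.Γ g g + g * C.Γ f g) + g * (f * C.Γ g f + g * C.Γ f f) := by
    rw [hC.Γ_mul_left_lip hf hf' hg hfg, hC.symm g hg _ hfg, hC.symm f hf.1 _ hfg,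
      hC.Γ_mul_left_lip hf hf' hg hg, hC.Γ_mul_left_lip hf hf' hg hf.1]
  rw [eq_iff_ae] at e
  filter_upwards [e, add_ae (f * (f * C.Γ g g + g * C.Γ f g)) (g * (f * C.Γ g f + g * C.Γ f f)),
    mul_ae f (f * C.Γ g g + g * C.Γ f g), mul_ae g (f * C.Γ g f + g * C.Γ f f),
    add_ae (f * C.Γ g g) (g * C.Γ f g), add_ae (f * C.Γ g f) (g * C.Γ f f), mul_ae f (C.Γ g g),
    mul_ae g (C.Γ f g), mul_ae f (C.Γ g f), mul_ae g (C.Γ f f), hC.Γ_cs_ae hf.1 hg,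
    hC.Γ_nonneg_ae hf.1, hC.Γ_nonneg_ae hg, eq_iff_ae.1 (hC.symm g hg f hf.1)]
    with x a1 a2 a3 a4 a5 a6 a7 a8 a9 a10 a11 a12 a13 a14
  rw [a1, a2, a3, a4, a5, a6, a7, a8, a9, a10, a14]
  set A := C.Γ f f x
  set B := C.Γ g g x
  set D := C.Γ f g x
  have c1 : (2 * (f x * g x) * D) ^ 2 ≤ (f x ^ 2 * B + g x ^ 2 * A) ^ 2 := by
    have c2 : (f x * g x) ^ 2 * D ^ 2 ≤ (f x * g x) ^ 2 * (A * B) :=
      mul_le_mul_of_nonneg_left a11 (sq_nonneg _)
    linarith only [sq_nonneg (f x ^ 2 * B - g x ^ 2 * A), c2]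
  have c3 : 2 * (f x * g x) * D ≤ f x ^ 2 * B + g x ^ 2 * A :=
    (le_abs_self _).trans (abs_le_of_sq_le_sq c1 (by positivity))
  linarith

/-- products: `u i` uniformly bounded and Lipschitz -/
theorem WTo_mul [l.IsCountablyGenerated] (h1 : C.WTo l u a) (h2 : C.WTo l v b) {K L : ℝ}
    (hK : BdTo l u K) (hKa : ∀ᵐ x ∂m, |a x| ≤ K)
    (hL : ∀ᶠ i in l, ∀ᵐ x ∂m, C.Γ (u i) (u i) x ≤ L) (hLa : ∀ᵐ x ∂m, C.Γ a a x ≤ L) :
    C.WTo l (fun i => u i * v i) (a * b) := by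
  have haA : a ∈ C.A := ⟨h1.mem', mem_top_iff.2 ⟨K, hKa⟩⟩
  have topL : ∀ {w : M →ₘ[m] ℝ}, w ∈ C.W → (∀ᵐ x ∂m, C.Γ w w x ≤ L) → MemLp (C.Γ w w) ∞ m := by
    intro w hw h
    refine mem_top_iff.2 ⟨L, ?_⟩
    filter_upwards [h, hC.Γ_nonneg_ae hw] with x p q
    rwa [abs_of_nonneg q]
  refine Calc.WTo.of_seq ?_ (hC.mul_mem_lip haA (topL h1.mem' hLa) h2.mem') ?_
  · filter_upwards [h1.mem, h2.mem, hK, hL] with i p q r s
    exact hC.mul_mem_lip ⟨p, mem_top_iff.2 ⟨K, r⟩⟩ (topL p s) q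
  intro ns hns
  obtain ⟨N0, hN0⟩ := eventually_atTop.1 (hns.eventually (h2.mem.and (hK.and hL)))
  have hns0 : Tendsto (fun n => ns (n + N0)) atTop l := hns.comp (tendsto_add_atTop_nat N0)
  obtain ⟨N, ks, hk, hm, hk1, hk2⟩ := hC.WTo_subseq h1 hns0
  refine ⟨fun n => ks n + N + N0, ?_⟩
  have hkt : Tendsto (fun n => ns (ks n + N + N0)) atTop l := hns0.comp
    ((tendsto_add_atTop_nat N).comp hk.tendsto_atTop)
  have hv : ∀ n, v (ns (ks n + N + N0)) ∈ C.W := fun n => (hN0 _ (Nat.le_add_left _ _)).1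
  have hKn : ∀ n, ∀ᵐ x ∂m, |u (ns (ks n + N + N0)) x| ≤ K :=
    fun n => (hN0 _ (Nat.le_add_left _ _)).2.1
  have hLn : ∀ n, ∀ᵐ x ∂m, C.Γ (u (ns (ks n + N + N0))) (u (ns (ks n + N + N0))) x ≤ L :=
    fun n => (hN0 _ (Nat.le_add_left _ _)).2.2
  set U := fun n => u (ns (ks n + N + N0)) with hU
  set V := fun n => v (ns (ks n + N + N0)) with hV
  have hVE : Tendsto (fun n => C.nrm2 (V n - b)) atTop (𝓝 0) := h2.lim.comp hkt
  have hUA : ∀ n, U n ∈ C.A := fun n => ⟨hm n, mem_top_iff.2 ⟨K, hKn n⟩⟩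
  have hDA : ∀ n, U n - a ∈ C.A := fun n => hC.A_sub (hUA n) haA
  have hDL : ∀ n, ∀ᵐ x ∂m, C.Γ (U n - a) (U n - a) x ≤ 4 * L := fun n =>
    hC.Γ_sub_bd (hm n) h1.mem' (hLn n) hLa
  have topD : ∀ n, MemLp (C.Γ (U n - a) (U n - a)) ∞ m := fun n => by
    refine mem_top_iff.2 ⟨4 * L, ?_⟩
    filter_upwards [hDL n, hC.Γ_nonneg_ae (hC.sub_mem (hm n) h1.mem')] with x p q
    rwa [abs_of_nonneg q]
  have hb2 := mem_sq (hC.memLp _ h2.mem')
  -- first part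
  have t1 : ∀ n, C.nrm2 (U n * (V n - b)) ≤ (2 * K ^ 2 + 2 * |L|) * C.nrm2 (V n - b) := by
    intro n
    have hw := hC.sub_mem (hv n) h2.mem'
    obtain ⟨c1, c2⟩ := hC.Γ_mul_self_lip (hUA n) (topL (hm n) (hLn n)) hw
    have hw2 := hC.memLp _ hw
    have d1 : I (C.Γ (U n * (V n - b)) (U n * (V n - b))) ≤
        2 * K ^ 2 * I (C.Γ (V n - b) (V n - b)) + 2 * |L| * I ((V n - b) ^ 2) := by
      rw [← I_smul, ← I_smul, ← I_add (mem_smul _ (hC.mem1 _ hw)) (mem_smul _ (mem_sq hw2))]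
      refine I_mono (hC.mem1 _ c1) (mem_add (mem_smul _ (hC.mem1 _ hw)) (mem_smul _ (mem_sq hw2))) ?_
      rw [le_iff_ae]
      filter_upwards [c2, add_ae ((2 * K ^ 2) • C.Γ (V n - b) (V n - b)) ((2 * |L|) • (V n - b) ^ 2),
        smul_ae (C.Γ (V n - b) (V n - b)) (2 * K ^ 2), smul_ae ((V n - b) ^ 2) (2 * |L|),
        sq_ae (V n - b), hKn n, hLn n, hC.Γ_nonneg_ae hw] with x a1 a2 a3 a4 a5 a6 a7 a8
      rw [a2, a3, a4, a5]
      refine a1.trans ?_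
      have b1 : U n x ^ 2 ≤ K ^ 2 := by
        rw [← sq_abs]; gcongr
      have b2 : U n x ^ 2 * C.Γ (V n - b) (V n - b) x ≤ K ^ 2 * C.Γ (V n - b) (V n - b) x :=
        mul_le_mul_of_nonneg_right b1 a8
      have b3 : (V n - b : M →ₘ[m] ℝ) x ^ 2 * C.Γ (U n) (U n) x ≤ (V n - b : M →ₘ[m] ℝ) x ^ 2 * |L| :=
        mul_le_mul_of_nonneg_left (a7.trans (le_abs_self _)) (sq_nonneg _)
      linarith
    have d2 : I ((U n * (V n - b)) ^ 2) ≤ K ^ 2 * I ((V n - b) ^ 2) := by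
      rw [← I_smul]
      refine I_mono (mem_sq (hC.memLp _ c1)) (mem_smul _ (mem_sq hw2)) ?_
      rw [le_iff_ae]
      filter_upwards [sq_ae (U n * (V n - b)), mul_ae (U n) (V n - b),
        smul_ae ((V n - b) ^ 2) (K ^ 2), sq_ae (V n - b), hKn n] with x a1 a2 a3 a4 a5
      rw [a1, a2, a3, a4, mul_pow]
      refine mul_le_mul_of_nonneg_right ?_ (sq_nonneg _)
      rw [← sq_abs]; gcongr
    unfold Calc.nrm2
    have h4 := I_sq_nonneg (V n - b)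
    have h5 := hC.E_nonneg hw
    have h8 : 0 ≤ K ^ 2 * I ((V n - b) ^ 2) := mul_nonneg (sq_nonneg K) h4
    have h9 : 0 ≤ |L| * I (C.Γ (V n - b) (V n - b)) := mul_nonneg (abs_nonneg L) h5
    linarith
  -- second part
  have hD := fun n => hC.Γ_mul_self_lip (hDA n) (topD n) h2.mem'
  have t2 : Tendsto (fun n => I (((U n - a) * b) ^ 2)) atTop (𝓝 0) := by
    have := I_tendsto_of_dominated (m := m) (u := fun n => ((U n - a) * b) ^ 2)
      (f := 0) (G := fun x => (2 * K) ^ 2 * (b ^ 2 : M →ₘ[m] ℝ) x) ((int_of_mem hb2).const_mul _)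
      (fun n => ?_) ?_
    · rwa [I_zero] at this
    · filter_upwards [sq_ae ((U n - a) * b), mul_ae (U n - a) b, sub_ae (U n) a, sq_ae b, hKn n,
        hKa] with x e1 e2 e3 e4 e5 e6
      rw [e1, e2, e3, e4, abs_of_nonneg (sq_nonneg _), mul_pow]
      refine mul_le_mul_of_nonneg_right ?_ (sq_nonneg _)
      have : |U n x - a x| ≤ 2 * K := (abs_sub _ _).trans (by linarith)
      rw [← sq_abs]; gcongr
    · filter_upwards [hk1, ae_all_iff.2 fun n => sq_ae ((U n - a) * b),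
        ae_all_iff.2 fun n => mul_ae (U n - a) b, ae_all_iff.2 fun n => sub_ae (U n) a,
        zero_ae (M := M) (m := m)] with x e1 e2 e3 e4 e5
      rw [e5]
      simp only [e2, e3, e4]
      have := ((e1.sub_const (a x)).mul_const (b x)).pow 2
      simpa using this
  have t3 : Tendsto (fun n => I (C.Γ ((U n - a) * b) ((U n - a) * b))) atTop (𝓝 0) := by
    have := I_tendsto_of_dominated (m := m) (u := fun n => C.Γ ((U n - a) * b) ((U n - a) * b))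
      (f := 0) (G := fun x => 2 * ((2 * K) ^ 2 * C.Γ b b x) + 2 * (4 * L * (b ^ 2 : M →ₘ[m] ℝ) x))
      (((int_of_mem (hC.mem1 b h2.mem')).const_mul _).const_mul _ |>.add
        (((int_of_mem hb2).const_mul _).const_mul _)) (fun n => ?_) ?_
    · rwa [I_zero] at this
    · filter_upwards [(hD n).2, hC.Γ_nonneg_ae (hD n).1, sub_ae (U n) a, sq_ae b, hKn n, hKa, hDL n,
        hC.Γ_nonneg_ae h2.mem'] with x e1 e2 e3 e4 e5 e6 e7 e8
      rw [abs_of_nonneg e2]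
      refine e1.trans ?_
      rw [e3, e4]
      have : |U n x - a x| ≤ 2 * K := (abs_sub _ _).trans (by linarith)
      have f1 : (U n x - a x) ^ 2 ≤ (2 * K) ^ 2 := by rw [← sq_abs]; gcongr
      have f2 := mul_le_mul_of_nonneg_right f1 e8
      have f3 := mul_le_mul_of_nonneg_left e7 (sq_nonneg (b x))
      linarith
    · filter_upwards [hk1, hk2, ae_all_iff.2 fun n => (hD n).2,
        ae_all_iff.2 fun n => hC.Γ_nonneg_ae (hD n).1, ae_all_iff.2 fun n => sub_ae (U n) a,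
        zero_ae (M := M) (m := m)] with x e1 e2 e3 e4 e5 e6
      rw [e6]
      refine squeeze_zero e4 e3 ?_
      simp only [e5]
      have := ((((e1.sub_const (a x)).pow 2).mul_const (C.Γ b b x)).const_mul 2).add
        ((e2.const_mul (b x ^ 2)).const_mul 2)
      simpa using this
  have t4 : Tendsto (fun n => C.nrm2 ((U n - a) * b)) atTop (𝓝 0) := by
    have := t2.add t3
    rw [add_zero] at this
    exact this
  have hb : Tendsto (fun n => 2 * ((2 * K ^ 2 + 2 * |L|) * C.nrm2 (V n - b))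
      + 2 * C.nrm2 ((U n - a) * b)) atTop (𝓝 0) := by
    have := ((hVE.const_mul (2 * K ^ 2 + 2 * |L|)).const_mul 2).add (t4.const_mul 2)
    simpa using this
  have w1 : ∀ n, U n * (V n - b) ∈ C.W := fun n =>
    hC.mul_mem_lip (hUA n) (topL (hm n) (hLn n)) (hC.sub_mem (hv n) h2.mem')
  have w2 : ∀ n, (U n - a) * b ∈ C.W := fun n => (hD n).1
  have e : ∀ n, U n * V n - a * b = U n * (V n - b) + (U n - a) * b := fun n => by ring
  refine squeeze_zero (fun n => ?_) (fun n => ?_) hb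
  · show 0 ≤ C.nrm2 (U n * V n - a * b)
    rw [e n]; exact hC.nrm2_nonneg (hC.add_mem _ (w1 n) _ (w2 n))
  · show C.nrm2 (U n * V n - a * b) ≤ _
    rw [e n]
    refine (hC.nrm2_add_le (w1 n) (w2 n)).trans ?_
    have := t1 n
    linarith

/-- compositions -/
theorem WTo_comp [l.IsCountablyGenerated] (h1 : C.WTo l u a) {p q : ℝ} (hp : p ≤ 0) (hq : 0 ≤ q)
    (hr : ∀ᶠ i in l, ∀ᵐ x ∂m, p ≤ u i x ∧ u i x ≤ q) (hra : ∀ᵐ x ∂m, p ≤ a x ∧ a x ≤ q)
    {φ φ' : ℝ → ℝ} (hφ : Continuous φ) (hφ' : Continuous φ')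
    (hd : ∀ t ∈ Set.Icc p q, HasDerivWithinAt φ (φ' t) (Set.Icc p q) t) (h0 : φ 0 = 0) :
    C.WTo l (fun i => AEEqFun.comp φ hφ (u i)) (AEEqFun.comp φ hφ a) := by
  obtain ⟨ca, da⟩ := hC.hc_chain h1.mem' hp hq hra hφ hφ' hd h0
  refine Calc.WTo.of_seq ?_ ca ?_
  · filter_upwards [h1.mem, hr] with i b1 b2 using (hC.hc_chain b1 hp hq b2 hφ hφ' hd h0).1
  intro ns hns
  obtain ⟨N0, hN0⟩ := eventually_atTop.1 (hns.eventually hr)
  have hns0 : Tendsto (fun n => ns (n + N0)) atTop l := hns.comp (tendsto_add_atTop_nat N0)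
  obtain ⟨N, ks, hk, hm, hk1, hk2⟩ := hC.WTo_subseq h1 hns0
  refine ⟨fun n => ks n + N + N0, ?_⟩
  have hkt : Tendsto (fun n => ns (ks n + N + N0)) atTop l := hns0.comp
    ((tendsto_add_atTop_nat N).comp hk.tendsto_atTop)
  have hrn : ∀ n, ∀ᵐ x ∂m, p ≤ u (ns (ks n + N + N0)) x ∧ u (ns (ks n + N + N0)) x ≤ q :=
    fun n => hN0 _ (Nat.le_add_left _ _)
  set U := fun n => u (ns (ks n + N + N0)) with hU
  have hUE : Tendsto (fun n => I (C.Γ (U n - a) (U n - a))) atTop (𝓝 0) := (hC.WTo_E h1).comp hkt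
  have hU2 : Tendsto (fun n => I ((U n - a) ^ 2)) atTop (𝓝 0) := (hC.WTo_L2 h1).lim.comp hkt
  obtain ⟨B, hB⟩ : ∃ B : ℝ, ∀ t ∈ Set.Icc p q, |φ' t| ≤ B := by
    obtain ⟨B, hB⟩ := (isCompact_Icc (a := p) (b := q)).exists_bound_of_continuousOn
      hφ'.continuousOn
    exact ⟨B, fun t ht => hB _ ht⟩
  have hB0 : 0 ≤ B := (abs_nonneg _).trans (hB 0 ⟨hp, hq⟩)
  have hch := fun n => hC.hc_chain (hm n) hp hq (hrn n) hφ hφ' hd h0
  set F := fun n => AEEqFun.comp φ hφ (U n) with hF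
  set F0 := AEEqFun.comp φ hφ a with hF0
  have hFm : ∀ n, F n ∈ C.W := fun n => (hch n).1
  have hlipφ : ∀ s ∈ Set.Icc p q, ∀ t ∈ Set.Icc p q, |φ s - φ t| ≤ B * |s - t| := by
    intro s hs t ht
    have := Convex.norm_image_sub_le_of_norm_hasDerivWithin_le (f := φ) (f' := φ')
      (s := Set.Icc p q) (C := B) hd (fun x hx => hB x hx) (convex_Icc _ _) ht hs
    simpa using this
  -- L² part
  have t1 : ∀ n, I ((F n - F0) ^ 2) ≤ B ^ 2 * I ((U n - a) ^ 2) := by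
    intro n
    have m1 := hC.memLp _ (hC.sub_mem (hFm n) ca)
    have m2 := hC.memLp _ (hC.sub_mem (hm n) h1.mem')
    rw [← I_smul]
    refine I_mono (mem_sq m1) (mem_smul _ (mem_sq m2)) ?_
    rw [le_iff_ae]
    filter_upwards [sq_ae (F n - F0), sub_ae (F n) F0, AEEqFun.coeFn_comp φ hφ (U n),
      AEEqFun.coeFn_comp φ hφ a, smul_ae ((U n - a) ^ 2) (B ^ 2), sq_ae (U n - a), sub_ae (U n) a,
      hrn n, hra] with x e1 e2 e3 e4 e5 e6 e7 e8 e9
    rw [e1, e2, e3, e4, e5, e6, e7, Function.comp_apply, Function.comp_apply, ← mul_pow]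
    have := hlipφ _ ⟨e8.1, e8.2⟩ _ ⟨e9.1, e9.2⟩
    rw [← sq_abs, ← sq_abs (B * _), abs_mul, abs_of_nonneg hB0]
    gcongr
  -- energy part
  have hG : ∀ n, ∀ᵐ x ∂m, C.Γ (F n - F0) (F n - F0) x ≤
      2 * (B ^ 2 * C.Γ (U n - a) (U n - a) x)
        + 2 * ((φ' (U n x) - φ' (a x)) ^ 2 * C.Γ a a x) := by
    intro n
    have m1 := hC.sub_mem (hm n) h1.mem'
    have e : C.Γ (F n - F0) (F n - F0) = AEEqFun.comp φ' hφ' (U n) * (AEEqFun.comp φ' hφ' (U n) *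
        C.Γ (U n) (U n) - AEEqFun.comp φ' hφ' a * C.Γ a (U n)) - AEEqFun.comp φ' hφ' a *
        (AEEqFun.comp φ' hφ' (U n) * C.Γ (U n) a - AEEqFun.comp φ' hφ' a * C.Γ a a) := by
      rw [hC.Γ_sub_left (hFm n) ca (hC.sub_mem (hFm n) ca), (hch n).2 _ (hC.sub_mem (hFm n) ca),
        da _ (hC.sub_mem (hFm n) ca), hC.Γ_sub_right (hm n) (hFm n) ca,
        hC.Γ_sub_right h1.mem' (hFm n) ca, hC.symm _ (hm n) _ (hFm n), hC.symm _ (hm n) _ ca,
        hC.symm _ h1.mem' _ (hFm n), hC.symm _ h1.mem' _ ca, (hch n).2 _ (hm n),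
        (hch n).2 _ h1.mem', da _ (hm n), da _ h1.mem']
    have e' : C.Γ (U n - a) (U n - a) = C.Γ (U n) (U n) - C.Γ a (U n) - (C.Γ (U n) a - C.Γ a a) := by
      rw [hC.Γ_sub_left (hm n) h1.mem' m1, hC.Γ_sub_right (hm n) (hm n) h1.mem',
        hC.Γ_sub_right h1.mem' (hm n) h1.mem']
      ring
    rw [eq_iff_ae] at e e'
    set P := AEEqFun.comp φ' hφ' (U n)
    set Q := AEEqFun.comp φ' hφ' a
    filter_upwards [e, e', sub_ae (P * (P * C.Γ (U n) (U n) - Q * C.Γ a (U n)))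
        (Q * (P * C.Γ (U n) a - Q * C.Γ a a)), mul_ae P (P * C.Γ (U n) (U n) - Q * C.Γ a (U n)),
      mul_ae Q (P * C.Γ (U n) a - Q * C.Γ a a), sub_ae (P * C.Γ (U n) (U n)) (Q * C.Γ a (U n)),
      sub_ae (P * C.Γ (U n) a) (Q * C.Γ a a), mul_ae P (C.Γ (U n) (U n)), mul_ae Q (C.Γ a (U n)),
      mul_ae P (C.Γ (U n) a), mul_ae Q (C.Γ a a), AEEqFun.coeFn_comp φ' hφ' (U n),
      AEEqFun.coeFn_comp φ' hφ' a, sub_ae (C.Γ (U n) (U n) - C.Γ a (U n)) (C.Γ (U n) a - C.Γ a a),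
      sub_ae (C.Γ (U n) (U n)) (C.Γ a (U n)), sub_ae (C.Γ (U n) a) (C.Γ a a),
      eq_iff_ae.1 (hC.symm _ (hm n) _ h1.mem'), hC.Γ_cs_ae (hC.sub_mem (hm n) h1.mem') h1.mem',
      hC.Γ_nonneg_ae (hC.sub_mem (hm n) h1.mem'), hC.Γ_nonneg_ae h1.mem', hrn n,
      eq_iff_ae.1 (hC.Γ_sub_left (hm n) h1.mem' h1.mem'), sub_ae (C.Γ (U n) a) (C.Γ a a)]
      with x a1 a2 a3 a4 a5 a6 a7 a8 a9 a10 a11 a12 a13 a14 a15 a16 a17 a18 a19 a20 a21 a22 a23
    rw [a1, a3, a4, a5, a6, a7, a8, a9, a10, a11, a12, a13]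
    rw [a22, a23] at a18
    rw [a14, a15, a16] at a2
    simp only [Function.comp_apply]
    rw [a17] at a2 a18 ⊢
    set s := φ' (U n x)
    set r := φ' (a x)
    set G1 := C.Γ (U n) (U n) x
    set G2 := C.Γ a (U n) x
    set G3 := C.Γ a a x
    set D := C.Γ (U n - a) (U n - a) x
    -- |s ∇U - r ∇a|² = |s ∇(U - a) + (s - r) ∇a|²
    have b1 : s * (s * G1 - r * G2) - r * (s * G2 - r * G3)
      = s ^ 2 * D + 2 * (s * (s - r) * (G2 - G3)) + (s - r) ^ 2 * G3 := by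
      linear_combination (-(s ^ 2)) * a2
    rw [b1]
    have b2 : s ^ 2 ≤ B ^ 2 := by
      have := hB (U n x) ⟨a21.1, a21.2⟩
      rw [← sq_abs]; gcongr
    have b3 : 2 * (s * (s - r) * (G2 - G3)) ≤ s ^ 2 * D + (s - r) ^ 2 * G3 := by
      have c1 : (2 * (s * (s - r) * (G2 - G3))) ^ 2 ≤ (s ^ 2 * D + (s - r) ^ 2 * G3) ^ 2 := by
        have c2 : (s * (s - r)) ^ 2 * (G2 - G3) ^ 2 ≤ (s * (s - r)) ^ 2 * (D * G3) :=
          mul_le_mul_of_nonneg_left a18 (sq_nonneg _)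
        linarith only [sq_nonneg (s ^ 2 * D - (s - r) ^ 2 * G3), c2]
      exact (le_abs_self _).trans (abs_le_of_sq_le_sq c1 (by positivity))
    have b4 := mul_le_mul_of_nonneg_right b2 a19
    linarith
  have t2 : Tendsto (fun n => ∫ x, (φ' (U n x) - φ' (a x)) ^ 2 * C.Γ a a x ∂m) atTop (𝓝 0) := by
    have := tendsto_integral_of_dominated_convergence (μ := m)
      (F := fun n x => (φ' (U n x) - φ' (a x)) ^ 2 * C.Γ a a x) (f := fun _ => 0)
      (fun x => (2 * B) ^ 2 * C.Γ a a x) (fun n => ?_) ?_ (fun n => ?_) ?_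
    · simpa using this
    · exact (((hφ'.comp_aestronglyMeasurable (U n).aestronglyMeasurable).sub
        (hφ'.comp_aestronglyMeasurable a.aestronglyMeasurable)).pow 2).mul
        (C.Γ a a).aestronglyMeasurable
    · exact (int_of_mem (hC.mem1 a h1.mem')).const_mul _
    · filter_upwards [hrn n, hra, hC.Γ_nonneg_ae h1.mem'] with x e1 e2 e3
      rw [Real.norm_eq_abs, abs_of_nonneg (mul_nonneg (sq_nonneg _) e3)]
      refine mul_le_mul_of_nonneg_right ?_ e3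
      have d1 := hB _ (show U n x ∈ Set.Icc p q from ⟨e1.1, e1.2⟩)
      have d2 := hB _ (show a x ∈ Set.Icc p q from ⟨e2.1, e2.2⟩)
      have : |φ' (U n x) - φ' (a x)| ≤ 2 * B := (abs_sub _ _).trans (by linarith)
      rw [← sq_abs]; gcongr
    · filter_upwards [hk1] with x e1
      have d1 : Tendsto (fun n => φ' (U n x)) atTop (𝓝 (φ' (a x))) := (hφ'.tendsto _).comp e1
      have := ((d1.sub_const (φ' (a x))).pow 2).mul_const (C.Γ a a x)
      simpa using this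
  have t3 : ∀ n, I (C.Γ (F n - F0) (F n - F0)) ≤ 2 * (B ^ 2 * I (C.Γ (U n - a) (U n - a)))
      + 2 * ∫ x, (φ' (U n x) - φ' (a x)) ^ 2 * C.Γ a a x ∂m := by
    intro n
    have m1 := hC.sub_mem (hm n) h1.mem'
    have i2 : Integrable (fun x => (φ' (U n x) - φ' (a x)) ^ 2 * C.Γ a a x) m := by
      refine ((int_of_mem (hC.mem1 a h1.mem')).const_mul ((2 * B) ^ 2)).mono'
        ((((hφ'.comp_aestronglyMeasurable (U n).aestronglyMeasurable).sub
        (hφ'.comp_aestronglyMeasurable a.aestronglyMeasurable)).pow 2).mul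
        (C.Γ a a).aestronglyMeasurable) ?_
      filter_upwards [hrn n, hra, hC.Γ_nonneg_ae h1.mem'] with x e1 e2 e3
      rw [Real.norm_eq_abs, abs_of_nonneg (mul_nonneg (sq_nonneg _) e3)]
      refine mul_le_mul_of_nonneg_right ?_ e3
      have d1 := hB _ (show U n x ∈ Set.Icc p q from ⟨e1.1, e1.2⟩)
      have d2 := hB _ (show a x ∈ Set.Icc p q from ⟨e2.1, e2.2⟩)
      have : |φ' (U n x) - φ' (a x)| ≤ 2 * B := (abs_sub _ _).trans (by linarith)
      rw [← sq_abs]; gcongr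
    have i1 := (int_of_mem (hC.mem1 _ m1)).const_mul (B ^ 2)
    unfold I
    rw [← integral_const_mul (B ^ 2), ← integral_const_mul 2, ← integral_const_mul 2,
      ← integral_add (i1.const_mul 2) (i2.const_mul 2)]
    refine integral_mono_ae (int_of_mem (hC.mem1 _ (hC.sub_mem (hFm n) ca)))
      ((i1.const_mul 2).add (i2.const_mul 2)) (hG n)
  have hb : Tendsto (fun n => B ^ 2 * I ((U n - a) ^ 2) + (2 * (B ^ 2 * I (C.Γ (U n - a) (U n - a)))
      + 2 * ∫ x, (φ' (U n x) - φ' (a x)) ^ 2 * C.Γ a a x ∂m)) atTop (𝓝 0) := by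
    have := (hU2.const_mul (B ^ 2)).add (((hUE.const_mul (B ^ 2)).const_mul 2).add
      (t2.const_mul 2))
    simpa using this
  refine squeeze_zero (fun n => hC.nrm2_nonneg (hC.sub_mem (hFm n) ca)) (fun n => ?_) hb
  exact add_le_add (t1 n) (t3 n)

end IsDir

end Vale.Agent.P233
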