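import Vale.Agent.P233.H715.RG1
import Vale.Agent.P233.H719.RADef

/-! P233, RCDA, block RL1 (helper545): the inverse relation of the radial contraction is Lipschitz,
with constant close to `1` for ratios close to `1` and small distances. -/

set_option linter.all false

open Real Set Filter Topology

universe u

namespace Vale.Agent.P233.H616.RL1

open Vale.Agent.P233.H715.RG Vale.Agent.P233.RA

/-! ### real analysis -/

theorem md_eq_sn (κ t : ℝ) : md κ t = 2 * sn κ (t / 2) ^ 2 := by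
  rcases lt_trichotomy κ 0 with h | h | h
  · have hs : √(-κ) ≠ 0 := (Real.sqrt_pos.2 (by linarith)).ne'
    have hk' : √(-κ) ^ 2 = -κ := Real.sq_sqrt (by linarith)
    rw [md_neg' h, sn_neg' h, div_pow, hk']
    have e : √(-κ) * t = 2 * (√(-κ) * (t / 2)) := by ring
    rw [e, Real.cosh_two_mul, Real.cosh_sq]
    field_simp [h.ne]
    ring
  · subst h; simp only [md_zero', sn_zero']; ring
  · have hs : √κ ≠ 0 := (Real.sqrt_pos.2 h).ne'
    have hk' : √κ ^ 2 = κ := Real.sq_sqrt h.le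
    rw [md_pos' h, sn_pos' h, div_pow, hk']
    have e : √κ * t = 2 * (√κ * (t / 2)) := by ring
    rw [e, Real.cos_two_mul, Real.cos_sq']
    field_simp [h.ne']
    ring

theorem sn_mono {κ s t : ℝ} (hs : 0 ≤ s) (hst : s ≤ t) (h : 0 < κ → √κ * t ≤ π / 2) :
    sn κ s ≤ sn κ t := by
  rcases lt_trichotomy κ 0 with h0 | h0 | h0
  · rw [sn_neg' h0, sn_neg' h0]
    refine div_le_div_of_nonneg_right (Real.sinh_le_sinh.2 ?_) (Real.sqrt_nonneg _)
    exact mul_le_mul_of_nonneg_left hst (Real.sqrt_nonneg _)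
  · subst h0; simpa [sn_zero'] using hst
  · rw [sn_pos' h0, sn_pos' h0]
    have hk : 0 ≤ √κ := Real.sqrt_nonneg _
    refine div_le_div_of_nonneg_right (Real.sin_le_sin_of_le_of_le_pi_div_two ?_ (h h0) ?_) hk
    · have := mul_nonneg hk hs
      have := Real.pi_pos
      linarith
    · exact mul_le_mul_of_nonneg_left hst hk

theorem md_mono {κ s t : ℝ} (hs : 0 ≤ s) (hst : s ≤ t) (h : 0 < κ → √κ * t ≤ π) :
    md κ s ≤ md κ t := by
  rw [md_eq_sn, md_eq_sn]
  have h1 : sn κ (s / 2) ≤ sn κ (t / 2) := sn_mono (by linarith) (by linarith) fun h0 => by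
    have := h h0; linarith
  have h2 : 0 ≤ sn κ (s / 2) := sn_nonneg (by linarith) fun h0 => by
    have h3 := h h0
    have h4 : √κ * (s / 2) ≤ √κ * t :=
      mul_le_mul_of_nonneg_left (by linarith) (Real.sqrt_nonneg _)
    linarith
  nlinarith

theorem md_abs (κ t : ℝ) : md κ |t| = md κ t := by
  rcases abs_cases t with h | h
  · rw [h.1]
  · rw [h.1, md_neg]

theorem md_nonneg (κ t : ℝ) : 0 ≤ md κ t := by rw [md_eq_sn]; positivity

/-- `sn t ≥ (2/π) t` -/
theorem le_sn {κ t : ℝ} (ht : 0 ≤ t) (h : 0 < κ → √κ * t ≤ π / 2) : 2 / π * t ≤ sn κ t := by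
  have hpi := Real.pi_pos
  have h2 : 2 / π * t ≤ t := by
    have : 2 / π ≤ 1 := by rw [div_le_one hpi]; exact Real.two_le_pi
    nlinarith
  rcases lt_trichotomy κ 0 with h0 | h0 | h0
  · refine h2.trans ?_
    have hs : 0 < √(-κ) := Real.sqrt_pos.2 (by linarith)
    rw [sn_neg' h0, le_div_iff₀ hs]
    have := Real.self_le_sinh_iff.2 (mul_nonneg hs.le ht)
    linarith
  · subst h0; simpa [sn_zero'] using h2
  · have hs : 0 < √κ := Real.sqrt_pos.2 h0
    rw [sn_pos' h0, le_div_iff₀ hs]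
    have := Real.mul_le_sin (mul_nonneg hs.le ht) (h h0)
    linarith

theorem mul_sn_le_pos {κ lam t : ℝ} (h : 0 < κ) (h0 : 0 ≤ lam) (h1 : lam ≤ 1) (ht : 0 ≤ t)
    (hp : √κ * t ≤ π) : lam * sn κ t ≤ sn κ (lam * t) := by
  have hs : 0 < √κ := Real.sqrt_pos.2 h
  rw [sn_pos' h, sn_pos' h, ← mul_div_assoc]
  refine div_le_div_of_nonneg_right ?_ hs.le
  have hm0 : (0 : ℝ) ∈ Icc 0 π := ⟨le_rfl, Real.pi_pos.le⟩
  have hm1 : √κ * t ∈ Icc 0 π := ⟨mul_nonneg hs.le ht, hp⟩
  have hc := strictConcaveOn_sin_Icc.concaveOn.2 hm0 hm1 (sub_nonneg.2 h1) h0 (by ring)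
  simp only [smul_eq_mul, mul_zero, Real.sin_zero, zero_add] at hc
  have e : √κ * (lam * t) = lam * (√κ * t) := by ring
  rw [e]; exact hc

theorem one_le_c (κ R : ℝ) : 1 ≤ cosh (√|κ| * R) := Real.one_le_cosh _

/-- `q = λ / c` -/
theorem q1 {κ R lam t : ℝ} (h0 : 0 ≤ lam) (h1 : lam ≤ 1) (ht : 0 ≤ t) (hR : t ≤ R)
    (hp : √κ * t ≤ π) : lam / cosh (√|κ| * R) * sn κ t ≤ sn κ (lam * t) := by
  have hc := one_le_c κ R
  have hc0 : 0 < cosh (√|κ| * R) := Real.cosh_pos _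
  have hsn : 0 ≤ sn κ t := sn_nonneg ht fun _ => hp
  have habs : sn κ t ≤ cosh (√|κ| * R) * t := by
    have := abs_sn_le (κ := κ) (t := t) (T := R) (by rw [abs_of_nonneg ht]; exact hR)
    rw [abs_of_nonneg ht, abs_of_nonneg hsn] at this
    exact this
  rcases lt_or_ge 0 κ with h | h
  · refine le_trans ?_ (mul_sn_le_pos h h0 h1 ht hp)
    refine mul_le_mul_of_nonneg_right ?_ hsn
    exact div_le_self h0 hc
  · have h2 : lam * t ≤ sn κ (lam * t) := by
      rcases h.lt_or_eq with h | h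
      · have hs : 0 < √(-κ) := Real.sqrt_pos.2 (by linarith)
        rw [sn_neg' h, le_div_iff₀ hs]
        have := Real.self_le_sinh_iff.2 (mul_nonneg hs.le (mul_nonneg h0 ht))
        linarith
      · subst h; simp [sn_zero']
    refine le_trans ?_ h2
    rw [div_mul_eq_mul_div, div_le_iff₀ hc0]
    nlinarith [mul_le_mul_of_nonneg_left habs h0]

/-- `q = 1 - (1 - λ) c` -/
theorem q2 {κ R lam t : ℝ} (h0 : 0 ≤ lam) (h1 : lam ≤ 1) (ht : 0 ≤ t) (hR : t ≤ R)
    (hp : √κ * t ≤ π) : (1 - (1 - lam) * cosh (√|κ| * R)) * sn κ t ≤ sn κ (lam * t) := by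
  have hc := one_le_c κ R
  have hc0 : 0 < cosh (√|κ| * R) := Real.cosh_pos _
  have hsn : 0 ≤ sn κ t := sn_nonneg ht fun _ => hp
  rcases lt_or_ge 0 κ with h | h
  · refine le_trans ?_ (mul_sn_le_pos h h0 h1 ht hp)
    refine mul_le_mul_of_nonneg_right ?_ hsn
    nlinarith
  · have h2 : t ≤ sn κ t := by
      rcases h.lt_or_eq with h | h
      · have hs : 0 < √(-κ) := Real.sqrt_pos.2 (by linarith)
        rw [sn_neg' h, le_div_iff₀ hs]
        have := Real.self_le_sinh_iff.2 (mul_nonneg hs.le ht)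
        linarith
      · subst h; simp [sn_zero']
    have h3 : sn κ t - sn κ (lam * t) ≤ cosh (√|κ| * R) * (t - lam * t) := by
      have hb : ∀ x ∈ Icc (lam * t) t, ‖cs κ x‖ ≤ cosh (√|κ| * R) := fun x hx => by
        rw [Real.norm_eq_abs]
        refine abs_cs_le ?_
        rw [abs_of_nonneg ((mul_nonneg h0 ht).trans hx.1)]
        exact hx.2.trans hR
      have hle : lam * t ≤ t := by nlinarith
      have h4 := (convex_Icc (lam * t) t).norm_image_sub_le_of_norm_hasDerivWithin_le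
        (f := sn κ) (f' := cs κ) (fun x _ => (hasDerivAt_sn κ x).hasDerivWithinAt) hb
        (left_mem_Icc.2 hle) (right_mem_Icc.2 hle)
      rw [Real.norm_eq_abs, Real.norm_eq_abs, abs_of_nonneg (by linarith : 0 ≤ t - lam * t)] at h4
      exact (le_abs_self _).trans h4
    nlinarith [mul_le_mul_of_nonneg_left h2 (mul_nonneg (sub_nonneg.2 h1) hc0.le)]

/-! ### strict perimeter -/

section metric

variable {M : Type u} [MetricSpace M] {κ : ℝ}

open RA

theorem rat_between {p x z : M} {lam : ℝ} (h : Rat p x z lam) :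
    dist p z + dist z x = dist p x := by rw [h.1, h.2]; ring

theorem rat_dist_le {p x y z w : M} {lam : ℝ} (hx : Rat p x z lam) (hy : Rat p y w lam) :
    dist z w ≤ lam * (dist p x + dist p y) := by
  have := dist_triangle_left z w p
  rw [hx.1, hy.1] at this
  linarith

/-- core estimate -/
theorem core (hA : T.IsAlexandrov M κ) {p x y z w : M} {lam q R : ℝ}
    (hx : Rat p x z lam) (hy : Rat p y w lam) (h0 : 0 ≤ lam) (h1 : lam ≤ 1) (hq : 0 ≤ q)
    (hqs : ∀ t, 0 ≤ t → t ≤ R → √κ * t ≤ π → q * sn κ t ≤ sn κ (lam * t))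
    (hxR : dist p x ≤ R) (hyR : dist p y ≤ R)
    (hp : √κ * (dist p x + dist p y + dist x y) < 2 * π) :
    q ^ 2 * md κ (dist x y) ≤ md κ (dist z w) := by
  have hk : 0 ≤ √κ := Real.sqrt_nonneg _
  have hpi := Real.pi_pos
  -- `q² md h ≤ md (λ h)`
  have key : ∀ h, 0 ≤ h → h ≤ R → √κ * h ≤ π → q ^ 2 * md κ h ≤ md κ (lam * h) := by
    intro h hh hR hpk
    rw [md_eq_sn, md_eq_sn]
    have e : lam * h / 2 = lam * (h / 2) := by ring
    rw [e]
    have hh2 : √κ * (h / 2) ≤ π := by nlinarith [mul_nonneg hk hh]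
    have a1 := hqs (h / 2) (by linarith) (by linarith) hh2
    have a2 : 0 ≤ sn κ (h / 2) := sn_nonneg (by linarith) fun _ => hh2
    have a3 : 0 ≤ q * sn κ (h / 2) := mul_nonneg hq a2
    nlinarith [mul_self_le_mul_self a3 a1]
  have ha : √κ * dist p x < π := half_perim hp
  have hb : √κ * dist p y < π := by
    have h3 : √κ * (dist p y + dist p x + dist y x) < 2 * π := by
      rw [dist_comm y x]
      have e : dist p y + dist p x + dist x y = dist p x + dist p y + dist x y := by ring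
      rw [e]; exact hp
    exact half_perim h3
  have hd : √κ * dist x y < π := by
    have h1 := dist_triangle_left x y p
    have h3 : √κ * (2 * dist x y) ≤ √κ * (dist p x + dist p y + dist x y) :=
      mul_le_mul_of_nonneg_left (by linarith) hk
    linarith
  rcases (dist_nonneg (x := p) (y := x)).eq_or_lt with ea | pa
  · -- `x = p`
    have hz : dist p z = 0 := by rw [hx.1, ← ea]; ring
    have e1 : p = x := dist_eq_zero.1 ea.symm
    have e2 : p = z := dist_eq_zero.1 hz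
    rw [← e1, ← e2, hy.1]
    exact key _ dist_nonneg hyR hb.le
  rcases (dist_nonneg (x := p) (y := y)).eq_or_lt with eb | pb
  · have hz : dist p w = 0 := by rw [hy.1, ← eb]; ring
    have e1 : p = y := dist_eq_zero.1 eb.symm
    have e2 : p = w := dist_eq_zero.1 hz
    rw [← e1, ← e2, dist_comm x p, dist_comm z p, hx.1]
    exact key _ dist_nonneg hxR ha.le
  have h2 := two_side hA (rat_between hx) (rat_between hy) hp
  rw [hx.1, hy.1] at h2
  have sa : 0 < sn κ (dist p x) := sn_pos pa fun _ => ha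
  have sb : 0 < sn κ (dist p y) := sn_pos pb fun _ => hb
  have qa := hqs _ pa.le hxR ha.le
  have qb := hqs _ pb.le hyR hb.le
  -- the difference
  set g := |dist p x - dist p y| with hg
  have hgd : g ≤ dist x y := by
    rw [hg, dist_comm p x, dist_comm p y]; exact abs_dist_sub_le x y p
  have hg0 : 0 ≤ g := abs_nonneg _
  have hgR : g ≤ R := by
    rw [hg, abs_le]; constructor <;> linarith [dist_nonneg (x := p) (y := x),
      dist_nonneg (x := p) (y := y)]
  have hgpi : √κ * g ≤ π := (mul_le_mul_of_nonneg_left hgd hk).trans hd.le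
  have eg : md κ (dist p x - dist p y) = md κ g := (md_abs κ _).symm
  have eg2 : md κ (lam * dist p x - lam * dist p y) = md κ (lam * g) := by
    rw [← md_abs, hg]
    congr 1
    rw [← mul_sub, abs_mul, abs_of_nonneg h0]
  rw [eg, eg2] at h2
  have kg := key g hg0 hgR hgpi
  have hm : md κ g ≤ md κ (dist x y) := md_mono hg0 hgd fun _ => hd.le
  have hprod : q * sn κ (dist p x) * (q * sn κ (dist p y)) ≤
      sn κ (lam * dist p x) * sn κ (lam * dist p y) :=
    mul_le_mul qa qb (mul_nonneg hq sb.le) ((mul_nonneg hq sa.le).trans qa)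
  have h3 : q * sn κ (dist p x) * (q * sn κ (dist p y)) * (md κ (dist x y) - md κ g) ≤
      sn κ (dist p x) * sn κ (dist p y) * (md κ (dist z w) - md κ (lam * g)) :=
    (mul_le_mul_of_nonneg_right hprod (by linarith)).trans h2
  have h4 : sn κ (dist p x) * sn κ (dist p y) * (q ^ 2 * (md κ (dist x y) - md κ g)) ≤
      sn κ (dist p x) * sn κ (dist p y) * (md κ (dist z w) - md κ (lam * g)) := by
    linarith
  have h5 := le_of_mul_le_mul_left h4 (mul_pos sa sb)
  linarith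

theorem dist_pi {p x y : M} (hp : √κ * (dist p x + dist p y + dist x y) < 2 * π) :
    √κ * dist x y < π := by
  have hk : 0 ≤ √κ := Real.sqrt_nonneg _
  have h1 := dist_triangle_left x y p
  have h3 : √κ * (2 * dist x y) ≤ √κ * (dist p x + dist p y + dist x y) :=
    mul_le_mul_of_nonneg_left (by linarith) hk
  linarith

/-- Lipschitz, strict perimeter, `C = (π/2) c²` -/
theorem strict_lip (hA : T.IsAlexandrov M κ) {p x y z w : M} {lam R : ℝ}
    (hx : Rat p x z lam) (hy : Rat p y w lam) (h0 : 0 < lam) (h1 : lam ≤ 1)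
    (hxR : dist p x ≤ R) (hyR : dist p y ≤ R)
    (hp : √κ * (dist p x + dist p y + dist x y) < 2 * π) :
    lam * dist x y ≤ π / 2 * cosh (√|κ| * R) ^ 2 * dist z w := by
  set c := cosh (√|κ| * R) with hc
  have hc1 : 1 ≤ c := one_le_c κ R
  have hpi := Real.pi_pos
  have h2 := core hA hx hy h0.le h1 (q := lam / c) (R := R) (by positivity)
    (fun t ht hR hp => q1 h0.le h1 ht hR hp) hxR hyR hp
  have hd := dist_pi hp
  have hd0 : 0 ≤ dist x y := dist_nonneg
  have hr0 : 0 ≤ dist z w := dist_nonneg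
  -- lower bound for `md d`
  have h3 : 2 / π * (dist x y / 2) ≤ sn κ (dist x y / 2) :=
    le_sn (by linarith) fun _ => by linarith
  have h3' : 0 ≤ 2 / π * (dist x y / 2) := by positivity
  -- upper bound for `md r`
  have hr : dist z w ≤ 2 * R := by
    have := rat_dist_le hx hy
    nlinarith [dist_nonneg (x := p) (y := x), dist_nonneg (x := p) (y := y)]
  have h4 : |sn κ (dist z w / 2)| ≤ c * |dist z w / 2| :=
    abs_sn_le (by rw [abs_of_nonneg (by linarith)]; linarith)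
  rw [abs_of_nonneg (by linarith : 0 ≤ dist z w / 2)] at h4
  rw [md_eq_sn, md_eq_sn] at h2
  have h5 : (lam / c * (2 / π * (dist x y / 2))) ^ 2 ≤ (c * (dist z w / 2)) ^ 2 := by
    have h6 : (lam / c) ^ 2 * (2 / π * (dist x y / 2)) ^ 2 ≤
        (lam / c) ^ 2 * sn κ (dist x y / 2) ^ 2 :=
      mul_le_mul_of_nonneg_left (pow_le_pow_left₀ h3' h3 2) (by positivity)
    have h7 : sn κ (dist z w / 2) ^ 2 ≤ (c * (dist z w / 2)) ^ 2 := by
      rw [← sq_abs (sn κ _)]
      exact pow_le_pow_left₀ (abs_nonneg _) h4 2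
    rw [mul_pow]
    linarith
  have h6 : lam / c * (2 / π * (dist x y / 2)) ≤ c * (dist z w / 2) :=
    (abs_le_of_sq_le_sq' h5 (by positivity)).2
  have hc0 : 0 < c := by linarith
  have h7 : lam / c * (2 / π * (dist x y / 2)) = lam * dist x y / (c * π) := by
    field_simp
  rw [h7, div_le_iff₀ (by positivity)] at h6
  nlinarith

theorem arith1 {δ ε : ℝ} (hδ0 : 0 < δ) (hδ1 : δ ≤ 1 / 8) (hδ2 : δ ≤ ε / 8) (hε : 0 < ε) :
    1 + δ ≤ (1 - δ) ^ 3 * (1 + ε) ^ 2 := by
  have g1 : 1 - 3 * δ ≤ (1 - δ) ^ 3 := by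
    have : (1 - δ) ^ 3 = 1 - 3 * δ + δ ^ 2 * (3 - δ) := by ring
    rw [this]
    have := mul_nonneg (sq_nonneg δ) (by linarith : 0 ≤ 3 - δ)
    linarith
  have g2 : 1 + 2 * ε ≤ (1 + ε) ^ 2 := by
    have : (1 + ε) ^ 2 = 1 + 2 * ε + ε ^ 2 := by ring
    rw [this]; linarith [sq_nonneg ε]
  have g3 : (1 - 3 * δ) * (1 + 2 * ε) ≤ (1 - δ) ^ 3 * (1 + ε) ^ 2 :=
    mul_le_mul g1 g2 (by linarith) (pow_nonneg (by linarith) 3)
  have g4 : δ * ε ≤ 1 / 8 * ε := mul_le_mul_of_nonneg_right hδ1 hε.le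
  linarith

theorem arith2 {δ ε K d r Q μd μr : ℝ} (hδ0 : 0 < δ) (hδ1 : δ ≤ 1 / 8) (hδ2 : δ ≤ ε / 8)
    (hε : 0 < ε) (hr : 0 ≤ r) (e1 : 2 * K * d ^ 2 ≤ δ) (e2 : 2 * K * r ^ 2 ≤ δ)
    (h7 : d ^ 2 / 2 - K * d ^ 4 ≤ μd) (h8 : μr ≤ r ^ 2 / 2 + K * r ^ 4)
    (hQ1 : 1 - δ ≤ Q) (h2 : Q ^ 2 * μd ≤ μr) : d ≤ (1 + ε) * r := by
  have f1 : (1 - δ) * d ^ 2 ≤ 2 * μd := by
    have g1 := mul_le_mul_of_nonneg_right e1 (sq_nonneg d)
    have g2 : 2 * K * d ^ 2 * d ^ 2 = 2 * (K * d ^ 4) := by ring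
    rw [g2] at g1
    linarith
  have f2 : 2 * μr ≤ (1 + δ) * r ^ 2 := by
    have g1 := mul_le_mul_of_nonneg_right e2 (sq_nonneg r)
    have g2 : 2 * K * r ^ 2 * r ^ 2 = 2 * (K * r ^ 4) := by ring
    rw [g2] at g1
    linarith
  have f3 : (1 - δ) ^ 3 * d ^ 2 ≤ (1 + δ) * r ^ 2 := by
    have g1 : (1 - δ) ^ 2 ≤ Q ^ 2 := pow_le_pow_left₀ (by linarith) hQ1 2
    have g2 : (1 - δ) ^ 2 * ((1 - δ) * d ^ 2) ≤ Q ^ 2 * (2 * μd) :=
      mul_le_mul g1 f1 (mul_nonneg (by linarith) (sq_nonneg _)) (sq_nonneg _)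
    have g3 : (1 - δ) ^ 3 * d ^ 2 = (1 - δ) ^ 2 * ((1 - δ) * d ^ 2) := by ring
    have g4 : Q ^ 2 * (2 * μd) = 2 * (Q ^ 2 * μd) := by ring
    linarith
  have f4 := arith1 hδ0 hδ1 hδ2 hε
  have f5 : (1 - δ) ^ 3 * d ^ 2 ≤ (1 - δ) ^ 3 * ((1 + ε) * r) ^ 2 := by
    refine f3.trans ?_
    have := mul_le_mul_of_nonneg_right f4 (sq_nonneg r)
    have g3 : (1 - δ) ^ 3 * ((1 + ε) * r) ^ 2 = (1 - δ) ^ 3 * (1 + ε) ^ 2 * r ^ 2 := by ring
    rw [g3]; exact this
  have f6 := le_of_mul_le_mul_left f5 (pow_pos (by linarith) 3)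
  exact (abs_le_of_sq_le_sq' f6 (mul_nonneg (by linarith) hr)).2

/-- small distances, ratio close to `1`, strict perimeter -/
theorem strict_sharp (κ : ℝ) {R ε : ℝ} (hR : 0 < R) (hε : 0 < ε) :
    ∃ lam₀ ∈ Ioo (0 : ℝ) 1, ∃ η > 0, 1 ≤ (1 + ε) * lam₀ ∧ ∀ (M : Type u) [MetricSpace M], 
      T.IsAlexandrov M κ → ∀ (p x y z w : M) (lam : ℝ), lam₀ ≤ lam → lam ≤ 1 →
      Rat p x z lam → Rat p y w lam → dist p x ≤ R → dist p y ≤ R →
      √κ * (dist p x + dist p y + dist x y) < 2 * π → dist z w < η →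
        dist x y ≤ (1 + ε) * dist z w := by
  have hpi := Real.pi_pos
  obtain ⟨c, hc⟩ : ∃ c, c = cosh (√|κ| * R) := ⟨_, rfl⟩
  have hc1 : 1 ≤ c := by rw [hc]; exact one_le_c κ R
  obtain ⟨c2, hc2⟩ : ∃ c, c = cosh (√|κ| * (2 * R)) := ⟨_, rfl⟩
  have hc21 : 1 ≤ c2 := by rw [hc2]; exact one_le_c κ (2 * R)
  obtain ⟨δ, hδ0, hδ1, hδ2⟩ : ∃ δ > 0, δ ≤ 1 / 8 ∧ δ ≤ ε / 8 :=
    ⟨min (1 / 8) (ε / 8), by positivity, min_le_left _ _, min_le_right _ _⟩
  obtain ⟨K, hK⟩ : ∃ K, K = |κ| * c2 := ⟨_, rfl⟩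
  have hK0 : 0 ≤ K := by rw [hK]; positivity
  -- the constants
  obtain ⟨C, hC⟩ : ∃ C, C = π * c ^ 2 := ⟨_, rfl⟩
  have hC1 : 1 ≤ C := by rw [hC]; nlinarith [Real.pi_gt_three]
  obtain ⟨η, hη0, hη1⟩ : ∃ η > 0, 2 * K * (C * η) ^ 2 ≤ δ := by
    have ht : Tendsto (fun η : ℝ => 2 * K * (C * η) ^ 2) (𝓝[>] 0) (𝓝 0) := by
      have : Continuous (fun η : ℝ => 2 * K * (C * η) ^ 2) := by fun_prop
      have := (this.tendsto 0).mono_left (nhdsWithin_le_nhds (s := Ioi 0))
      simpa using this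
    obtain ⟨η, h1, h2⟩ := ((ht.eventually (gt_mem_nhds hδ0)).and self_mem_nhdsWithin).exists
    exact ⟨η, h2, h1.le⟩
  have hδc : δ / c ≤ δ := div_le_self hδ0.le hc1
  have hδc0 : 0 < δ / c := by positivity
  have hl : 1 ≤ (1 + ε) * (1 - δ / c) := by nlinarith
  refine ⟨1 - δ / c, ⟨by linarith, by linarith⟩, η, hη0, hl, ?_⟩
  intro M _ hA p x y z w lam hl0 hl1 hx hy hxR hyR hp hr
  have hl0' : 0 < lam := by linarith
  have hl2 : 1 / 2 ≤ lam := by linarith
  have hd0 : 0 ≤ dist x y := dist_nonneg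
  have hr0 : 0 ≤ dist z w := dist_nonneg
  have hQ1 : 1 - δ ≤ 1 - (1 - lam) * c := by
    have h1 : (1 - lam) * c ≤ δ / c * c := mul_le_mul_of_nonneg_right (by linarith) (by linarith)
    rw [div_mul_cancel₀ _ (by linarith : c ≠ 0)] at h1
    linarith
  have h2 := core hA hx hy hl0'.le hl1 (q := 1 - (1 - lam) * c) (R := R) (by linarith)
    (fun t ht hR hp => by rw [hc]; exact q2 hl0'.le hl1 ht hR hp) hxR hyR hp
  have h3 := strict_lip hA hx hy hl0' hl1 hxR hyR hp
  rw [← hc] at h3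
  -- `d ≤ π c² r`
  have h4 : dist x y ≤ C * dist z w := by
    have g1 : 1 / 2 * dist x y ≤ lam * dist x y := mul_le_mul_of_nonneg_right hl2 hd0
    rw [hC]; linarith
  have h5 : dist x y ≤ 2 * R := by
    have := dist_triangle_left x y p
    linarith
  have h6 : dist z w ≤ 2 * R := by
    have g1 := rat_dist_le hx hy
    have g2 : lam * (dist p x + dist p y) ≤ 1 * (dist p x + dist p y) :=
      mul_le_mul_of_nonneg_right hl1 (add_nonneg dist_nonneg dist_nonneg)
    linarith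
  have h7 := md_quad (κ := κ) (h := dist x y) (T := 2 * R) (by rw [abs_of_nonneg hd0]; exact h5)
  have h8 := md_quad (κ := κ) (h := dist z w) (T := 2 * R) (by rw [abs_of_nonneg hr0]; exact h6)
  rw [← hc2, ← hK, abs_le] at h7 h8
  have hrη : dist z w ≤ C * η := by
    have : 1 * dist z w ≤ C * η := mul_le_mul hC1 hr.le hr0 (by linarith)
    linarith
  have hdη : dist x y ≤ C * η := h4.trans (mul_le_mul_of_nonneg_left hr.le (by linarith))
  have e1 : 2 * K * dist x y ^ 2 ≤ δ :=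
    (mul_le_mul_of_nonneg_left (pow_le_pow_left₀ hd0 hdη 2) (by positivity)).trans hη1
  have e2 : 2 * K * dist z w ^ 2 ≤ δ :=
    (mul_le_mul_of_nonneg_left (pow_le_pow_left₀ hr0 hrη 2) (by positivity)).trans hη1
  exact arith2 hδ0 hδ1 hδ2 hε hr0 e1 e2 (by linarith [h7.1]) (by linarith [h8.2]) hQ1 h2

/-! ### arbitrary perimeter -/

/-- a point between `z` and `x` -/
theorem rat_mid {p x z x' : M} {mu θ m : ℝ} (hm : m = mu + θ * (1 - mu)) (hmpos : 0 < m)
    (hx : Rat p x z mu) (g1 : dist z x' = θ * dist z x) (g2 : dist x' x = (1 - θ) * dist z x) :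
    dist p x' = m * dist p x ∧ Rat p x' z (mu / m) := by
  have b1 := dist_triangle p z x'
  have b2 := dist_triangle p x' x
  rw [hx.1, g1, hx.2] at b1
  rw [g2, hx.2] at b2
  have b3 : dist p x' = m * dist p x := by
    rw [hm]; apply le_antisymm <;> linarith
  refine ⟨b3, ?_, ?_⟩
  · rw [b3, hx.1]; field_simp
  · have b4 : m * (1 - mu / m) = m - mu := by field_simp
    rw [hx.2] at g1
    rw [g1, b3]
    have b5 : (1 - mu / m) * (m * dist p x) = m * (1 - mu / m) * dist p x := by ring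
    rw [b5, b4, hm]; ring

/-- one step -/
theorem perim_step (hA : T.IsAlexandrov M κ) {p x y z w : M} {mu ε S : ℝ} (h0 : 0 < mu)
    (h2 : mu ≤ 1) (hx : Rat p x z mu) (hy : Rat p y w mu) (hε : 0 < ε)
    (hS : dist z x + dist w y ≤ S + ε) (hS0 : 0 ≤ S) (hT : 0 < dist z x + dist w y)
    (hper : ∀ p x y : M, √κ * (dist p x + dist p y + dist x y) ≤ 2 * π)
    (heq : √κ * (dist p x + dist p y + dist x y) = 2 * π) :
    ∃ (x' y' : M) (mu' : ℝ), mu ≤ mu' ∧ mu' ≤ 1 ∧ Rat p x' z mu' ∧ Rat p y' w mu' ∧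
      dist p x' ≤ dist p x ∧ dist p y' ≤ dist p y ∧ dist z x' + dist w y' ≤ S ∧
      ((√κ * (dist p x' + dist p y' + dist x' y') < 2 * π ∧ dist x y ≤ dist x' y' + ε) ∨
        dist x y ≤ dist x' y') := by
  have a1 := dist_nonneg (x := z) (y := x)
  have a2 := dist_nonneg (x := w) (y := y)
  obtain ⟨T, hTe⟩ : ∃ T, T = dist z x + dist w y := ⟨_, rfl⟩
  rw [← hTe] at hT hS
  obtain ⟨θ, hθ0, hθ1, hθS, hθS2⟩ : ∃ θ : ℝ, 0 ≤ θ ∧ θ ≤ 1 ∧ θ * T ≤ S ∧ (1 - θ) * T ≤ ε := by
    refine ⟨max 0 (1 - ε / T), le_max_left _ _, max_le zero_le_one (by linarith [div_pos hε hT]),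
      ?_, ?_⟩
    · rcases max_choice 0 (1 - ε / T) with h | h
      · rw [h, zero_mul]; exact hS0
      · rw [h, sub_mul, div_mul_cancel₀ _ hT.ne', one_mul]; linarith
    · have : 1 - ε / T ≤ max 0 (1 - ε / T) := le_max_right _ _
      have h3 : (1 - max 0 (1 - ε / T)) * T ≤ ε / T * T :=
        mul_le_mul_of_nonneg_right (by linarith) hT.le
      rwa [div_mul_cancel₀ _ hT.ne'] at h3
  obtain ⟨x', hx1, hx2⟩ := hA.geodesic z x (θ * dist z x) ((1 - θ) * dist z x)
    (mul_nonneg hθ0 a1) (mul_nonneg (by linarith) a1) (by ring)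
  obtain ⟨y', hy1, hy2⟩ := hA.geodesic w y (θ * dist w y) ((1 - θ) * dist w y)
    (mul_nonneg hθ0 a2) (mul_nonneg (by linarith) a2) (by ring)
  obtain ⟨m, hm⟩ : ∃ m, m = mu + θ * (1 - mu) := ⟨_, rfl⟩
  have c1 : 0 ≤ θ * (1 - mu) := mul_nonneg hθ0 (sub_nonneg.2 h2)
  have c2 : 0 ≤ (1 - θ) * (1 - mu) := mul_nonneg (sub_nonneg.2 hθ1) (sub_nonneg.2 h2)
  have hmpos : 0 < m := by linarith
  have hm1 : m ≤ 1 := by rw [hm]; linarith
  have hmmu : mu ≤ m := by linarith
  obtain ⟨cx, rx⟩ := rat_mid hm hmpos hx hx1 hx2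
  obtain ⟨cy, ry⟩ := rat_mid hm hmpos hy hy1 hy2
  have t1 := mul_nonneg (sub_nonneg.2 hm1) (dist_nonneg (x := p) (y := x))
  have t2 := mul_nonneg (sub_nonneg.2 hm1) (dist_nonneg (x := p) (y := y))
  refine ⟨x', y', mu / m, ?_, ?_, rx, ry, by linarith, by linarith, ?_, ?_⟩
  · exact le_div_self h0.le hmpos hm1
  · rw [div_le_one hmpos]; exact hmmu
  · rw [hx1, hy1, ← mul_add, ← hTe]; exact hθS
  rcases (hper p x' y').lt_or_eq with hlt | heq'
  · left
    refine ⟨hlt, ?_⟩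
    have t1 := dist_triangle4 x x' y' y
    rw [dist_comm x x', hx2, hy2] at t1
    have t3 : (1 - θ) * dist z x + (1 - θ) * dist w y = (1 - θ) * T := by rw [hTe]; ring
    linarith
  · right
    have hk : √κ ≠ 0 := by
      intro h
      rw [h, zero_mul] at heq
      linarith [Real.pi_pos]
    have e := mul_left_cancel₀ hk (heq.trans heq'.symm)
    rw [cx, cy] at e
    linarith

/-- From strict to arbitrary perimeter -/
theorem perim (hA : T.IsAlexandrov M κ) 
    (hper : ∀ p x y : M, √κ * (dist p x + dist p y + dist x y) ≤ 2 * π) {p z w : M} {lam A B D : ℝ}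
    (hD : dist z w ≤ D)
    (hs : ∀ (x y : M) (mu : ℝ), lam ≤ mu → mu ≤ 1 → Rat p x z mu → Rat p y w mu →
      dist p x ≤ A → dist p y ≤ B → √κ * (dist p x + dist p y + dist x y) < 2 * π →
      dist x y ≤ D) {x y : M} {mu : ℝ} (h0 : 0 < mu) (h1 : lam ≤ mu) (h2 : mu ≤ 1)
    (hx : Rat p x z mu) (hy : Rat p y w mu)
    (hxA : dist p x ≤ A) (hyB : dist p y ≤ B) : dist x y ≤ D := by
  refine le_of_forall_pos_le_add fun ε hε => ?_
  -- induction
  have key : ∀ n : ℕ, ∀ (x y : M) (mu : ℝ), 0 < mu → lam ≤ mu → mu ≤ 1 → Rat p x z mu →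
      Rat p y w mu → dist p x ≤ A → dist p y ≤ B → dist z x + dist w y ≤ n * ε →
      dist x y ≤ D + ε := by
    intro n
    induction n with
    | zero =>
      intro x y mu h0 h1 h2 hx hy hxA hyB hn
      have a1 := dist_nonneg (x := z) (y := x)
      have a2 := dist_nonneg (x := w) (y := y)
      simp only [Nat.cast_zero, zero_mul] at hn
      have e1 : z = x := dist_eq_zero.1 (by linarith)
      have e2 : w = y := dist_eq_zero.1 (by linarith)
      rw [← e1, ← e2]; linarith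
    | succ n ih =>
      intro x y mu h0 h1 h2 hx hy hxA hyB hn
      rcases (hper p x y).lt_or_eq with hlt | heq
      · linarith [hs x y mu h1 h2 hx hy hxA hyB hlt]
      have a1 := dist_nonneg (x := z) (y := x)
      have a2 := dist_nonneg (x := w) (y := y)
      rcases (add_nonneg a1 a2).eq_or_lt with hT | hT
      · have e1 : z = x := dist_eq_zero.1 (by linarith)
        have e2 : w = y := dist_eq_zero.1 (by linarith)
        rw [← e1, ← e2]; linarith
      have hn' : dist z x + dist w y ≤ n * ε + ε := by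
        refine hn.trans (le_of_eq ?_)
        push_cast; ring
      obtain ⟨x', y', mu', k1, k2, rx, ry, k3, k4, k5, k6⟩ :=
        perim_step hA h0 h2 hx hy hε hn' (by positivity) hT hper heq
      rcases k6 with ⟨hlt, k7⟩ | k7
      · linarith [hs x' y' mu' (h1.trans k1) k2 rx ry (k3.trans hxA) (k4.trans hyB) hlt]
      · linarith [ih x' y' mu' (h0.trans_le k1) (h1.trans k1) k2 rx ry (k3.trans hxA)
          (k4.trans hyB) k5]
  obtain ⟨n, hn⟩ := exists_nat_ge ((dist z x + dist w y) / ε)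
  exact key n x y mu h0 h1 h2 hx hy hxA hyB (by rwa [div_le_iff₀ hε] at hn)

end metric

/-- **RL1** -/
theorem blk_RL1 : Blk_RL1.{u} := by
  intro M _ κ hA hpos
  have hper : ∀ p x y : M, √κ * (dist p x + dist p y + dist x y) ≤ 2 * π := by
    intro p x y
    rcases lt_or_ge 0 κ with h | h
    · exact hpos h p x y
    · rw [Real.sqrt_eq_zero_of_nonpos h, zero_mul]
      have := Real.pi_pos
      linarith
  refine ⟨fun R hR => ?_, fun R hR ε hε => ?_⟩
  · set c := cosh (√|κ| * R) with hc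
    have hc1 : 1 ≤ c := one_le_c κ R
    have hC1 : 1 ≤ π / 2 * c ^ 2 := by nlinarith [Real.pi_gt_three]
    refine ⟨π / 2 * c ^ 2, by linarith, ?_⟩
    intro p x y z w lam hl hxR hyR hx hy
    have hr0 : 0 ≤ dist z w := dist_nonneg
    have h := perim hA hper (lam := lam) (A := R) (B := R) (D := π / 2 * c ^ 2 * dist z w / lam)
      (p := p) (z := z) (w := w) ?_ ?_ hl.1 le_rfl hl.2 hx hy hxR.le hyR.le
    · rw [le_div_iff₀ hl.1] at h
      linarith
    · rw [le_div_iff₀ hl.1]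
      nlinarith [hl.1, hl.2]
    · intro x' y' mu h1 h2 hx' hy' hxR' hyR' hp
      have h3 := strict_lip hA hx' hy' (hl.1.trans_le h1) h2 hxR' hyR' hp
      rw [← hc] at h3
      rw [le_div_iff₀ hl.1]
      have := mul_le_mul_of_nonneg_right h1 (dist_nonneg (x := x') (y := y'))
      linarith
  · obtain ⟨lam₀, h0, η, hη, hl, H⟩ := strict_sharp.{u} κ hR hε
    refine ⟨lam₀, h0, fun lam hlam => ⟨η, hη, ?_⟩⟩
    intro p x y z w hxR hyR hx hy hr
    refine perim hA hper (lam := lam) (A := R) (B := R) (D := (1 + ε) * dist z w)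
      (p := p) (z := z) (w := w) ?_ ?_ (h0.1.trans hlam.1) le_rfl hlam.2.le hx hy hxR.le hyR.le
    · nlinarith [dist_nonneg (x := z) (y := w)]
    · intro x' y' mu h1 h2 hx' hy' hxR' hyR' hp
      exact H M hA p x' y' z w mu (hlam.1.le.trans h1) h2 hx' hy' hxR' hyR' hp hr

/-- for nonpositive curvature bounds there is no condition on perimeters -/
theorem inv_of_nonpos {M : Type u} [MetricSpace M] {κ : ℝ} (hA : T.IsAlexandrov M κ)
    (hκ : κ ≤ 0) : InvLip M ∧ InvSharp M :=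
  blk_RL1 M κ hA fun h => absurd h hκ.not_gt

end Vale.Agent.P233.H616.RL1

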