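import Vale.Agent.P233.H66.Time2
import Vale.Agent.P233.H545.LimW
import Mathlib.Analysis.ODE.Gronwall

/-!
P233, time calculus: fundamental theorem of calculus (equality and inequality forms), Gronwall
lemmas (constant and variable coefficient, one-sided Dini form), for real functions with a
derivative within `Icc a b`, and for differentiable curves of classes (`DL1`, `DL2`, `DW`).
-/

set_option linter.all false

open MeasureTheory Filter Topology Set
open scoped ENNReal NNReal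

namespace Vale.Agent.P233

/-! ### real functions -/

namespace RF

variable {F F' G : ℝ → ℝ} {a b : ℝ}

theorem contOn (hd : ∀ t ∈ Icc a b, HasDerivWithinAt F (F' t) (Icc a b) t) :
    ContinuousOn F (Icc a b) := fun t ht => (hd t ht).continuousWithinAt

theorem right (hd : ∀ t ∈ Icc a b, HasDerivWithinAt F (F' t) (Icc a b) t) {t : ℝ}
    (ht : t ∈ Ico a b) : HasDerivWithinAt F (F' t) (Ioi t) t := by
  have h1 : HasDerivWithinAt F (F' t) (Icc t b) t :=
    (hd t (Ico_subset_Icc_self ht)).mono (Icc_subset_Icc_left ht.1)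
  exact ((h1.mono_of_mem_nhdsWithin (Icc_mem_nhdsGE ht.2) :
    HasDerivWithinAt F (F' t) (Ici t) t)).mono Ioi_subset_Ici_self

theorem right' (hd : ∀ t ∈ Icc a b, HasDerivWithinAt F (F' t) (Icc a b) t) {t : ℝ}
    (ht : t ∈ Ico a b) : HasDerivWithinAt F (F' t) (Ici t) t := by
  have h1 : HasDerivWithinAt F (F' t) (Icc t b) t :=
    (hd t (Ico_subset_Icc_self ht)).mono (Icc_subset_Icc_left ht.1)
  exact (h1.mono_of_mem_nhdsWithin (Icc_mem_nhdsGE ht.2))

/-- Fundamental theorem of calculus. -/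
theorem ftc (hab : a ≤ b) (hd : ∀ t ∈ Icc a b, HasDerivWithinAt F (F' t) (Icc a b) t)
    (hi : IntervalIntegrable F' volume a b) : F b - F a = ∫ t in a..b, F' t :=
  (intervalIntegral.integral_eq_sub_of_hasDeriv_right_of_le hab (contOn hd)
    (fun t ht => right hd (Ioo_subset_Ico_self ht)) hi).symm

/-- `F' ≤ G` implies `F b - F a ≤ ∫ G`; no measurability of `F'` is needed. -/
theorem sub_le_int (hab : a ≤ b) (hd : ∀ t ∈ Icc a b, HasDerivWithinAt F (F' t) (Icc a b) t)
    (hi : IntervalIntegrable G volume a b) (h : ∀ t ∈ Ioo a b, F' t ≤ G t) :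
    F b - F a ≤ ∫ t in a..b, G t :=
  intervalIntegral.sub_le_integral_of_hasDeriv_right_of_le hab (contOn hd)
    (fun t ht => right hd (Ioo_subset_Ico_self ht))
    ((intervalIntegrable_iff_integrableOn_Icc_of_le hab).1 hi) h

theorem int_le_sub (hab : a ≤ b) (hd : ∀ t ∈ Icc a b, HasDerivWithinAt F (F' t) (Icc a b) t)
    (hi : IntervalIntegrable G volume a b) (h : ∀ t ∈ Ioo a b, G t ≤ F' t) :
    ∫ t in a..b, G t ≤ F b - F a := by
  have := sub_le_int (F := fun t => -F t) (F' := fun t => -F' t) (G := fun t => -G t) hab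
    (fun t ht => (hd t ht).neg) hi.neg (fun t ht => neg_le_neg (h t ht))
  rw [intervalIntegral.integral_neg] at this
  linarith

theorem sub_le_const (hab : a ≤ b) (hd : ∀ t ∈ Icc a b, HasDerivWithinAt F (F' t) (Icc a b) t)
    {c : ℝ} (h : ∀ t ∈ Ioo a b, F' t ≤ c) : F b - F a ≤ c * (b - a) := by
  have := sub_le_int (G := fun _ => c) hab hd intervalIntegrable_const h
  rw [intervalIntegral.integral_const, smul_eq_mul] at this
  linarith

theorem const_le_sub (hab : a ≤ b) (hd : ∀ t ∈ Icc a b, HasDerivWithinAt F (F' t) (Icc a b) t)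
    {c : ℝ} (h : ∀ t ∈ Ioo a b, c ≤ F' t) : c * (b - a) ≤ F b - F a := by
  have := int_le_sub (G := fun _ => c) hab hd intervalIntegrable_const h
  rw [intervalIntegral.integral_const, smul_eq_mul] at this
  linarith

theorem sub {s t : ℝ} (hs : a ≤ s) (ht : t ≤ b)
    (hd : ∀ t ∈ Icc a b, HasDerivWithinAt F (F' t) (Icc a b) t) :
    ∀ r ∈ Icc s t, HasDerivWithinAt F (F' r) (Icc s t) r := fun r hr =>
  (hd r ⟨hs.trans hr.1, hr.2.trans ht⟩).mono (Icc_subset_Icc hs ht)

theorem antitone_of (hd : ∀ t ∈ Icc a b, HasDerivWithinAt F (F' t) (Icc a b) t)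
    (h : ∀ t ∈ Ioo a b, F' t ≤ 0) : AntitoneOn F (Icc a b) := by
  intro s hs t ht hst
  have := sub_le_const (c := 0) hst (sub hs.1 ht.2 hd)
    (fun r hr => h r ⟨lt_of_le_of_lt hs.1 hr.1, lt_of_lt_of_le hr.2 ht.2⟩)
  linarith

theorem monotone_of (hd : ∀ t ∈ Icc a b, HasDerivWithinAt F (F' t) (Icc a b) t)
    (h : ∀ t ∈ Ioo a b, 0 ≤ F' t) : MonotoneOn F (Icc a b) := by
  intro s hs t ht hst
  have := const_le_sub (c := 0) hst (sub hs.1 ht.2 hd)
    (fun r hr => h r ⟨lt_of_le_of_lt hs.1 hr.1, lt_of_lt_of_le hr.2 ht.2⟩)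
  linarith

/-- Gronwall with variable coefficient `k = K'` and right hand side `c`. -/
theorem gronwall_var {K k c : ℝ → ℝ} (hab : a ≤ b)
    (hd : ∀ t ∈ Icc a b, HasDerivWithinAt F (F' t) (Icc a b) t)
    (hK : ∀ t ∈ Icc a b, HasDerivWithinAt K (k t) (Icc a b) t)
    (hi : IntervalIntegrable (fun t => c t * Real.exp (-K t)) volume a b)
    (h : ∀ t ∈ Ioo a b, F' t ≤ k t * F t + c t) :
    F b * Real.exp (-K b) ≤ F a * Real.exp (-K a) + ∫ t in a..b, c t * Real.exp (-K t) := by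
  have h1 : ∀ t ∈ Icc a b, HasDerivWithinAt (fun t => F t * Real.exp (-K t))
      (F' t * Real.exp (-K t) + F t * (Real.exp (-K t) * (-k t))) (Icc a b) t :=
    fun t ht => (hd t ht).mul ((hK t ht).neg.exp)
  have := sub_le_int (G := fun t => c t * Real.exp (-K t)) hab h1 hi (fun t ht => by
    have h2 := mul_le_mul_of_nonneg_right (h t ht) (Real.exp_pos (-K t)).le
    linarith)
  linarith

/-- Gronwall with variable coefficient, homogeneous. -/
theorem gronwall_var0 {K k : ℝ → ℝ} (hab : a ≤ b)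
    (hd : ∀ t ∈ Icc a b, HasDerivWithinAt F (F' t) (Icc a b) t)
    (hK : ∀ t ∈ Icc a b, HasDerivWithinAt K (k t) (Icc a b) t)
    (h : ∀ t ∈ Ioo a b, F' t ≤ k t * F t) : F b ≤ F a * Real.exp (K b - K a) := by
  have h1 := gronwall_var (c := fun _ => 0) hab hd hK (by simp) (fun t ht => by simpa using h t ht)
  simp only [zero_mul, intervalIntegral.integral_zero, add_zero] at h1
  have h2 := mul_le_mul_of_nonneg_right h1 (Real.exp_pos (K b)).le
  rw [mul_assoc, ← Real.exp_add, mul_assoc, ← Real.exp_add] at h2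
  simp only [neg_add_cancel, Real.exp_zero, mul_one] at h2
  have e : -K a + K b = K b - K a := by ring
  rwa [e] at h2

/-- Gronwall with constant coefficients (`F` may have any sign, `0 ≤ k`, `0 ≤ c`). -/
theorem gronwall {k c : ℝ} (hab : a ≤ b) (hk : 0 ≤ k) (hc : 0 ≤ c)
    (hd : ∀ t ∈ Icc a b, HasDerivWithinAt F (F' t) (Icc a b) t)
    (h : ∀ t ∈ Ioo a b, F' t ≤ k * F t + c) :
    F b ≤ (F a + c * (b - a)) * Real.exp (k * (b - a)) := by
  have hK : ∀ t ∈ Icc a b, HasDerivWithinAt (fun t => k * (t - a)) k (Icc a b) t := fun t ht => by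
    have := ((hasDerivAt_id t).sub_const a).const_mul k
    simpa using this.hasDerivWithinAt
  have hcont : Continuous fun t : ℝ => c * Real.exp (-(k * (t - a))) := by fun_prop
  have h1 := gronwall_var (K := fun t => k * (t - a)) (k := fun _ => k) (c := fun _ => c) hab hd hK
    (hcont.intervalIntegrable _ _) h
  have h2 : ∫ t in a..b, c * Real.exp (-(k * (t - a))) ≤ c * (b - a) := by
    have := intervalIntegral.integral_mono_on hab (hcont.intervalIntegrable (μ := volume) a b)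
      (intervalIntegrable_const (c := c)) (fun t ht => by
        have h3 : Real.exp (-(k * (t - a))) ≤ 1 := by
          rw [Real.exp_le_one_iff]
          have := mul_nonneg hk (sub_nonneg.2 ht.1)
          linarith
        have := mul_le_mul_of_nonneg_left h3 hc
        linarith)
    rw [intervalIntegral.integral_const, smul_eq_mul] at this
    linarith
  simp only [sub_self, mul_zero, neg_zero, Real.exp_zero, mul_one] at h1
  have h3 := mul_le_mul_of_nonneg_right (h1.trans (add_le_add le_rfl h2))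
    (Real.exp_pos (k * (b - a))).le
  rwa [mul_assoc, ← Real.exp_add, neg_add_cancel, Real.exp_zero, mul_one] at h3

/-- One-sided Dini form of Gronwall: `F` continuous on `[a,b]`, `F a ≤ 0` and the right lower
Dini derivative is `≤ k F` wherever `F > 0`. -/
theorem dini_zero {k : ℝ} (hc : ContinuousOn F (Icc a b)) (ha : F a ≤ 0) (hk : 0 ≤ k)
    (h : ∀ t ∈ Ico a b, 0 ≤ F t → ∀ r, k * F t < r → ∃ᶠ s in 𝓝[>] t, (s - t)⁻¹ * (F s - F t) < r) :
    ∀ t ∈ Icc a b, F t ≤ 0 := by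
  -- compare `max F 0`
  set G : ℝ → ℝ := fun t => max (F t) 0 with hG
  have hGc : ContinuousOn G (Icc a b) :=
    (continuous_id.max continuous_const).comp_continuousOn hc
  have key := le_gronwallBound_of_liminf_deriv_right_le (f := G) (f' := fun t => k * G t)
    (δ := 0) (K := k) (ε := 0) hGc (fun t ht r hr => ?_) (by simp [hG, ha])
    (fun t ht => by simp)
  · intro t ht
    have := key t ht
    rw [gronwallBound_ε0, zero_mul] at this
    exact (le_max_left _ _).trans this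
  · rcases lt_or_ge (F t) 0 with hF | hF
    · -- F < 0 near t
      have h1 : G t = 0 := max_eq_right hF.le
      rw [h1, mul_zero] at hr
      have h2 : ContinuousWithinAt F (Ioi t) t :=
        ((hc t (Ico_subset_Icc_self ht)).mono (Icc_subset_Icc_left ht.1)
          ).mono_of_mem_nhdsWithin (Icc_mem_nhdsGE ht.2) |>.mono Ioi_subset_Ici_self
      have h3 : ∀ᶠ s in 𝓝[>] t, F s < 0 := h2.eventually (gt_mem_nhds hF)
      refine Eventually.frequently ?_
      filter_upwards [h3] with s hs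
      have h4 : G s = 0 := max_eq_right hs.le
      rw [h4, h1]; simpa using hr
    · have h1 : G t = F t := max_eq_left hF
      rw [h1] at hr
      have h0 : 0 < r := lt_of_le_of_lt (mul_nonneg hk hF) hr
      refine ((h t ht hF r hr).and_eventually self_mem_nhdsWithin).mono ?_
      rintro s ⟨hs, hst⟩
      have hst' : 0 < s - t := sub_pos.2 hst
      rw [h1]
      rcases le_or_gt 0 (F s) with h5 | h5
      · have : G s = F s := max_eq_left h5
        rwa [this]
      · have : G s = 0 := max_eq_right h5.le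
        rw [this]
        have h6 : (s - t)⁻¹ * (0 - F t) ≤ 0 :=
          mul_nonpos_of_nonneg_of_nonpos (inv_nonneg.2 hst'.le) (by linarith)
        exact lt_of_le_of_lt h6 h0

/-- The same with the differential inequality only in the open interval. -/
theorem dini_zero' {k : ℝ} (hab : a ≤ b) (hc : ContinuousOn F (Icc a b)) (ha : F a ≤ 0)
    (hk : 0 ≤ k)
    (h : ∀ t ∈ Ioo a b, 0 ≤ F t → ∀ r, k * F t < r → ∃ᶠ s in 𝓝[>] t, (s - t)⁻¹ * (F s - F t) < r) :
    ∀ t ∈ Icc a b, F t ≤ 0 := by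
  -- `F - δ` is nonpositive near `a`
  intro t ht
  rcases eq_or_lt_of_le ht.1 with h0 | h0
  · rwa [← h0]
  by_contra hcon
  push Not at hcon
  -- Gronwall from `s` to `t`
  have key : ∀ s ∈ Ioo a t, F t ≤ max (F s) 0 * Real.exp (k * (t - s)) := by
    intro s hs
    set δ := max (F s) 0 with hδ
    have hδ0 : 0 ≤ δ := le_max_right _ _
    set G : ℝ → ℝ := fun r => max (F r) 0 with hG
    have hGc : ContinuousOn G (Icc s b) :=
      (continuous_id.max continuous_const).comp_continuousOn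
        (hc.mono (Icc_subset_Icc_left hs.1.le))
    have key := le_gronwallBound_of_liminf_deriv_right_le (f := G) (f' := fun t => k * G t)
      (δ := δ) (K := k) (ε := 0) hGc (fun t ht r hr => ?_) le_rfl (fun t ht => by simp)
    · have := key t ⟨hs.2.le, ht.2⟩
      rw [gronwallBound_ε0] at this
      exact (le_max_left _ _).trans this
    · have ht' : t ∈ Ioo a b := ⟨lt_of_lt_of_le hs.1 ht.1, ht.2⟩
      rcases lt_or_ge (F t) 0 with hF | hF
      · have h1 : G t = 0 := max_eq_right hF.le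
        rw [h1, mul_zero] at hr
        have h2 : ContinuousWithinAt F (Ioi t) t :=
          ((hc t (Ioo_subset_Icc_self ht')).mono (Icc_subset_Icc_left ht'.1.le)
            ).mono_of_mem_nhdsWithin (Icc_mem_nhdsGE ht'.2) |>.mono Ioi_subset_Ici_self
        have h3 : ∀ᶠ s in 𝓝[>] t, F s < 0 := h2.eventually (gt_mem_nhds hF)
        refine Eventually.frequently ?_
        filter_upwards [h3] with s hs
        have h4 : G s = 0 := max_eq_right hs.le
        rw [h4, h1]; simpa using hr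
      · have h1 : G t = F t := max_eq_left hF
        rw [h1] at hr
        have h0 : 0 < r := lt_of_le_of_lt (mul_nonneg hk hF) hr
        refine ((h t ht' hF r hr).and_eventually self_mem_nhdsWithin).mono ?_
        rintro s ⟨hs, hst⟩
        have hst' : 0 < s - t := sub_pos.2 hst
        rw [h1]
        rcases le_or_gt 0 (F s) with h5 | h5
        · have : G s = F s := max_eq_left h5
          rwa [this]
        · have : G s = 0 := max_eq_right h5.le
          rw [this]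
          have h6 : (s - t)⁻¹ * (0 - F t) ≤ 0 :=
            mul_nonpos_of_nonneg_of_nonpos (inv_nonneg.2 hst'.le) (by linarith)
          exact lt_of_le_of_lt h6 h0
  have hlim : Tendsto (fun s => max (F s) 0 * Real.exp (k * (t - s))) (𝓝[>] a)
      (𝓝 (max (F a) 0 * Real.exp (k * (t - a)))) := by
    have h1 : Tendsto F (𝓝[>] a) (𝓝 (F a)) := by
      have h2 : ContinuousWithinAt F (Icc a b) a := hc a ⟨le_rfl, hab⟩
      exact (h2.mono_of_mem_nhdsWithin
        (Icc_mem_nhdsGE (lt_of_lt_of_le h0 ht.2)) : ContinuousWithinAt F (Ici a) a).mono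
          Ioi_subset_Ici_self
    have h3 : Continuous fun s : ℝ => Real.exp (k * (t - s)) := by fun_prop
    exact (h1.max tendsto_const_nhds).mul ((h3.tendsto a).mono_left nhdsWithin_le_nhds)
  have h5 : F t ≤ max (F a) 0 * Real.exp (k * (t - a)) :=
    ge_of_tendsto hlim (by
      filter_upwards [Ioo_mem_nhdsGT h0] with s hs using key s hs)
  rw [max_eq_right ha, zero_mul] at h5
  linarith

end RF

/-! ### curves of classes -/

variable {M : Type*} [MeasurableSpace M] {m : Measure M} {C : Calc m}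
variable {f g : ℝ → M →ₘ[m] ℝ} {f' : ℝ → M →ₘ[m] ℝ} {a b : ℝ}

/-- duality with a fixed `L²` function -/
theorem DL2.I_mul_hasDeriv {f0 w : M →ₘ[m] ℝ} {S : Set ℝ} {t : ℝ} (h : DL2 f f0 S t)
    (hw : MemLp w 2 m) :
    HasDerivWithinAt (fun r => I ((f r - f t) * w)) (I (f0 * w)) S t := by
  rw [hasDerivWithinAt_iff_tendsto_slope]
  refine tendsto_of_sq fun r hr => ?_
  have h1 := (h.seq hr).mul_lim (T2.const hw)
  refine h1.congr fun n => ?_
  have e : ((r n - t)⁻¹ • (f (r n) - f t)) * w = (r n - t)⁻¹ • ((f (r n) - f t) * w) := by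
    rw [smul_mul_assoc]
  rw [e, I_smul, slope_def_field, sub_self, zero_mul, I_zero, sub_zero, div_eq_inv_mul]

/-- the function `t ↦ I ((f t - f a) w)` -/
theorem DL2.I_mul_hasDeriv' {w : M →ₘ[m] ℝ} (hd : ∀ t ∈ Icc a b, DL2 f (f' t) (Icc a b) t)
    (hw : MemLp w 2 m) : ∀ t ∈ Icc a b,
    HasDerivWithinAt (fun r => I ((f r - f a) * w)) (I (f' t * w)) (Icc a b) t := by
  intro t ht
  have ha : a ∈ Icc a b := ⟨le_rfl, ht.1.trans ht.2⟩
  have h1 := (DL2.I_mul_hasDeriv (hd t ht) hw).add_const (I ((f t - f a) * w))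
  refine h1.congr (fun r hr => ?_) ?_
  · rw [← I_add (mem_mul_22 ((hd t ht).mem r hr) hw) (mem_mul_22 ((hd a ha).mem t ht) hw)]
    congr 1; ring
  · rw [← I_add (mem_mul_22 ((hd t ht).mem t ht) hw) (mem_mul_22 ((hd a ha).mem t ht) hw)]
    congr 1; ring

/-- Fundamental theorem of calculus in `L²`, weak form. -/
theorem DL2.ftc {w : M →ₘ[m] ℝ} (hab : a ≤ b) (hd : ∀ t ∈ Icc a b, DL2 f (f' t) (Icc a b) t)
    (hw : MemLp w 2 m) (hi : IntervalIntegrable (fun t => I (f' t * w)) volume a b) :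
    I ((f b - f a) * w) = ∫ t in a..b, I (f' t * w) := by
  have := RF.ftc hab (DL2.I_mul_hasDeriv' hd hw) hi
  have e : (f a - f a) * w = 0 := by ring
  rw [e, I_zero, sub_zero] at this
  exact this

/-- continuity of `t ↦ I (u t * w)` from continuity in `L²` -/
theorem contOn_I_mul {u : ℝ → M →ₘ[m] ℝ} {S : Set ℝ} {w : M →ₘ[m] ℝ}
    (hu : ∀ t ∈ S, MemLp (u t) 2 m)
    (hc : ∀ t ∈ S, Tendsto (fun r => I ((u r - u t) ^ 2)) (𝓝[S] t) (𝓝 0)) (hw : MemLp w 2 m) :
    ContinuousOn (fun t => I (u t * w)) S := by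
  intro t ht
  have h1 : L2To (𝓝[S] t) u (u t) :=
    ⟨eventually_of_mem self_mem_nhdsWithin fun r hr => hu r hr, hu t ht, hc t ht⟩
  exact h1.mul_lim (L2To.const hw)

/-- Fundamental theorem of calculus in `L²`: continuous derivative. -/
theorem DL2.ftc_cont {w : M →ₘ[m] ℝ} (hab : a ≤ b)
    (hd : ∀ t ∈ Icc a b, DL2 f (f' t) (Icc a b) t)
    (hc : ∀ t ∈ Icc a b, Tendsto (fun r => I ((f' r - f' t) ^ 2)) (𝓝[Icc a b] t) (𝓝 0))
    (hw : MemLp w 2 m) : I ((f b - f a) * w) = ∫ t in a..b, I (f' t * w) := by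
  refine DL2.ftc hab hd hw ?_
  refine ContinuousOn.intervalIntegrable ?_
  rw [uIcc_of_le hab]
  exact contOn_I_mul (fun t ht => (hd t ht).mem') hc hw

/-- Mean value inequality in `L²`. -/
theorem DL2.norm_le (hab : a ≤ b) (hd : ∀ t ∈ Icc a b, DL2 f (f' t) (Icc a b) t) {K : ℝ}
    (hK : ∀ t ∈ Ioo a b, √(I (f' t ^ 2)) ≤ K) : √(I ((f b - f a) ^ 2)) ≤ K * (b - a) := by
  have ha : a ∈ Icc a b := ⟨le_rfl, hab⟩
  have hb : b ∈ Icc a b := ⟨hab, le_rfl⟩
  set w := f b - f a with hw0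
  have hw : MemLp w 2 m := (hd a ha).mem b hb
  have h1 := RF.sub_le_const (c := K * √(I (w ^ 2))) hab (DL2.I_mul_hasDeriv' hd hw)
    (fun t ht => (le_abs_self _).trans ((I_abs_le (hd t (Ioo_subset_Icc_self ht)).mem' hw).trans
      (mul_le_mul_of_nonneg_right (hK t ht) (Real.sqrt_nonneg _))))
  have e : (f a - f a) * w = 0 := by ring
  rw [e, I_zero, sub_zero, ← hw0, ← sq] at h1
  have h2 : I (w ^ 2) = √(I (w ^ 2)) * √(I (w ^ 2)) := (Real.mul_self_sqrt (I_sq_nonneg w)).symm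
  rcases eq_or_lt_of_le (Real.sqrt_nonneg (I (w ^ 2))) with h0 | h0
  · rw [← h0]
    rcases eq_or_lt_of_le hab with h3 | h3
    · rw [h3]; simp
    · have h4 : 0 ≤ K := (Real.sqrt_nonneg _).trans
        (hK ((a + b) / 2) ⟨by linarith, by linarith⟩)
      exact mul_nonneg h4 (sub_nonneg.2 hab)
  · have h5 : √(I (w ^ 2)) * √(I (w ^ 2)) ≤ (K * (b - a)) * √(I (w ^ 2)) := by
      rw [← h2]; linarith
    exact le_of_mul_le_mul_right h5 h0

/-- A curve with zero derivative in `L²` is constant. -/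
theorem DL2.eq_of_zero (hab : a ≤ b) (hd : ∀ t ∈ Icc a b, DL2 f 0 (Icc a b) t) : f b = f a := by
  have e0 : (0 : M →ₘ[m] ℝ) ^ 2 = 0 := by ring
  have h := DL2.norm_le (K := 0) hab hd (fun t ht => by rw [e0, I_zero, Real.sqrt_zero])
  rw [zero_mul] at h
  have h1 : I ((f b - f a) ^ 2) = 0 := by
    have := Real.sqrt_eq_zero'.1 (le_antisymm h (Real.sqrt_nonneg _))
    exact le_antisymm this (I_sq_nonneg _)
  have h2 := I_sq_eq_zero ((hd a ⟨le_rfl, hab⟩).mem b ⟨hab, le_rfl⟩) h1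
  exact sub_eq_zero.1 h2

/-- multiplication of an `L¹` derivative with a fixed bounded function -/
theorem DL1.mul_const {f0 w : M →ₘ[m] ℝ} {S : Set ℝ} {t : ℝ} (h : DL1 f f0 S t)
    (hw : MemLp w ∞ m) : DL1 (fun r => f r * w) (f0 * w) S t := by
  obtain ⟨K, hK⟩ := mem_top_iff.1 hw
  have e : ∀ r, f r * w - f t * w = (f r - f t) * w := fun r => by ring
  refine ⟨fun r hr => ?_, mem_top_mul h.mem' hw, ?_⟩
  · rw [e]; exact mem_top_mul (h.mem r hr) hw
  refine squeeze_zero' (Eventually.of_forall fun r => integral_nonneg fun x => abs_nonneg _) ?_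
    (by simpa using h.lim.const_mul |K|)
  filter_upwards [self_mem_nhdsWithin] with r hr
  rw [← integral_const_mul]
  have m1 : MemLp ((r - t)⁻¹ • (f r - f t) - f0 : M →ₘ[m] ℝ) 1 m :=
    mem_sub (mem_smul _ (h.mem r hr.1)) h.mem'
  have e1 : (r - t)⁻¹ • (f r * w - f t * w) - f0 * w = ((r - t)⁻¹ • (f r - f t) - f0) * w := by
    algebra
  rw [e1]
  refine integral_mono_ae (int_of_mem (mem_top_mul m1 hw)).abs ((int_of_mem m1).abs.const_mul _) ?_
  filter_upwards [mul_ae ((r - t)⁻¹ • (f r - f t) - f0) w, hK] with x h1 h2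
  simp only [h1, abs_mul]
  rw [mul_comm]
  exact mul_le_mul_of_nonneg_right (h2.trans (le_abs_self _)) (abs_nonneg _)

/-- Fundamental theorem of calculus in `L¹`, weak form. -/
theorem DL1.ftc {w : M →ₘ[m] ℝ} (hab : a ≤ b) (hd : ∀ t ∈ Icc a b, DL1 f (f' t) (Icc a b) t)
    (hw : MemLp w ∞ m) (hi : IntervalIntegrable (fun t => I (f' t * w)) volume a b) :
    I ((f b - f a) * w) = ∫ t in a..b, I (f' t * w) := by
  have ha : a ∈ Icc a b := ⟨le_rfl, hab⟩
  have h1 : ∀ t ∈ Icc a b,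
      HasDerivWithinAt (fun r => I ((f r - f a) * w)) (I (f' t * w)) (Icc a b) t := by
    intro t ht
    have h1 := (((hd t ht).mul_const hw).I_sub_hasDeriv).add_const (I ((f t - f a) * w))
    refine h1.congr (fun r hr => ?_) ?_
    · have e : f r * w - f t * w = (f r - f t) * w := by ring
      rw [e, ← I_add (mem_top_mul ((hd t ht).mem r hr) hw) (mem_top_mul ((hd a ha).mem t ht) hw)]
      congr 1; ring
    · have e : f t * w - f t * w = (f t - f t) * w := by ring
      rw [e, ← I_add (mem_top_mul ((hd t ht).mem t ht) hw) (mem_top_mul ((hd a ha).mem t ht) hw)]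
      congr 1; ring
  have := RF.ftc hab h1 hi
  have e : (f a - f a) * w = 0 := by ring
  rw [e, I_zero, sub_zero] at this
  exact this

/-- Fundamental theorem of calculus in `L¹`: the integrals. -/
theorem DL1.ftc_one (hab : a ≤ b) (hd : ∀ t ∈ Icc a b, DL1 f (f' t) (Icc a b) t)
    (hi : IntervalIntegrable (fun t => I (f' t)) volume a b) :
    I (f b - f a) = ∫ t in a..b, I (f' t) := by
  have := DL1.ftc hab hd mem_top_one (by simpa using hi)
  simpa using this

namespace IsDir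

variable (hC : IsDir C)
include hC

theorem DW_I_Γ_hasDeriv {f0 w : M →ₘ[m] ℝ} {S : Set ℝ} {t : ℝ} (h : C.DW f f0 S t)
    (hw : w ∈ C.W) :
    HasDerivWithinAt (fun r => I (C.Γ (f r - f t) w)) (I (C.Γ f0 w)) S t := by
  rw [hasDerivWithinAt_iff_tendsto_slope]
  refine tendsto_of_sq fun r hr => ?_
  have h0 : C.WTo atTop (fun n => (r n - t)⁻¹ • (f (r n) - f t)) f0 :=
    ⟨Eventually.of_forall fun n => hC.smul_mem _ _ (h.mem _ (hr.mem n)), h.mem',
      h.lim.comp hr.within⟩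
  have h1 := (hC.WTo_Γ_L1 h0 (hC.WTo_const hw)).I_lim
  refine h1.congr fun n => ?_
  rw [hC.smul_left _ _ (h.mem _ (hr.mem n)) _ hw, I_smul, slope_def_field, sub_self,
    hC.Γ_zero_left hw, I_zero, sub_zero, div_eq_inv_mul]

theorem DW_I_Γ_hasDeriv' {w : M →ₘ[m] ℝ} (hd : ∀ t ∈ Icc a b, C.DW f (f' t) (Icc a b) t)
    (hw : w ∈ C.W) : ∀ t ∈ Icc a b,
    HasDerivWithinAt (fun r => I (C.Γ (f r - f a) w)) (I (C.Γ (f' t) w)) (Icc a b) t := by
  intro t ht
  have ha : a ∈ Icc a b := ⟨le_rfl, ht.1.trans ht.2⟩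
  have h1 := (hC.DW_I_Γ_hasDeriv (hd t ht) hw).add_const (I (C.Γ (f t - f a) w))
  refine h1.congr (fun r hr => ?_) ?_
  · rw [← I_add (hC.Γ_mem1 ((hd t ht).mem r hr) hw) (hC.Γ_mem1 ((hd a ha).mem t ht) hw),
      ← hC.add_left _ ((hd t ht).mem r hr) _ ((hd a ha).mem t ht) _ hw]
    congr 2; ring
  · rw [← I_add (hC.Γ_mem1 ((hd t ht).mem t ht) hw) (hC.Γ_mem1 ((hd a ha).mem t ht) hw),
      ← hC.add_left _ ((hd t ht).mem t ht) _ ((hd a ha).mem t ht) _ hw]
    congr 2; ring

/-- Fundamental theorem of calculus in `W`, weak form. -/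
theorem DW_ftc {w : M →ₘ[m] ℝ} (hab : a ≤ b) (hd : ∀ t ∈ Icc a b, C.DW f (f' t) (Icc a b) t)
    (hw : w ∈ C.W) (hi : IntervalIntegrable (fun t => I (C.Γ (f' t) w)) volume a b) :
    I (C.Γ (f b - f a) w) = ∫ t in a..b, I (C.Γ (f' t) w) := by
  have := RF.ftc hab (hC.DW_I_Γ_hasDeriv' hd hw) hi
  rw [sub_self, hC.Γ_zero_left hw, I_zero, sub_zero] at this
  exact this

/-- Mean value inequality for the energy. -/
theorem DW_norm_le (hab : a ≤ b) (hd : ∀ t ∈ Icc a b, C.DW f (f' t) (Icc a b) t) {K : ℝ}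
    (hK : ∀ t ∈ Ioo a b, √(I (C.Γ (f' t) (f' t))) ≤ K) :
    √(I (C.Γ (f b - f a) (f b - f a))) ≤ K * (b - a) := by
  have ha : a ∈ Icc a b := ⟨le_rfl, hab⟩
  have hb : b ∈ Icc a b := ⟨hab, le_rfl⟩
  set w := f b - f a with hw0
  have hw : w ∈ C.W := (hd a ha).mem b hb
  have h1 := RF.sub_le_const (c := K * √(I (C.Γ w w))) hab (hC.DW_I_Γ_hasDeriv' hd hw)
    (fun t ht => (le_abs_self _).trans ((hC.E_abs_le (hd t (Ioo_subset_Icc_self ht)).mem' hw).trans
      (mul_le_mul_of_nonneg_right (hK t ht) (Real.sqrt_nonneg _))))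
  rw [sub_self, hC.Γ_zero_left hw, I_zero, sub_zero, ← hw0] at h1
  have h2 : I (C.Γ w w) = √(I (C.Γ w w)) * √(I (C.Γ w w)) :=
    (Real.mul_self_sqrt (hC.E_nonneg hw)).symm
  rcases eq_or_lt_of_le (Real.sqrt_nonneg (I (C.Γ w w))) with h0 | h0
  · rw [← h0]
    rcases eq_or_lt_of_le hab with h3 | h3
    · rw [h3]; simp
    · have h4 : 0 ≤ K := (Real.sqrt_nonneg _).trans
        (hK ((a + b) / 2) ⟨by linarith, by linarith⟩)
      exact mul_nonneg h4 (sub_nonneg.2 hab)
  · have h5 : √(I (C.Γ w w)) * √(I (C.Γ w w)) ≤ (K * (b - a)) * √(I (C.Γ w w)) := by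
      rw [← h2]; linarith
    exact le_of_mul_le_mul_right h5 h0

/-- The Laplacian of the derivative: derivative of the Laplacian. -/
theorem isLap_deriv {h : ℝ → M →ₘ[m] ℝ} {f0 h0 : M →ₘ[m] ℝ} {S : Set ℝ} {t : ℝ}
    [hne : (𝓝[S \ {t}] t).NeBot]
    (hl : ∀ r ∈ S, C.IsLap (f r) (h r)) (ht : t ∈ S) (hf : C.DW f f0 S t) (hh : DL2 h h0 S t) :
    C.IsLap f0 h0 := by
  refine ⟨hf.mem', hh.mem', fun g hg => ?_⟩
  have h1 : C.WTo (𝓝[S \ {t}] t) (fun r => (r - t)⁻¹ • (f r - f t)) f0 :=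
    ⟨eventually_of_mem self_mem_nhdsWithin fun r hr => hC.smul_mem _ _ (hf.mem r hr.1), hf.mem',
      hf.lim⟩
  have h2 : L2To (𝓝[S \ {t}] t) (fun r => (r - t)⁻¹ • (h r - h t)) h0 :=
    ⟨eventually_of_mem self_mem_nhdsWithin fun r hr => mem_smul _ (hh.mem r hr.1), hh.mem', hh.lim⟩
  have l1 := (hC.WTo_Γ_L1 h1 (hC.WTo_const hg)).I_lim
  have l2 := (h2.mul_lim (L2To.const (hC.memLp _ hg))).neg
  have l3 : Tendsto (fun r => I (C.Γ ((r - t)⁻¹ • (f r - f t)) g)) (𝓝[S \ {t}] t)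
      (𝓝 (-I (h0 * g))) := by
    refine l2.congr' ?_
    filter_upwards [self_mem_nhdsWithin] with r hr
    have hr1 := hl r hr.1
    have ht1 := hl t ht
    have hg2 := hC.memLp _ hg
    rw [hC.smul_left _ _ (hC.sub_mem hr1.1 ht1.1) _ hg, I_smul, smul_mul_assoc, I_smul,
      hC.Γ_sub_left hr1.1 ht1.1 hg, I_sub (hC.Γ_mem1 hr1.1 hg) (hC.Γ_mem1 ht1.1 hg), sub_mul,
      I_sub (mem_mul_22 hr1.2.1 hg2) (mem_mul_22 ht1.2.1 hg2)]
    have e1 : I (C.Γ (f r) g) = -I (h r * g) := hr1.2.2 g hg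
    have e2 : I (C.Γ (f t) g) = -I (h t * g) := ht1.2.2 g hg
    rw [e1, e2]; ring
  exact tendsto_nhds_unique l1 l3

/-- Graph norm differentiability implies `W`-differentiability. -/
theorem DW_of_lap {h : ℝ → M →ₘ[m] ℝ} {f0 h0 : M →ₘ[m] ℝ} {S : Set ℝ} {t : ℝ}
    (hl : ∀ r ∈ S, C.IsLap (f r) (h r)) (ht : t ∈ S) (hl0 : C.IsLap f0 h0)
    (hf : DL2 f f0 S t) (hh : DL2 h h0 S t) : C.DW f f0 S t := by
  refine ⟨fun r hr => hC.sub_mem (hl r hr).1 (hl t ht).1, hl0.1, ?_⟩
  have h1 : L2To (𝓝[S \ {t}] t) (fun r => (r - t)⁻¹ • (f r - f t) - f0) 0 := by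
    have : L2To (𝓝[S \ {t}] t) (fun r => (r - t)⁻¹ • (f r - f t)) f0 :=
      ⟨eventually_of_mem self_mem_nhdsWithin fun r hr => mem_smul _ (hf.mem r hr.1), hf.mem', hf.lim⟩
    simpa using this.sub (L2To.const hf.mem')
  have h2 : L2To (𝓝[S \ {t}] t) (fun r => (r - t)⁻¹ • (h r - h t) - h0) 0 := by
    have : L2To (𝓝[S \ {t}] t) (fun r => (r - t)⁻¹ • (h r - h t)) h0 :=
      ⟨eventually_of_mem self_mem_nhdsWithin fun r hr => mem_smul _ (hh.mem r hr.1), hh.mem', hh.lim⟩
    simpa using this.sub (L2To.const hh.mem')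
  have l1 : Tendsto (fun r => I (((r - t)⁻¹ • (f r - f t) - f0) ^ 2)) (𝓝[S \ {t}] t) (𝓝 0) := hf.lim
  have l2 := (h2.mul_lim h1).neg
  have e0 : I ((0 : M →ₘ[m] ℝ) * 0) = 0 := by rw [zero_mul, I_zero]
  rw [e0, neg_zero] at l2
  have l3 : Tendsto (fun r => I (C.Γ ((r - t)⁻¹ • (f r - f t) - f0) ((r - t)⁻¹ • (f r - f t) - f0)))
      (𝓝[S \ {t}] t) (𝓝 0) := by
    refine l2.congr' ?_
    filter_upwards [self_mem_nhdsWithin] with r hr
    have hD : C.IsLap ((r - t)⁻¹ • (f r - f t) - f0) ((r - t)⁻¹ • (h r - h t) - h0) := by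
      have a1 := hC.isLap_smul (-1) (hl t ht)
      have a2 := hC.isLap_add (hl r hr.1) a1
      have a3 := hC.isLap_smul (r - t)⁻¹ a2
      have a4 := hC.isLap_add a3 (hC.isLap_smul (-1) hl0)
      have e1 : (r - t)⁻¹ • (f r + (-1 : ℝ) • f t) + (-1 : ℝ) • f0
          = (r - t)⁻¹ • (f r - f t) - f0 := by algebra
      have e2 : (r - t)⁻¹ • (h r + (-1 : ℝ) • h t) + (-1 : ℝ) • h0
          = (r - t)⁻¹ • (h r - h t) - h0 := by algebra
      rwa [e1, e2] at a4
    exact (hD.2.2 _ hD.1).symm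
  have := l1.add l3
  rw [add_zero] at this
  exact this

end IsDir

end Vale.Agent.P233
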