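import Vale.Agent.P233.Bd3.B4

set_option linter.all false

/-! P233, time calculus, part 0: convergence in `L²` and in the Sobolev space along a filter. -/

open MeasureTheory Filter Topology
open scoped ENNReal NNReal

namespace Vale.Agent.P233

variable {M : Type*} [MeasurableSpace M] {m : Measure M} {C : Calc m}

/-- `u i → a` in `L²` along the filter `l`. -/
structure L2To {ι : Type*} (l : Filter ι) (u : ι → M →ₘ[m] ℝ) (a : M →ₘ[m] ℝ) : Prop where
  mem : ∀ᶠ i in l, MemLp (u i) 2 m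
  mem' : MemLp a 2 m
  lim : Tendsto (fun i => I ((u i - a) ^ 2)) l (𝓝 0)

/-- `u i → a` in `L¹` along the filter `l`. -/
structure L1To {ι : Type*} (l : Filter ι) (u : ι → M →ₘ[m] ℝ) (a : M →ₘ[m] ℝ) : Prop where
  mem : ∀ᶠ i in l, MemLp (u i) 1 m
  mem' : MemLp a 1 m
  lim : Tendsto (fun i => ∫ x, |(u i - a : M →ₘ[m] ℝ) x| ∂m) l (𝓝 0)

/-- `u i → a` in `W` along the filter `l`. -/
structure Calc.WTo (C : Calc m) {ι : Type*} (l : Filter ι) (u : ι → M →ₘ[m] ℝ)
    (a : M →ₘ[m] ℝ) : Prop where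
  mem : ∀ᶠ i in l, u i ∈ C.W
  mem' : a ∈ C.W
  lim : Tendsto (fun i => C.nrm2 (u i - a)) l (𝓝 0)

/-- `|u i| ≤ K` a.e., eventually along the filter `l`. -/
def BdTo {ι : Type*} (l : Filter ι) (u : ι → M →ₘ[m] ℝ) (K : ℝ) : Prop :=
  ∀ᶠ i in l, ∀ᵐ x ∂m, |u i x| ≤ K

section basic

variable {ι κ : Type*} {l : Filter ι} {u v : ι → M →ₘ[m] ℝ} {a b : M →ₘ[m] ℝ}

/-! ### from sequences to filters -/

theorem L2To.of_seq [l.IsCountablyGenerated] (hm : ∀ᶠ i in l, MemLp (u i) 2 m) (ha : MemLp a 2 m)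
    (h : ∀ ns : ℕ → ι, Tendsto ns atTop l → ∃ ms : ℕ → ℕ,
      Tendsto (fun n => I ((u (ns (ms n)) - a) ^ 2)) atTop (𝓝 0)) : L2To l u a :=
  ⟨hm, ha, tendsto_of_subseq_tendsto h⟩

theorem L1To.of_seq [l.IsCountablyGenerated] (hm : ∀ᶠ i in l, MemLp (u i) 1 m) (ha : MemLp a 1 m)
    (h : ∀ ns : ℕ → ι, Tendsto ns atTop l → ∃ ms : ℕ → ℕ,
      Tendsto (fun n => ∫ x, |(u (ns (ms n)) - a : M →ₘ[m] ℝ) x| ∂m) atTop (𝓝 0)) : L1To l u a :=
  ⟨hm, ha, tendsto_of_subseq_tendsto h⟩

theorem Calc.WTo.of_seq [l.IsCountablyGenerated] (hm : ∀ᶠ i in l, u i ∈ C.W) (ha : a ∈ C.W)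
    (h : ∀ ns : ℕ → ι, Tendsto ns atTop l → ∃ ms : ℕ → ℕ,
      Tendsto (fun n => C.nrm2 (u (ns (ms n)) - a)) atTop (𝓝 0)) : C.WTo l u a :=
  ⟨hm, ha, tendsto_of_subseq_tendsto h⟩

theorem L2To.comp (h : L2To l u a) {k : Filter κ} {g : κ → ι} (hg : Tendsto g k l) :
    L2To k (fun i => u (g i)) a := ⟨hg.eventually h.mem, h.mem', h.lim.comp hg⟩

theorem L1To.comp (h : L1To l u a) {k : Filter κ} {g : κ → ι} (hg : Tendsto g k l) :
    L1To k (fun i => u (g i)) a := ⟨hg.eventually h.mem, h.mem', h.lim.comp hg⟩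

theorem Calc.WTo.comp (h : C.WTo l u a) {k : Filter κ} {g : κ → ι} (hg : Tendsto g k l) :
    C.WTo k (fun i => u (g i)) a := ⟨hg.eventually h.mem, h.mem', h.lim.comp hg⟩

theorem L2To.mono {l' : Filter ι} (h : L2To l u a) (hl : l' ≤ l) : L2To l' u a :=
  ⟨hl h.mem, h.mem', h.lim.mono_left hl⟩

theorem L1To.mono {l' : Filter ι} (h : L1To l u a) (hl : l' ≤ l) : L1To l' u a :=
  ⟨hl h.mem, h.mem', h.lim.mono_left hl⟩

theorem Calc.WTo.mono {l' : Filter ι} (h : C.WTo l u a) (hl : l' ≤ l) : C.WTo l' u a :=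
  ⟨hl h.mem, h.mem', h.lim.mono_left hl⟩

theorem L2To.congr (h : L2To l u a) (huv : ∀ᶠ i in l, u i = v i) : L2To l v a := by
  refine ⟨?_, h.mem', h.lim.congr' ?_⟩
  · filter_upwards [h.mem, huv] with i h1 h2
    rwa [← h2]
  · filter_upwards [huv] with i h2
    rw [h2]

theorem L1To.congr (h : L1To l u a) (huv : ∀ᶠ i in l, u i = v i) : L1To l v a := by
  refine ⟨?_, h.mem', h.lim.congr' ?_⟩
  · filter_upwards [h.mem, huv] with i h1 h2
    rwa [← h2]
  · filter_upwards [huv] with i h2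
    rw [h2]

theorem Calc.WTo.congr (h : C.WTo l u a) (huv : ∀ᶠ i in l, u i = v i) : C.WTo l v a := by
  refine ⟨?_, h.mem', h.lim.congr' ?_⟩
  · filter_upwards [h.mem, huv] with i h1 h2
    rwa [← h2]
  · filter_upwards [huv] with i h2
    rw [h2]

/-- The sequence version of `L2To`: after a shift every sequence that tends to `l` gives a
sequence that converges in the sense of `T2`. -/
theorem L2To.toSeq (h : L2To l u a) {ns : ℕ → ι} (hns : Tendsto ns atTop l) :
    ∃ N : ℕ, T2 (fun n => u (ns (n + N))) a := by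
  obtain ⟨N, hN⟩ := eventually_atTop.1 (hns.eventually h.mem)
  exact ⟨N, fun n => hN _ (Nat.le_add_left _ _), h.mem',
    (h.lim.comp hns).comp (tendsto_add_atTop_nat N)⟩

/-! ### rules for `L²` convergence -/

theorem L2To.const (ha : MemLp a 2 m) : L2To l (fun _ => a) a := by
  refine ⟨Eventually.of_forall fun _ => ha, ha, ?_⟩
  have : (a - a) ^ 2 = 0 := by ring
  simp only [this, I_zero]
  exact tendsto_const_nhds

theorem L2To.add (h1 : L2To l u a) (h2 : L2To l v b) : L2To l (fun i => u i + v i) (a + b) := by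
  refine ⟨?_, mem_add h1.mem' h2.mem', ?_⟩
  · filter_upwards [h1.mem, h2.mem] with i p q using mem_add p q
  refine squeeze_zero' (Eventually.of_forall fun i => I_sq_nonneg _) ?_
    (by simpa using (h1.lim.const_mul 2).add (h2.lim.const_mul 2))
  filter_upwards [h1.mem, h2.mem] with i p q
  have := I_sq_add_le (mem_sub p h1.mem') (mem_sub q h2.mem')
  have e : u i - a + (v i - b) = u i + v i - (a + b) := by ring
  rwa [e] at this

theorem L2To.smul (c : ℝ) (h1 : L2To l u a) : L2To l (fun i => c • u i) (c • a) := by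
  refine ⟨?_, mem_smul _ h1.mem', ?_⟩
  · filter_upwards [h1.mem] with i p using mem_smul _ p
  have e : ∀ i, I ((c • u i - c • a) ^ 2) = c ^ 2 * I ((u i - a) ^ 2) := by
    intro i; rw [← I_smul]; congr 1; algebra
  simp only [e]
  simpa using h1.lim.const_mul (c ^ 2)

theorem L2To.neg (h1 : L2To l u a) : L2To l (fun i => -u i) (-a) := by
  have := h1.smul (-1)
  simpa using this

theorem L2To.sub (h1 : L2To l u a) (h2 : L2To l v b) : L2To l (fun i => u i - v i) (a - b) := by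
  simpa [sub_eq_add_neg] using h1.add h2.neg

/-- the norms are bounded along the filter -/
theorem L2To.bdd (h1 : L2To l u a) : ∀ᶠ i in l, I (u i ^ 2) ≤ 2 * I (a ^ 2) + 2 := by
  filter_upwards [h1.mem, h1.lim.eventually (gt_mem_nhds (show (0 : ℝ) < 1 by norm_num))]
    with i p q
  have := I_sq_add_le (mem_sub p h1.mem') h1.mem'
  have e : u i - a + a = u i := by ring
  rw [e] at this
  linarith

/-- real multipliers that converge -/
theorem L2To.smul_tendsto (h1 : L2To l u a) {c : ι → ℝ} {c0 : ℝ} (hc : Tendsto c l (𝓝 c0)) :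
    L2To l (fun i => c i • u i) (c0 • a) := by
  refine ⟨?_, mem_smul _ h1.mem', ?_⟩
  · filter_upwards [h1.mem] with i p using mem_smul _ p
  have hlim : Tendsto (fun i => 2 * ((c i - c0) ^ 2 * (2 * I (a ^ 2) + 2))
      + 2 * (c0 ^ 2 * I ((u i - a) ^ 2))) l (𝓝 0) := by
    have h2 : Tendsto (fun i => (c i - c0) ^ 2) l (𝓝 0) := by
      have := ((hc.sub_const c0).pow 2)
      simpa using this
    have := ((h2.mul_const (2 * I (a ^ 2) + 2)).const_mul 2).add
      ((h1.lim.const_mul (c0 ^ 2)).const_mul 2)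
    simpa using this
  refine squeeze_zero' (Eventually.of_forall fun i => I_sq_nonneg _) ?_ hlim
  filter_upwards [h1.mem, h1.bdd] with i p q
  have h3 := I_sq_add_le (mem_smul (c i - c0) p) (mem_smul c0 (mem_sub p h1.mem'))
  have e : (c i - c0) • u i + c0 • (u i - a) = c i • u i - c0 • a := by algebra
  have e1 : I (((c i - c0) • u i) ^ 2) = (c i - c0) ^ 2 * I (u i ^ 2) := by
    rw [← I_smul]; congr 1; algebra
  have e2 : I ((c0 • (u i - a)) ^ 2) = c0 ^ 2 * I ((u i - a) ^ 2) := by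
    rw [← I_smul]; congr 1; algebra
  rw [e, e1, e2] at h3
  have := mul_le_mul_of_nonneg_left q (sq_nonneg (c i - c0))
  linarith

/-- the integral of a product -/
theorem L2To.mul_lim (h1 : L2To l u a) (h2 : L2To l v b) :
    Tendsto (fun i => I (u i * v i)) l (𝓝 (I (a * b))) := by
  rw [tendsto_iff_dist_tendsto_zero]
  have l1 := (Real.continuous_sqrt.tendsto 0).comp h1.lim
  have l2 := (Real.continuous_sqrt.tendsto 0).comp h2.lim
  simp only [Real.sqrt_zero, Function.comp_def] at l1 l2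
  have hlim : Tendsto (fun n => √(I ((u n - a) ^ 2)) * √(I ((v n - b) ^ 2))
      + √(I ((u n - a) ^ 2)) * √(I (b ^ 2)) + √(I (a ^ 2)) * √(I ((v n - b) ^ 2))) l (𝓝 0) := by
    have := ((l1.mul l2).add (l1.mul_const (√(I (b ^ 2))))).add (l2.const_mul (√(I (a ^ 2))))
    simpa using this
  refine squeeze_zero' (Eventually.of_forall fun n => dist_nonneg) ?_ hlim
  filter_upwards [h1.mem, h2.mem] with n p q
  have a1 := mem_sub p h1.mem'
  have a2 := mem_sub q h2.mem'
  have e : u n * v n = (u n - a) * (v n - b) + (u n - a) * b + a * (v n - b) + a * b := by ring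
  rw [Real.dist_eq, e, I_add (mem_add (mem_add (mem_mul_22 a1 a2) (mem_mul_22 a1 h2.mem'))
    (mem_mul_22 h1.mem' a2)) (mem_mul_22 h1.mem' h2.mem'),
    I_add (mem_add (mem_mul_22 a1 a2) (mem_mul_22 a1 h2.mem')) (mem_mul_22 h1.mem' a2),
    I_add (mem_mul_22 a1 a2) (mem_mul_22 a1 h2.mem'), add_sub_cancel_right]
  refine (abs_add_le _ _).trans (add_le_add ((abs_add_le _ _).trans (add_le_add ?_ ?_)) ?_)
  · exact I_abs_le a1 a2
  · exact I_abs_le a1 h2.mem'
  · exact I_abs_le h1.mem' a2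

/-- the square of the norm -/
theorem L2To.sq_lim (h1 : L2To l u a) : Tendsto (fun i => I (u i ^ 2)) l (𝓝 (I (a ^ 2))) := by
  have := h1.mul_lim h1
  simpa [sq] using this

/-- uniqueness of the limit -/
theorem L2To.unique [l.NeBot] (h1 : L2To l u a) (h2 : L2To l u b) : a = b := by
  have h3 := h1.sub h2
  have h4 : Tendsto (fun i => I ((u i - u i - (a - b)) ^ 2)) l (𝓝 (I ((a - b) ^ 2))) := by
    have : ∀ i, I ((u i - u i - (a - b)) ^ 2) = I ((a - b) ^ 2) := fun i => by congr 1; ring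
    simp only [this]
    exact tendsto_const_nhds
  have h5 := tendsto_nhds_unique h4 h3.lim
  have h6 := I_sq_eq_zero (mem_sub h1.mem' h2.mem') h5
  exact sub_eq_zero.1 h6

/-- a bound passes to the limit -/
theorem L2To.bd [l.NeBot] [l.IsCountablyGenerated] (h1 : L2To l u a) {K : ℝ} (hK : BdTo l u K) :
    ∀ᵐ x ∂m, |a x| ≤ K := by
  obtain ⟨ns, hns⟩ := exists_seq_tendsto l
  obtain ⟨N, hN⟩ := h1.toSeq hns
  obtain ⟨N', hN'⟩ := eventually_atTop.1 (hns.eventually hK)
  obtain ⟨ks, hk1, hk2⟩ := exists_subseq_of_I_sq (u := fun n => u (ns (n + N + N')))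
    (f := a) (fun n => by have := hN.mem (n + N'); rwa [show n + N' + N = n + N + N' by ring] at this)
    h1.mem' (by
      have := hN.lim.comp (tendsto_add_atTop_nat N')
      refine this.congr fun n => ?_
      simp only [Function.comp]
      rw [show n + N' + N = n + N + N' by ring])
  filter_upwards [hk2, ae_all_iff.2 fun n => hN' (ks n + N + N') (Nat.le_add_left _ _)] with x p q
  exact le_of_tendsto' p.abs q

/-- bounded multipliers -/
theorem L2To.mul_bdd [l.IsCountablyGenerated] (h1 : L2To l u a) (h2 : L2To l v b) {K : ℝ}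
    (hK : BdTo l u K) (hKa : ∀ᵐ x ∂m, |a x| ≤ K) : L2To l (fun i => u i * v i) (a * b) := by
  refine L2To.of_seq ?_ (mem_mul_top (mem_top_iff.2 ⟨K, hKa⟩) h2.mem') ?_
  · filter_upwards [hK, h2.mem] with i p q using mem_mul_top (mem_top_iff.2 ⟨K, p⟩) q
  intro ns hns
  obtain ⟨N0, hN0⟩ := eventually_atTop.1 (hns.eventually (h1.mem.and (h2.mem.and hK)))
  set ns' : ℕ → ι := fun n => ns (n + N0) with hns'
  have hns1 : Tendsto ns' atTop l := hns.comp (tendsto_add_atTop_nat N0)
  have hm : ∀ n, MemLp (u (ns' n)) 2 m ∧ MemLp (v (ns' n)) 2 m ∧ ∀ᵐ x ∂m, |u (ns' n) x| ≤ K :=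
    fun n => hN0 _ (Nat.le_add_left _ _)
  obtain ⟨ks, hk1, hk2⟩ := exists_subseq_of_I_sq (u := fun n => u (ns' n)) (f := a)
    (fun n => (hm n).1) h1.mem' (h1.lim.comp hns1)
  have t1 : Tb (fun n => u (ns' (ks n))) a := ⟨⟨K, fun n => (hm _).2.2⟩, hk2⟩
  have t2 : T2 (fun n => v (ns' (ks n))) b := ⟨fun n => (hm _).2.1, h2.mem',
    h2.lim.comp (hns1.comp hk1.tendsto_atTop)⟩
  exact ⟨fun n => ks n + N0, (t1.mul t2).lim⟩

/-- `L²` convergence times `L²` convergence is `L¹` convergence. -/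
theorem L2To.mul_L1 (h1 : L2To l u a) (h2 : L2To l v b) : L1To l (fun i => u i * v i) (a * b) := by
  refine ⟨?_, mem_mul_22 h1.mem' h2.mem', ?_⟩
  · filter_upwards [h1.mem, h2.mem] with i p q using mem_mul_22 p q
  have l1 := (Real.continuous_sqrt.tendsto 0).comp h1.lim
  have l2 := (Real.continuous_sqrt.tendsto 0).comp h2.lim
  simp only [Real.sqrt_zero, Function.comp_def] at l1 l2
  have hlim : Tendsto (fun n => √(I ((u n - a) ^ 2)) * √(2 * I (b ^ 2) + 2)
      + √(I (a ^ 2)) * √(I ((v n - b) ^ 2))) l (𝓝 0) := by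
    have := (l1.mul_const (√(2 * I (b ^ 2) + 2))).add (l2.const_mul (√(I (a ^ 2))))
    simpa using this
  have key : ∀ {p q : M →ₘ[m] ℝ}, MemLp p 2 m → MemLp q 2 m →
      ∫ x, |p x| * |q x| ∂m ≤ √(I (p ^ 2)) * √(I (q ^ 2)) := by
    intro p q hp hq
    have e1 : ∫ x, |p x| ^ (2 : ℝ) ∂m = I (p ^ 2) := by
      unfold I
      refine integral_congr_ae ?_
      filter_upwards [sq_ae p] with x h
      rw [h]; simp
    have e2 : ∫ x, |q x| ^ (2 : ℝ) ∂m = I (q ^ 2) := by
      unfold I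
      refine integral_congr_ae ?_
      filter_upwards [sq_ae q] with x h
      rw [h]; simp
    have := integral_mul_norm_le_Lp_mul_Lq (μ := m) (f := p) (g := q) (p := 2) (q := 2)
      (by exact Real.HolderConjugate.two_two) (by simpa using hp) (by simpa using hq)
    simp only [Real.norm_eq_abs] at this
    rw [e1, e2, ← Real.sqrt_eq_rpow, ← Real.sqrt_eq_rpow] at this
    exact this
  refine squeeze_zero' (Eventually.of_forall fun n => integral_nonneg fun x => abs_nonneg _) ?_ hlim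
  filter_upwards [h1.mem, h2.mem, h2.bdd] with n p q r
  have i1 : Integrable (fun x => |(u n - a : M →ₘ[m] ℝ) x| * |v n x|) m := by
    have := (int_of_mem (mem_mul_22 (mem_sub p h1.mem') q)).abs
    refine this.congr ?_
    filter_upwards [mul_ae (u n - a) (v n)] with x hx
    rw [hx, abs_mul]
  have i2 : Integrable (fun x => |a x| * |(v n - b : M →ₘ[m] ℝ) x|) m := by
    have := (int_of_mem (mem_mul_22 h1.mem' (mem_sub q h2.mem'))).abs
    refine this.congr ?_
    filter_upwards [mul_ae a (v n - b)] with x hx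
    rw [hx, abs_mul]
  calc ∫ x, |(u n * v n - a * b : M →ₘ[m] ℝ) x| ∂m
      ≤ ∫ x, (|(u n - a : M →ₘ[m] ℝ) x| * |v n x| + |a x| * |(v n - b : M →ₘ[m] ℝ) x|) ∂m := by
        refine integral_mono_ae (int_of_mem (mem_sub (mem_mul_22 p q)
          (mem_mul_22 h1.mem' h2.mem'))).abs (i1.add i2) ?_
        filter_upwards [sub_ae (u n * v n) (a * b), mul_ae (u n) (v n), mul_ae a b,
          sub_ae (u n) a, sub_ae (v n) b] with x e1 e2 e3 e4 e5
        rw [e1, e2, e3, e4, e5, ← abs_mul, ← abs_mul]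
        have : u n x * v n x - a x * b x = (u n x - a x) * v n x + a x * (v n x - b x) := by ring
        rw [this]
        exact abs_add_le _ _
    _ = ∫ x, |(u n - a : M →ₘ[m] ℝ) x| * |v n x| ∂m
        + ∫ x, |a x| * |(v n - b : M →ₘ[m] ℝ) x| ∂m := integral_add i1 i2
    _ ≤ √(I ((u n - a) ^ 2)) * √(I (v n ^ 2)) + √(I (a ^ 2)) * √(I ((v n - b) ^ 2)) :=
        add_le_add (key (mem_sub p h1.mem') q) (key h1.mem' (mem_sub q h2.mem'))
    _ ≤ _ := by gcongr

/-! ### rules for `L¹` convergence -/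

theorem L1To.add (h1 : L1To l u a) (h2 : L1To l v b) : L1To l (fun i => u i + v i) (a + b) := by
  refine ⟨?_, mem_add h1.mem' h2.mem', ?_⟩
  · filter_upwards [h1.mem, h2.mem] with i p q using mem_add p q
  refine squeeze_zero' (Eventually.of_forall fun n => integral_nonneg fun x => abs_nonneg _) ?_
    (by simpa using h1.lim.add h2.lim)
  filter_upwards [h1.mem, h2.mem] with i p q
  have i1 := (int_of_mem (mem_sub p h1.mem')).abs
  have i2 := (int_of_mem (mem_sub q h2.mem')).abs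
  rw [← integral_add i1 i2]
  refine integral_mono_ae (int_of_mem (mem_sub (mem_add p q) (mem_add h1.mem' h2.mem'))).abs
    (i1.add i2) ?_
  filter_upwards [sub_ae (u i + v i) (a + b), add_ae (u i) (v i), add_ae a b,
          sub_ae (u i) a, sub_ae (v i) b] with x e1 e2 e3 e4 e5
  rw [e1, e2, e3, e4, e5]
  have : u i x + v i x - (a x + b x) = (u i x - a x) + (v i x - b x) := by ring
  rw [this]
  exact abs_add_le _ _

theorem L1To.smul (c : ℝ) (h1 : L1To l u a) : L1To l (fun i => c • u i) (c • a) := by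
  refine ⟨?_, mem_smul _ h1.mem', ?_⟩
  · filter_upwards [h1.mem] with i p using mem_smul _ p
  have e : ∀ i, ∫ x, |(c • u i - c • a : M →ₘ[m] ℝ) x| ∂m
      = |c| * ∫ x, |(u i - a : M →ₘ[m] ℝ) x| ∂m := by
    intro i
    rw [← integral_const_mul]
    refine integral_congr_ae ?_
    filter_upwards [sub_ae (c • u i) (c • a), smul_ae (u i) c, smul_ae a c, sub_ae (u i) a]
      with x e1 e2 e3 e4
    rw [e1, e2, e3, e4, ← mul_sub, abs_mul]
  simp only [e]
  simpa using h1.lim.const_mul |c|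

theorem L1To.neg (h1 : L1To l u a) : L1To l (fun i => -u i) (-a) := by
  have := h1.smul (-1)
  simpa using this

theorem L1To.sub (h1 : L1To l u a) (h2 : L1To l v b) : L1To l (fun i => u i - v i) (a - b) := by
  simpa [sub_eq_add_neg] using h1.add h2.neg

theorem L1To.const (ha : MemLp a 1 m) : L1To l (fun _ => a) a := by
  refine ⟨Eventually.of_forall fun _ => ha, ha, ?_⟩
  have e : ∫ x, |(a - a : M →ₘ[m] ℝ) x| ∂m = 0 := by
    have : a - a = 0 := by ring
    rw [this]
    rw [integral_congr_ae (g := fun _ => (0 : ℝ))]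
    · simp
    · filter_upwards [zero_ae (M := M) (m := m)] with x hx
      rw [hx]; simp
  simp only [e]
  exact tendsto_const_nhds

theorem L1To.I_lim (h1 : L1To l u a) : Tendsto (fun i => I (u i)) l (𝓝 (I a)) := by
  rw [tendsto_iff_dist_tendsto_zero]
  refine squeeze_zero' (Eventually.of_forall fun n => dist_nonneg) ?_ h1.lim
  filter_upwards [h1.mem] with i p
  rw [Real.dist_eq, ← I_sub p h1.mem']
  exact abs_integral_le_integral_abs

/-- bounded multipliers: `u` bounded and convergent in `L²` (up to constants: `u i - a` is in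
`L²`), `v` convergent in `L¹`. -/
theorem L1To.bdd_mul [l.IsCountablyGenerated] {w : ι → M →ₘ[m] ℝ} {c : M →ₘ[m] ℝ}
    (h1 : Tendsto (fun i => I ((w i - c) ^ 2)) l (𝓝 0)) (h1m : ∀ᶠ i in l, MemLp (w i - c : M →ₘ[m] ℝ) 2 m)
    (h2 : L1To l v b) {K : ℝ} (hK : BdTo l w K) (hKc : ∀ᵐ x ∂m, |c x| ≤ K) :
    L1To l (fun i => w i * v i) (c * b) := by
  refine L1To.of_seq ?_ (mem_mul_top (mem_top_iff.2 ⟨K, hKc⟩) h2.mem') ?_
  · filter_upwards [hK, h2.mem] with i p q using mem_mul_top (mem_top_iff.2 ⟨K, p⟩) q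
  intro ns hns
  obtain ⟨N0, hN0⟩ := eventually_atTop.1 (hns.eventually (h1m.and (h2.mem.and hK)))
  set ns' : ℕ → ι := fun n => ns (n + N0) with hns'
  have hns1 : Tendsto ns' atTop l := hns.comp (tendsto_add_atTop_nat N0)
  have hm : ∀ n, MemLp (w (ns' n) - c : M →ₘ[m] ℝ) 2 m ∧ MemLp (v (ns' n)) 1 m ∧
      ∀ᵐ x ∂m, |w (ns' n) x| ≤ K := fun n => hN0 _ (Nat.le_add_left _ _)
  obtain ⟨ks, hk1, hk2⟩ := exists_subseq_of_I_sq (u := fun n => w (ns' n) - c) (f := 0)
    (fun n => (hm n).1) mem_zero (by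
      have := h1.comp hns1
      refine this.congr fun n => ?_
      simp)
  refine ⟨fun n => ks n + N0, ?_⟩
  have t2 : Tendsto (fun n => ∫ x, |(v (ns' (ks n)) - b : M →ₘ[m] ℝ) x| ∂m) atTop (𝓝 0) :=
    h2.lim.comp (hns1.comp hk1.tendsto_atTop)
  have t3 : Tendsto (fun n => ∫ x, |w (ns' (ks n)) x - c x| * |b x| ∂m) atTop (𝓝 0) := by
    have := tendsto_integral_of_dominated_convergence (μ := m) (F := fun n x =>
      |w (ns' (ks n)) x - c x| * |b x|) (f := fun _ => 0) (fun x => 2 * K * |b x|)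
      (fun n => ?_) ?_ (fun n => ?_) ?_
    · simpa using this
    · exact (((w (ns' (ks n))).aestronglyMeasurable.sub c.aestronglyMeasurable).norm.mul
        b.aestronglyMeasurable.norm)
    · exact (int_of_mem h2.mem').abs.const_mul _
    · filter_upwards [(hm (ks n)).2.2, hKc] with x e1 e2
      rw [Real.norm_eq_abs, abs_mul, abs_abs, abs_abs]
      refine mul_le_mul_of_nonneg_right ?_ (abs_nonneg _)
      exact (abs_sub _ _).trans (by linarith)
    · filter_upwards [hk2, zero_ae (M := M) (m := m), ae_all_iff.2 fun n => sub_ae (w (ns' (ks n))) c]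
        with x e1 e2 e3
      rw [e2] at e1
      simp only [e3] at e1
      have := e1.abs.mul_const |b x|
      simpa using this
  have hK0 : BdTo l w K := hK
  refine squeeze_zero' (Eventually.of_forall fun n => integral_nonneg fun x => abs_nonneg _)
    (Eventually.of_forall fun n => ?_) (by simpa using (t2.const_mul K).add t3)
  have m1 : MemLp (w (ns' (ks n)) : M →ₘ[m] ℝ) ∞ m := mem_top_iff.2 ⟨K, (hm _).2.2⟩
  have m2 : MemLp c ∞ m := mem_top_iff.2 ⟨K, hKc⟩
  have i1 : Integrable (fun x => K * |(v (ns' (ks n)) - b : M →ₘ[m] ℝ) x|) m :=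
    ((int_of_mem (mem_sub (hm _).2.1 h2.mem')).abs).const_mul _
  have i2 : Integrable (fun x => |w (ns' (ks n)) x - c x| * |b x|) m := by
    have := (int_of_mem (mem_mul_top (mem_sub m1 m2) h2.mem')).abs
    refine this.congr ?_
    filter_upwards [mul_ae (w (ns' (ks n)) - c) b, sub_ae (w (ns' (ks n))) c] with x e1 e2
    rw [e1, e2, abs_mul]
  rw [← integral_const_mul, ← integral_add i1 i2]
  refine integral_mono_ae (int_of_mem (mem_sub (mem_mul_top m1 (hm _).2.1)
    (mem_mul_top m2 h2.mem'))).abs (i1.add i2) ?_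
  filter_upwards [sub_ae (w (ns' (ks n)) * v (ns' (ks n))) (c * b),
    mul_ae (w (ns' (ks n))) (v (ns' (ks n))), mul_ae c b, sub_ae (v (ns' (ks n))) b,
    (hm (ks n)).2.2] with x e1 e2 e3 e4 e5
  rw [e1, e2, e3, e4]
  have : w (ns' (ks n)) x * v (ns' (ks n)) x - c x * b x
    = w (ns' (ks n)) x * (v (ns' (ks n)) x - b x) + (w (ns' (ks n)) x - c x) * b x := by ring
  rw [this]
  refine (abs_add_le _ _).trans ?_
  rw [abs_mul, abs_mul]
  gcongr

end basic

end Vale.Agent.P233
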