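import Vale.Agent.P233.H545.Int

/-!
P233: parabolic maximum principle in the abstract calculus (weak form; the test function is
`(f_t - l(t))_+²`, so only the `C¹` chain rule is used).
-/

set_option linter.all false

open MeasureTheory Filter Topology Set
open scoped ENNReal NNReal

namespace Vale.Agent.P233

/-! ### real inequalities -/

namespace MP

/-- `(s - l)_+` -/
noncomputable def ps (l s : ℝ) : ℝ := max (s - l) 0

theorem ps_nonneg (l s : ℝ) : 0 ≤ ps l s := le_max_right _ _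

theorem ps_cont (l : ℝ) : Continuous (ps l) := (continuous_id.sub continuous_const).max continuous_const

theorem ps_cont2 : Continuous fun p : ℝ × ℝ => ps p.1 p.2 :=
  (continuous_snd.sub continuous_fst).max continuous_const

theorem ps_le {l s : ℝ} (hl : 0 ≤ l) : ps l s ≤ |s| :=
  max_le (by linarith [le_abs_self s]) (abs_nonneg s)

theorem ps_lip (l s t : ℝ) : |ps l s - ps l t| ≤ |s - t| := by
  unfold ps
  have := abs_max_sub_max_le_abs (s - l) (t - l) 0
  have e : s - l - (t - l) = s - t := by ring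
  rwa [e] at this

theorem ps_pos {l s : ℝ} (h : l < s) : ps l s = s - l := max_eq_left (by linarith)
theorem ps_zero {l s : ℝ} (h : s ≤ l) : ps l s = 0 := max_eq_right (by linarith)

theorem sq_sub_le {l s t : ℝ} (hl : 0 ≤ l) :
    |ps l s ^ 2 - ps l t ^ 2| ≤ 2 * (|t| * |s - t|) + |s - t| ^ 2 := by
  have h1 := ps_lip l s t
  have h2 : ps l s ≤ |s| := ps_le hl
  have h3 : ps l t ≤ |t| := ps_le hl
  have h4 : |s| ≤ |t| + |s - t| := by
    have := abs_sub_abs_le_abs_sub s t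
    linarith
  have e : ps l s ^ 2 - ps l t ^ 2 = (ps l s - ps l t) * (ps l s + ps l t) := by ring
  rw [e, abs_mul, abs_of_nonneg (add_nonneg (ps_nonneg l s) (ps_nonneg l t))]
  have h5 : |ps l s - ps l t| * (ps l s + ps l t) ≤ |s - t| * (2 * |t| + |s - t|) :=
    mul_le_mul h1 (by linarith) (add_nonneg (ps_nonneg l s) (ps_nonneg l t)) (abs_nonneg _)
  linarith

theorem cub_sub_le {x y B : ℝ} (hx : 0 ≤ x) (hy : 0 ≤ y) (hxB : x ≤ B) (hyB : y ≤ B) :
    |x ^ 3 - y ^ 3| ≤ 2 * B * |x ^ 2 - y ^ 2| := by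
  have e1 : x ^ 3 - y ^ 3 = (x - y) * (x ^ 2 + x * y + y ^ 2) := by ring
  have e2 : x ^ 2 - y ^ 2 = (x - y) * (x + y) := by ring
  have hB : 0 ≤ B := hx.trans hxB
  rw [e1, e2, abs_mul, abs_mul, abs_of_nonneg (show 0 ≤ x ^ 2 + x * y + y ^ 2 by positivity),
    abs_of_nonneg (show 0 ≤ x + y by positivity)]
  have h1 : x ^ 2 + x * y + y ^ 2 ≤ 2 * B * (x + y) := by
    have a1 := mul_le_mul_of_nonneg_left hxB hx
    have a2 := mul_le_mul_of_nonneg_left hyB hy
    have a3 := mul_le_mul_of_nonneg_left hyB hx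
    have a4 : 0 ≤ B * y := mul_nonneg hB hy
    nlinarith
  calc |x - y| * (x ^ 2 + x * y + y ^ 2) ≤ |x - y| * (2 * B * (x + y)) :=
        mul_le_mul_of_nonneg_left h1 (abs_nonneg _)
    _ = 2 * B * (|x - y| * (x + y)) := by ring

/-- convexity of `(s_+)^3` -/
theorem cub_convex (l s l' t : ℝ) :
    ps l s ^ 3 - ps l' t ^ 3 ≤ 3 * (ps l s ^ 2 * (s - l - (t - l'))) := by
  set u := s - l
  set v := t - l'
  have hu : ps l s = max u 0 := rfl
  have hv : ps l' t = max v 0 := rfl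
  rw [hu, hv]
  rcases le_or_gt u 0 with h | h
  · rw [max_eq_right h]
    have : 0 ≤ max v 0 ^ 3 := pow_nonneg (le_max_right _ _) 3
    linarith
  · rw [max_eq_left h.le]
    have h1 : 0 ≤ max v 0 := le_max_right _ _
    have h2 : v ≤ max v 0 := le_max_left _ _
    set w := max v 0
    have h3 : u ^ 2 * v ≤ u ^ 2 * w := mul_le_mul_of_nonneg_left h2 (sq_nonneg u)
    have h4 : 0 ≤ (u - w) ^ 2 * (2 * u + w) := by positivity
    nlinarith

/-- derivative of `(s - l)_+²` -/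
theorem hasDerivAt_sq (l s : ℝ) : HasDerivAt (fun s => ps l s ^ 2) (2 * ps l s) s := by
  rcases lt_trichotomy s l with h | h | h
  · have h1 : (fun s => ps l s ^ 2) =ᶠ[𝓝 s] fun _ => (0 : ℝ) := by
      filter_upwards [Iio_mem_nhds h] with t ht
      rw [ps_zero (le_of_lt ht)]; simp
    rw [ps_zero h.le, mul_zero]
    exact (hasDerivAt_const s (0 : ℝ)).congr_of_eventuallyEq h1
  · subst h
    rw [ps_zero le_rfl, mul_zero]
    rw [hasDerivAt_iff_isLittleO]
    rw [Asymptotics.isLittleO_iff]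
    intro c hc
    filter_upwards [Metric.ball_mem_nhds s hc] with t ht
    rw [ps_zero (le_refl s)]
    have h1 : |t - s| < c := by rwa [Metric.mem_ball, Real.dist_eq] at ht
    have h2 : ps s t ≤ |t - s| := max_le (le_abs_self _) (abs_nonneg _)
    have h3 := ps_nonneg s t
    simp only [smul_zero, sub_zero, Real.norm_eq_abs]
    rw [zero_pow two_ne_zero, sub_zero, abs_of_nonneg (sq_nonneg _), sq]
    exact mul_le_mul (h2.trans h1.le) h2 h3 hc.le
  · have h1 : (fun s => ps l s ^ 2) =ᶠ[𝓝 s] fun s => (s - l) ^ 2 := by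
      filter_upwards [Ioi_mem_nhds h] with t ht
      rw [ps_pos ht]
    rw [ps_pos h]
    have h2 : HasDerivAt (fun s => (s - l) ^ 2) (2 * (s - l)) s := by
      have := ((hasDerivAt_id s).sub_const l).fun_pow 2
      simpa using this
    exact h2.congr_of_eventuallyEq h1

end MP

open MP

variable {M : Type*} [MeasurableSpace M] {m : Measure M} {C : Calc m}

/-- `(f - l)_+²` as a class. -/
noncomputable def sqp (l : ℝ) (f : M →ₘ[m] ℝ) : M →ₘ[m] ℝ :=
  AEEqFun.comp (fun s => ps l s ^ 2) ((ps_cont l).pow 2) f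

theorem sqp_ae (l : ℝ) (f : M →ₘ[m] ℝ) : ∀ᵐ x ∂m, sqp l f x = ps l (f x) ^ 2 :=
  AEEqFun.coeFn_comp _ _ f

theorem sqp_nonneg (l : ℝ) (f : M →ₘ[m] ℝ) : 0 ≤ sqp l f := by
  rw [nonneg_iff_ae]
  filter_upwards [sqp_ae l f] with x h
  rw [h]; exact sq_nonneg _

theorem sqp_mem1 {l : ℝ} (hl : 0 ≤ l) {f : M →ₘ[m] ℝ} (hf : MemLp f 2 m) :
    MemLp (sqp l f) 1 m := by
  refine mem_of_le (mem_sq hf) ?_
  filter_upwards [sqp_ae l f, sq_ae f] with x h1 h2
  rw [h1, h2, abs_of_nonneg (sq_nonneg _), abs_of_nonneg (sq_nonneg _), ← sq_abs (f x)]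
  have h3 := ps_nonneg l (f x)
  have h4 : ps l (f x) ≤ |f x| := ps_le hl
  gcongr

theorem sqp_bd {l : ℝ} (hl : 0 ≤ l) {f : M →ₘ[m] ℝ} {B : ℝ} (hB : ∀ᵐ x ∂m, |f x| ≤ B) :
    ∀ᵐ x ∂m, |sqp l f x| ≤ B ^ 2 := by
  filter_upwards [sqp_ae l f, hB] with x h1 h2
  rw [h1, abs_of_nonneg (sq_nonneg _)]
  have h3 := ps_nonneg l (f x)
  have h4 : ps l (f x) ≤ B := (ps_le hl).trans h2
  gcongr

theorem sqp_mem2 {l : ℝ} (hl : 0 ≤ l) {f : M →ₘ[m] ℝ} (hf : MemLp f 2 m) {B : ℝ}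
    (hB : ∀ᵐ x ∂m, |f x| ≤ B) : MemLp (sqp l f) 2 m := by
  refine mem_of_le (mem_smul B hf) ?_
  filter_upwards [sqp_ae l f, smul_ae f B, hB] with x h1 h2 h3
  rw [h1, h2, abs_of_nonneg (sq_nonneg _), abs_mul, sq]
  have h4 := ps_nonneg l (f x)
  have h5 : ps l (f x) ≤ |f x| := ps_le hl
  exact mul_le_mul (h5.trans (h3.trans (le_abs_self _))) h5 h4 (abs_nonneg _)

/-- convergence of `(f_r - l_r)_+²` in `L¹` -/
theorem sqp_tendsto {ι : Type*} {F : Filter ι} [F.IsCountablyGenerated] {f : ι → M →ₘ[m] ℝ}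
    {f0 : M →ₘ[m] ℝ} {l : ι → ℝ} {l0 : ℝ} (hf : L2To F f f0) (hl : Tendsto l F (𝓝 l0))
    (hl0 : ∀ᶠ i in F, 0 ≤ l i) (hl00 : 0 ≤ l0) :
    L1To F (fun i => sqp (l i) (f i)) (sqp l0 f0) := by
  refine ⟨?_, sqp_mem1 hl00 hf.mem', ?_⟩
  · filter_upwards [hf.mem, hl0] with i p q using sqp_mem1 q p
  -- the two parts
  have l1 : Tendsto (fun i => √(I ((f i - f0) ^ 2))) F (𝓝 0) := by
    have := (Real.continuous_sqrt.tendsto 0).comp hf.lim
    simp only [Real.sqrt_zero, Function.comp_def] at this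
    exact this
  have t1 : Tendsto (fun i => 2 * (√(I (f0 ^ 2)) * √(I ((f i - f0) ^ 2))) + I ((f i - f0) ^ 2)) F
      (𝓝 0) := by
    have := ((l1.const_mul (√(I (f0 ^ 2)))).const_mul 2).add hf.lim
    simpa using this
  have t2 : Tendsto (fun i => ∫ x, |ps (l i) (f0 x) ^ 2 - ps l0 (f0 x) ^ 2| ∂m) F (𝓝 0) := by
    have := tendsto_integral_filter_of_dominated_convergence (μ := m) (l := F)
      (F := fun i x => |ps (l i) (f0 x) ^ 2 - ps l0 (f0 x) ^ 2|) (f := fun _ => 0)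
      (fun x => 2 * (f0 ^ 2 : M →ₘ[m] ℝ) x) ?_ ?_ ?_ ?_
    · simpa using this
    · filter_upwards with i
      exact ((((ps_cont (l i)).pow 2).comp_aestronglyMeasurable f0.aestronglyMeasurable).sub
        (((ps_cont l0).pow 2).comp_aestronglyMeasurable f0.aestronglyMeasurable)).norm
    · filter_upwards [hl0] with i hi
      filter_upwards [sq_ae f0] with x hx
      rw [Real.norm_eq_abs, abs_abs, hx]
      have h1 : ps (l i) (f0 x) ^ 2 ≤ f0 x ^ 2 := by
        rw [← sq_abs (f0 x)]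
        have h3 := ps_nonneg (l i) (f0 x)
        have h4 : ps (l i) (f0 x) ≤ |f0 x| := ps_le hi
        gcongr
      have h2 : ps l0 (f0 x) ^ 2 ≤ f0 x ^ 2 := by
        rw [← sq_abs (f0 x)]
        have h3 := ps_nonneg l0 (f0 x)
        have h4 : ps l0 (f0 x) ≤ |f0 x| := ps_le hl00
        gcongr
      rw [abs_le]
      constructor <;> nlinarith [sq_nonneg (ps (l i) (f0 x)), sq_nonneg (ps l0 (f0 x)),
        sq_nonneg (f0 x)]
    · exact (int_of_mem (mem_sq hf.mem')).const_mul 2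
    · filter_upwards with x
      have h1 : Tendsto (fun i => ps (l i) (f0 x)) F (𝓝 (ps l0 (f0 x))) := by
        have := (ps_cont2.tendsto (l0, f0 x)).comp (hl.prodMk_nhds (tendsto_const_nhds (x := f0 x)))
        exact this
      have := ((h1.pow 2).sub_const (ps l0 (f0 x) ^ 2)).abs
      simpa using this
  refine squeeze_zero' (Eventually.of_forall fun i => integral_nonneg fun x => abs_nonneg _) ?_
    (by simpa using t1.add t2)
  filter_upwards [hf.mem, hl0] with i p q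
  have m0 := mem_sub p hf.mem'
  have i0 : Integrable (fun x => |f0 x| * |(f i - f0 : M →ₘ[m] ℝ) x|) m := by
    have := (int_of_mem (mem_mul_22 hf.mem' m0)).abs
    refine this.congr ?_
    filter_upwards [mul_ae f0 (f i - f0)] with x hx
    rw [hx, abs_mul]
  have i1 : Integrable (fun x => ((f i - f0) ^ 2 : M →ₘ[m] ℝ) x) m := int_of_mem (mem_sq m0)
  have i2 : Integrable (fun x => |ps (l i) (f0 x) ^ 2 - ps l0 (f0 x) ^ 2|) m := by
    have := (int_of_mem (mem_sub (sqp_mem1 q hf.mem') (sqp_mem1 hl00 hf.mem'))).abs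
    refine this.congr ?_
    filter_upwards [sub_ae (sqp (l i) f0) (sqp l0 f0), sqp_ae (l i) f0, sqp_ae l0 f0] with x a1 a2 a3
    rw [a1, a2, a3]
  have key : ∫ x, |f0 x| * |(f i - f0 : M →ₘ[m] ℝ) x| ∂m ≤
      √(I (f0 ^ 2)) * √(I ((f i - f0) ^ 2)) := by
    have e1 : ∫ x, |f0 x| ^ (2 : ℝ) ∂m = I (f0 ^ 2) := by
      unfold I
      refine integral_congr_ae ?_
      filter_upwards [sq_ae f0] with x h
      rw [h]; simp
    have e2 : ∫ x, |(f i - f0 : M →ₘ[m] ℝ) x| ^ (2 : ℝ) ∂m = I ((f i - f0) ^ 2) := by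
      unfold I
      refine integral_congr_ae ?_
      filter_upwards [sq_ae (f i - f0)] with x h
      rw [h]; simp
    have := integral_mul_norm_le_Lp_mul_Lq (μ := m) (f := f0) (g := (f i - f0 : M →ₘ[m] ℝ))
      (p := 2) (q := 2) (by exact Real.HolderConjugate.two_two) (by simpa using hf.mem')
      (by simpa using m0)
    simp only [Real.norm_eq_abs] at this
    rw [e1, e2, ← Real.sqrt_eq_rpow, ← Real.sqrt_eq_rpow] at this
    exact this
  calc ∫ x, |(sqp (l i) (f i) - sqp l0 f0 : M →ₘ[m] ℝ) x| ∂m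
      ≤ ∫ x, ((2 * (|f0 x| * |(f i - f0 : M →ₘ[m] ℝ) x|) + ((f i - f0) ^ 2 : M →ₘ[m] ℝ) x)
          + |ps (l i) (f0 x) ^ 2 - ps l0 (f0 x) ^ 2|) ∂m := by
        refine integral_mono_ae (int_of_mem (mem_sub (sqp_mem1 q p) (sqp_mem1 hl00 hf.mem'))).abs
          (((i0.const_mul 2).add i1).add i2) ?_
        filter_upwards [sub_ae (sqp (l i) (f i)) (sqp l0 f0), sqp_ae (l i) (f i), sqp_ae l0 f0,
          sub_ae (f i) f0, sq_ae (f i - f0)] with x a1 a2 a3 a4 a5
        rw [a1, a2, a3, a4, a5, a4]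
        have h1 := sq_sub_le (l := l i) (s := f i x) (t := f0 x) q
        have e : ps (l i) (f i x) ^ 2 - ps l0 (f0 x) ^ 2
          = (ps (l i) (f i x) ^ 2 - ps (l i) (f0 x) ^ 2)
            + (ps (l i) (f0 x) ^ 2 - ps l0 (f0 x) ^ 2) := by ring
        rw [e]
        refine (abs_add_le _ _).trans (add_le_add ?_ le_rfl)
        rwa [sq_abs] at h1
    _ = (2 * ∫ x, |f0 x| * |(f i - f0 : M →ₘ[m] ℝ) x| ∂m + I ((f i - f0) ^ 2))
          + ∫ x, |ps (l i) (f0 x) ^ 2 - ps l0 (f0 x) ^ 2| ∂m := by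
        unfold I
        rw [← integral_const_mul, ← integral_add (i0.const_mul 2) i1]
        exact integral_add ((i0.const_mul 2).add i1) i2
    _ ≤ _ := by linarith

/-- bounded `L¹` convergence is `L²` convergence -/
theorem L1To.toL2 {ι : Type*} {F : Filter ι} {u : ι → M →ₘ[m] ℝ} {u0 : M →ₘ[m] ℝ}
    (h : L1To F u u0) {K : ℝ} (hK : ∀ᶠ i in F, ∀ᵐ x ∂m, 0 ≤ u i x ∧ u i x ≤ K)
    (hK0 : ∀ᵐ x ∂m, 0 ≤ u0 x ∧ u0 x ≤ K) : L2To F u u0 := by
  have mem : ∀ {w : M →ₘ[m] ℝ}, MemLp w 1 m → (∀ᵐ x ∂m, 0 ≤ w x ∧ w x ≤ K) → MemLp w 2 m := by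
    intro w hw hwK
    refine memLp_two_of_sq (mem_of_le (mem_smul K hw) ?_)
    filter_upwards [sq_ae w, smul_ae w K, hwK] with x a1 a2 a3
    rw [a1, a2, abs_of_nonneg (sq_nonneg _), abs_mul, sq, abs_of_nonneg a3.1]
    exact mul_le_mul_of_nonneg_right (a3.2.trans (le_abs_self _)) a3.1
  refine ⟨?_, mem h.mem' hK0, ?_⟩
  · filter_upwards [h.mem, hK] with i p q using mem p q
  refine squeeze_zero' (Eventually.of_forall fun i => I_sq_nonneg _) ?_
    (by simpa using h.lim.const_mul |K|)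
  filter_upwards [h.mem, hK] with i p q
  have m1 := mem_sub p h.mem'
  have m2 := mem_sub (mem p q) (mem h.mem' hK0)
  unfold I
  rw [← integral_const_mul]
  refine integral_mono_ae (int_of_mem (mem_sq m2)) ((int_of_mem m1).abs.const_mul _) ?_
  filter_upwards [sq_ae (u i - u0), sub_ae (u i) u0, q, hK0] with x a1 a2 a3 a4
  simp only [a1, a2]
  rw [← sq_abs, sq]
  refine mul_le_mul_of_nonneg_right ?_ (abs_nonneg _)
  refine le_trans ?_ (le_abs_self K)
  rw [abs_le]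
  constructor <;> linarith

namespace IsDir

variable (hC : IsDir C)
include hC

theorem sqp_mem {l : ℝ} (hl : 0 ≤ l) {f : M →ₘ[m] ℝ} (hf : f ∈ C.A) : sqp l f ∈ C.A ∧
    ∀ g ∈ C.W, ∀ᵐ x ∂m, C.Γ (sqp l f) g x = 2 * ps l (f x) * C.Γ f g x := by
  obtain ⟨B, hB⟩ := mem_top_iff.1 hf.2
  have hd : ∀ t ∈ Icc (-B) B, HasDerivWithinAt (fun s => ps l s ^ 2) (2 * ps l t) (Icc (-B) B) t :=
    fun t _ => (hasDerivAt_sq l t).hasDerivWithinAt
  have hc : Continuous fun s => 2 * ps l s := continuous_const.mul (ps_cont l)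
  have hc2 : Continuous fun s => ps l s ^ 2 := (ps_cont l).pow 2
  obtain ⟨h1, h2⟩ := hC.chain_bdd hf.1 hB hc2 hc hd
    (by show ps l 0 ^ 2 = 0; rw [ps_zero hl]; simp)
  refine ⟨⟨h1, mem_top_iff.2 ⟨B ^ 2, sqp_bd hl hB⟩⟩, fun g hg => ?_⟩
  have e := h2 g hg
  rw [eq_iff_ae] at e
  filter_upwards [e, mul_ae (AEEqFun.comp (fun s => 2 * ps l s) hc f) (C.Γ f g),
    AEEqFun.coeFn_comp (fun s => 2 * ps l s) hc f] with x a1 a2 a3
  rw [show sqp l f = AEEqFun.comp (fun s => ps l s ^ 2) hc2 f from rfl, a1, a2, a3]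
  rfl

/-- **Parabolic maximum principle.** `f_t ∈ W ∩ L^∞`, continuous in `L²` on `[a,b]` and
differentiable in `L²` on `(a,b)`; `∂_t f ≤ σ Δ f + X` weakly, where
`X ≤ p |∇f| + c (f - l) + l'` on `{f > l}`; `f_a ≤ l(a)`. Then `f_t ≤ l(t)`. -/
theorem par_max {a b σ B p c : ℝ} (hab : a ≤ b) (hσ : 0 < σ)
    {f f' X : ℝ → M →ₘ[m] ℝ} {l l' : ℝ → ℝ}
    (hfW : ∀ t ∈ Icc a b, f t ∈ C.W) (hB : ∀ t ∈ Icc a b, ∀ᵐ x ∂m, |f t x| ≤ B)
    (hcont : ∀ t ∈ Icc a b, Tendsto (fun r => I ((f r - f t) ^ 2)) (𝓝[Icc a b] t) (𝓝 0))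
    (hd : ∀ t ∈ Ioo a b, DL2 f (f' t) (Icc a b) t)
    (hl0 : ∀ t ∈ Icc a b, 0 ≤ l t) (hlc : ContinuousOn l (Icc a b))
    (hl : ∀ t ∈ Ioo a b, HasDerivWithinAt l (l' t) (Ioi t) t)
    (hX : ∀ t ∈ Ioo a b, ∀ φ ∈ C.A, MemLp (φ * X t : M →ₘ[m] ℝ) 1 m)
    (hw : ∀ t ∈ Ioo a b, ∀ φ ∈ C.A, 0 ≤ φ →
      I (φ * f' t) ≤ -(σ * I (C.Γ (f t) φ)) + I (φ * X t))
    (hXl : ∀ t ∈ Ioo a b, ∀ᵐ x ∂m, l t < f t x →
      X t x ≤ p * √(C.Γ (f t) (f t) x) + c * (f t x - l t) + l' t)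
    (h0 : ∀ᵐ x ∂m, f a x ≤ l a) : ∀ t ∈ Icc a b, ∀ᵐ x ∂m, f t x ≤ l t := by
  have hB0 : ∀ t ∈ Icc a b, ∀ᵐ x ∂m, 0 ≤ B := fun t ht => by
    filter_upwards [hB t ht] with x hx using (abs_nonneg _).trans hx
  set F : ℝ → ℝ := fun t => ∫ x, ps (l t) (f t x) ^ 3 ∂m with hF
  have hf2 : ∀ t ∈ Icc a b, MemLp (f t) 2 m := fun t ht => hC.memLp _ (hfW t ht)
  -- integrability of the cube
  have hint : ∀ t ∈ Icc a b, Integrable (fun x => ps (l t) (f t x) ^ 3) m := by
    intro t ht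
    have h1 := (int_of_mem (sqp_mem1 (hl0 t ht) (hf2 t ht))).const_mul B
    refine h1.mono' (((ps_cont (l t)).pow 3).comp_aestronglyMeasurable
      (f t).aestronglyMeasurable) ?_
    filter_upwards [sqp_ae (l t) (f t), hB t ht] with x a1 a2
    have h3 := ps_nonneg (l t) (f t x)
    have h4 : ps (l t) (f t x) ≤ B := (ps_le (hl0 t ht)).trans a2
    rw [Real.norm_eq_abs, abs_of_nonneg (pow_nonneg h3 3), a1]
    calc ps (l t) (f t x) ^ 3 = ps (l t) (f t x) * ps (l t) (f t x) ^ 2 := by ring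
      _ ≤ B * ps (l t) (f t x) ^ 2 := mul_le_mul_of_nonneg_right h4 (sq_nonneg _)
  have hF0 : ∀ t, 0 ≤ F t := fun t => integral_nonneg fun x => pow_nonneg (ps_nonneg _ _) 3
  -- convergence of the squares
  have hP : ∀ t ∈ Icc a b, L1To (𝓝[Icc a b] t) (fun r => sqp (l r) (f r)) (sqp (l t) (f t)) := by
    intro t ht
    exact sqp_tendsto ⟨eventually_of_mem self_mem_nhdsWithin fun r hr => hf2 r hr, hf2 t ht,
      hcont t ht⟩ (hlc t ht) (eventually_of_mem self_mem_nhdsWithin fun r hr => hl0 r hr) (hl0 t ht)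
  have hPb : ∀ t ∈ Icc a b, ∀ᵐ x ∂m, 0 ≤ sqp (l t) (f t) x ∧ sqp (l t) (f t) x ≤ B ^ 2 := by
    intro t ht
    filter_upwards [nonneg_iff_ae.1 (sqp_nonneg (l t) (f t)), sqp_bd (hl0 t ht) (hB t ht)]
      with x a1 a2
    exact ⟨a1, (le_abs_self _).trans a2⟩
  have hP2 : ∀ t ∈ Icc a b, L2To (𝓝[Icc a b] t) (fun r => sqp (l r) (f r)) (sqp (l t) (f t)) :=
    fun t ht => (hP t ht).toL2 (eventually_of_mem self_mem_nhdsWithin fun r hr => hPb r hr)
      (hPb t ht)
  -- continuity of `F`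
  have hFc : ContinuousOn F (Icc a b) := by
    intro t ht
    show Tendsto F (𝓝[Icc a b] t) (𝓝 (F t))
    rw [tendsto_iff_dist_tendsto_zero]
    refine squeeze_zero' (Eventually.of_forall fun n => dist_nonneg) ?_
      (by simpa using (hP t ht).lim.const_mul (2 * B))
    filter_upwards [self_mem_nhdsWithin] with r hr
    have m1 := mem_sub (sqp_mem1 (hl0 r hr) (hf2 r hr)) (sqp_mem1 (hl0 t ht) (hf2 t ht))
    rw [Real.dist_eq, ← integral_sub (hint r hr) (hint t ht), ← integral_const_mul]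
    refine abs_integral_le_integral_abs.trans (integral_mono_ae ((hint r hr).sub (hint t ht)).abs
      ((int_of_mem m1).abs.const_mul _) ?_)
    filter_upwards [sub_ae (sqp (l r) (f r)) (sqp (l t) (f t)), sqp_ae (l r) (f r),
      sqp_ae (l t) (f t), hB r hr, hB t ht] with x a1 a2 a3 a4 a5
    simp only [a1, a2, a3]
    exact cub_sub_le (ps_nonneg _ _) (ps_nonneg _ _) ((ps_le (hl0 r hr)).trans a4)
      ((ps_le (hl0 t ht)).trans a5)
  -- initial value
  have hFa : F a ≤ 0 := by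
    have : F a = 0 := by
      simp only [hF]
      rw [integral_congr_ae (g := fun _ => (0 : ℝ))]
      · simp
      · filter_upwards [h0] with x hx
        rw [ps_zero hx]; simp
    rw [this]
  -- the differential inequality
  set k : ℝ := 3 * (|c| + p ^ 2 / (8 * σ)) with hk
  have hk0 : 0 ≤ k := by positivity
  have hFz := RF.dini_zero' hab hFc hFa hk0 (fun t ht _ R hR => ?_)
  · intro t ht
    have h1 : F t = 0 := le_antisymm (hFz t ht) (hF0 t)
    have h2 := (integral_eq_zero_iff_of_nonneg_ae (Eventually.of_forall fun x =>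
      pow_nonneg (ps_nonneg (l t) (f t x)) 3) (hint t ht)).1 h1
    filter_upwards [h2] with x hx
    by_contra hcon
    push Not at hcon
    have h3 : ps (l t) (f t x) ^ 3 = 0 := hx
    rw [ps_pos hcon] at h3
    have := pow_pos (sub_pos.2 hcon) 3
    linarith
  · -- bound of the slope
    have htI : t ∈ Icc a b := Ioo_subset_Icc_self ht
    set P := sqp (l t) (f t) with hPdef
    obtain ⟨hPA, hPΓ⟩ := hC.sqp_mem (hl0 t htI) ⟨hfW t htI, mem_top_iff.2 ⟨B, hB t htI⟩⟩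
    have hPA : P ∈ C.A := hPA
    have hle : 𝓝[>] t ≤ 𝓝[Icc a b \ {t}] t := by
      rw [nhdsWithin_le_iff]
      filter_upwards [Ioo_mem_nhdsGT ht.2] with r hr
      exact ⟨⟨ht.1.le.trans hr.1.le, hr.2.le⟩, (ne_of_gt hr.1)⟩
    have hle' : 𝓝[>] t ≤ 𝓝[Icc a b] t := hle.trans (nhdsWithin_mono _ diff_subset)
    have hDQ : L2To (𝓝[>] t) (fun r => (r - t)⁻¹ • (f r - f t)) (f' t) := by
      have : L2To (𝓝[Icc a b \ {t}] t) (fun r => (r - t)⁻¹ • (f r - f t)) (f' t) :=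
        ⟨eventually_of_mem self_mem_nhdsWithin fun r hr => mem_smul _ ((hd t ht).mem r hr.1),
          (hd t ht).mem', (hd t ht).lim⟩
      exact this.mono hle
    have lim1 : Tendsto (fun r => I (sqp (l r) (f r) * ((r - t)⁻¹ • (f r - f t)))) (𝓝[>] t)
        (𝓝 (I (P * f' t))) := ((hP2 t htI).mono hle').mul_lim hDQ
    have lim2 : Tendsto (fun r => (r - t)⁻¹ * (l r - l t)) (𝓝[>] t) (𝓝 (l' t)) := by
      have := (hasDerivWithinAt_iff_tendsto_slope' (by simp : t ∉ Ioi t)).1 (hl t ht)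
      refine (this.congr fun r => ?_)
      rw [slope_def_field, div_eq_inv_mul]
    have lim3 : Tendsto (fun r => I (sqp (l r) (f r))) (𝓝[>] t) (𝓝 (I P)) :=
      ((hP t htI).mono hle').I_lim
    have limU : Tendsto (fun r => 3 * (I (sqp (l r) (f r) * ((r - t)⁻¹ • (f r - f t)))
        - (r - t)⁻¹ * (l r - l t) * I (sqp (l r) (f r)))) (𝓝[>] t)
        (𝓝 (3 * (I (P * f' t) - l' t * I P))) := (lim1.sub (lim2.mul lim3)).const_mul 3
    -- bound of the limit
    have hb : 3 * (I (P * f' t) - l' t * I P) ≤ k * F t := by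
      have h1 := hw t ht P hPA (sqp_nonneg _ _)
      have mX := hX t ht P hPA
      have mG : MemLp (C.Γ (f t) P) 1 m := hC.Γ_mem1 (hfW t htI) hPA.1
      have mP : MemLp P 1 m := sqp_mem1 (hl0 t htI) (hf2 t htI)
      have h2 : -(σ * I (C.Γ (f t) P)) + I (P * X t) - l' t * I P
          ≤ (|c| + p ^ 2 / (8 * σ)) * F t := by
        have e : -(σ * I (C.Γ (f t) P)) + I (P * X t) - l' t * I P
            = I ((-σ) • C.Γ (f t) P + P * X t - (l' t) • P) := by
          rw [I_sub (mem_add (mem_smul _ mG) mX) (mem_smul _ mP), I_add (mem_smul _ mG) mX,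
            I_smul, I_smul]
          ring
        rw [e, hF]
        simp only
        unfold I
        rw [← integral_const_mul]
        refine integral_mono_ae (int_of_mem (mem_sub (mem_add (mem_smul _ mG) mX)
          (mem_smul _ mP))) ((hint t htI).const_mul _) ?_
        filter_upwards [sub_ae ((-σ) • C.Γ (f t) P + P * X t) ((l' t) • P),
          add_ae ((-σ) • C.Γ (f t) P) (P * X t), smul_ae (C.Γ (f t) P) (-σ), mul_ae P (X t),
          smul_ae P (l' t), sqp_ae (l t) (f t), hPΓ (f t) (hfW t htI),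
          eq_iff_ae.1 (hC.symm _ (hfW t htI) _ hPA.1), hXl t ht,
          hC.Γ_nonneg_ae (hfW t htI)] with x a1 a2 a3 a4 a5 a6 a7 a8 a9 a10
        rw [a1, a2, a3, a4, a5, a8, a7, a6]
        rcases le_or_gt (f t x) (l t) with h | h
        · rw [ps_zero h]; simp
        · have b1 := a9 h
          rw [ps_pos h]
          set ψ := f t x - l t
          have hψ : 0 < ψ := sub_pos.2 h
          set g := √(C.Γ (f t) (f t) x)
          have hg : C.Γ (f t) (f t) x = g ^ 2 := (Real.sq_sqrt a10).symm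
          rw [hg]
          have b2 : ψ ^ 2 * X t x ≤ ψ ^ 2 * (p * g + c * ψ + l' t) :=
            mul_le_mul_of_nonneg_left b1 (sq_nonneg _)
          have b3 : ψ * (p * g * ψ) ≤ ψ * (2 * σ * g ^ 2 + p ^ 2 / (8 * σ) * ψ ^ 2) := by
            refine mul_le_mul_of_nonneg_left ?_ hψ.le
            have b4 : 0 ≤ 2 * σ * (g - p * ψ / (4 * σ)) ^ 2 := by positivity
            have b5 : 2 * σ * (g - p * ψ / (4 * σ)) ^ 2
              = 2 * σ * g ^ 2 - p * g * ψ + p ^ 2 / (8 * σ) * ψ ^ 2 := by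
              field_simp
              ring
            linarith
          have b6 : ψ ^ 2 * (c * ψ) ≤ ψ ^ 2 * (|c| * ψ) :=
            mul_le_mul_of_nonneg_left (mul_le_mul_of_nonneg_right (le_abs_self c) hψ.le)
              (sq_nonneg _)
          nlinarith
      have : I (P * f' t) - l' t * I P ≤ (|c| + p ^ 2 / (8 * σ)) * F t := by linarith
      rw [hk]; linarith
    have hev : ∀ᶠ r in 𝓝[>] t, 3 * (I (sqp (l r) (f r) * ((r - t)⁻¹ • (f r - f t)))
        - (r - t)⁻¹ * (l r - l t) * I (sqp (l r) (f r))) < R :=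
      limU.eventually (gt_mem_nhds (lt_of_le_of_lt hb hR))
    refine Eventually.frequently ?_
    filter_upwards [hev, Ioo_mem_nhdsGT ht.2] with r hr1 hr2
    refine lt_of_le_of_lt ?_ hr1
    have hrI : r ∈ Icc a b := ⟨ht.1.le.trans hr2.1.le, hr2.2.le⟩
    have hrt : 0 < r - t := sub_pos.2 hr2.1
    have mPr : MemLp (sqp (l r) (f r)) 1 m := sqp_mem1 (hl0 r hrI) (hf2 r hrI)
    have mPr2 : MemLp (sqp (l r) (f r)) 2 m := sqp_mem2 (hl0 r hrI) (hf2 r hrI) (hB r hrI)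
    have md : MemLp (f r - f t : M →ₘ[m] ℝ) 2 m := mem_sub (hf2 r hrI) (hf2 t htI)
    have e1 : 3 * (I (sqp (l r) (f r) * ((r - t)⁻¹ • (f r - f t)))
        - (r - t)⁻¹ * (l r - l t) * I (sqp (l r) (f r)))
        = (r - t)⁻¹ * I ((3 : ℝ) • (sqp (l r) (f r) * (f r - f t)
          - (l r - l t) • sqp (l r) (f r))) := by
      rw [I_smul, I_sub (mem_mul_22 mPr2 md) (mem_smul _ mPr), I_smul]
      have : sqp (l r) (f r) * ((r - t)⁻¹ • (f r - f t))
          = (r - t)⁻¹ • (sqp (l r) (f r) * (f r - f t)) := by algebra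
      rw [this, I_smul]
      ring
    rw [e1]
    refine mul_le_mul_of_nonneg_left ?_ (inv_nonneg.2 hrt.le)
    rw [hF]
    simp only
    rw [← integral_sub (hint r hrI) (hint t htI)]
    unfold I
    refine integral_mono_ae ((hint r hrI).sub (hint t htI)) (int_of_mem (mem_smul _
      (mem_sub (mem_mul_22 mPr2 md) (mem_smul _ mPr)))) ?_
    filter_upwards [smul_ae (sqp (l r) (f r) * (f r - f t) - (l r - l t) • sqp (l r) (f r)) 3,
      sub_ae (sqp (l r) (f r) * (f r - f t)) ((l r - l t) • sqp (l r) (f r)),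
      mul_ae (sqp (l r) (f r)) (f r - f t), smul_ae (sqp (l r) (f r)) (l r - l t), sub_ae (f r) (f t),
      sqp_ae (l r) (f r)] with x a1 a2 a3 a4 a5 a6
    rw [a1, a2, a3, a4, a5, a6]
    have := cub_convex (l r) (f r x) (l t) (f t x)
    linarith

end IsDir

end Vale.Agent.P233
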